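import Vale.Agent.P073.St
import Vale.Agent.P073.SQ.Spec
import Vale.Agent.P073.ConHomeo

/-!
# P073: removable singular sets for `p < 3`: statements of the rows
-/

namespace Vale.Agent.P073.H880

open MeasureTheory Set Filter Topology Metric
open Vale.Agent.P073.St (V Mat euc)
open Vale.Agent.P073.SQ (ev cube dE SuppDiffeo)
open scoped ContDiff ENNReal

/-- A locally finite family of cubes in `Ω` with disjoint interiors whose open cubes cover `K`. -/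
structure Boxes (Ω K : Set V) where
  /-- index -/
  ι : Type
  cnt : Countable ι
  /-- centre -/
  c : ι → V
  /-- half side -/
  ρ : ι → ℝ
  pos : ∀ i, 0 < ρ i
  sub : ∀ i, cube (c i) (ρ i) ⊆ Ω
  disj : ∀ i j, i ≠ j → ∀ x : V, (∀ l, |x l - c i l| < ρ i) → ¬ ∀ l, |x l - c j l| ≤ ρ j
  cover : ∀ x ∈ K, ∃ i, ∀ l, |x l - c i l| < ρ i
  fin : ∀ x ∈ Ω, ∃ N ∈ 𝓝 x, {i | (cube (c i) (ρ i) ∩ N).Nonempty}.Finite

/-- **Row A**: the squeeze of a cube (`SQ.SpecCube`) for all `p < 3`, without `Z`. -/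
def SpecCube3 : Prop :=
  ∀ p : ℝ, 1 ≤ p → p < 3 → ∃ C : ℝ≥0∞, C ≠ ⊤ ∧
    ∀ (c : V) (ρ : ℝ) (W : Set V) (G : V → V) (ε : ℝ≥0∞), 0 < ρ →
      IsOpen W → cube c ρ ⊆ W → ContDiffOn ℝ 1 G W → ε ≠ 0 →
      ∃ (K : Set V) (s : V → V), SuppDiffeo K s ∧ K ⊆ {x | ∀ l, |x l - c l| < ρ} ∧
        ∑ j, ∫⁻ x in cube c ρ, dE p (G ∘ s) j x ≤
          C * (∑ i, ∑ σ ∈ ({1, -1} : Finset ℝ), ∑ j ∈ Finset.univ.erase i,
            ∫⁻ x in cube c ρ, dE p G j (Function.update x i (c i + σ * ρ))) + ε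

/-- **Row B**: choice of the cubes. `K` is relatively closed in `Ω` and its three coordinate
projections have measure zero; `H` is a measurable function with finite integral. -/
def SpecBoxes : Prop :=
  ∀ (Ω K : Set V) (H : V → ℝ≥0∞) (ε : ℝ), IsOpen Ω → Bornology.IsBounded Ω → K ⊆ Ω →
    IsOpen (Ω \ K) → (∀ k : Fin 3, volume ((fun x : V => x k) '' K) = 0) → Measurable H →
    ∫⁻ x in Ω, H x ≠ ⊤ → 0 < ε →
    ∃ W : Boxes Ω K, volume (⋃ i, cube (W.c i) (W.ρ i)) ≤ ENNReal.ofReal ε ∧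
      ∫⁻ x in ⋃ i, cube (W.c i) (W.ρ i), H x ≤ ENNReal.ofReal ε ∧
      ∑' i, ∑ k, ∑ σ ∈ ({1, -1} : Finset ℝ),
        ∫⁻ x in cube (W.c i) (W.ρ i), H (Function.update x k (W.c i k + σ * W.ρ i)) ≤
          ENNReal.ofReal ε

/-- **Row C**: filling the cubes by conical homeomorphisms (Alexander's theorem and coning). `g` is
a homeomorphism of `Ω` onto `Λ` which is conical at the points of `Ω \ K`. -/
def SpecFill : Prop :=
  ∀ (Ω Λ K : Set V) (g : V → V) (W : Boxes Ω K), IsOpen Ω → IsOpen Λ → K ⊆ Ω → IsOpen (Ω \ K) →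
    St.IsHomeo Ω Λ g → (∀ x ∈ Ω \ K, _root_.P073.ConicalWithinAt g Ω x) →
    ∃ h : _root_.P073.ConHomeo Ω Λ, ∀ x ∈ Ω, (∀ i, ¬ ∀ l, |x l - W.c i l| < W.ρ i) →
      h.toFun x = g x

end Vale.Agent.P073.H880
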