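import Vale.Agent.P073.H880.Rows

/-!
# P073: step 1 (fine piecewise affine approximation off `K`) and bijectivity: statements
-/

namespace Vale.Agent.P073.H880

open MeasureTheory Set Filter Topology Metric
open Vale.Agent.P073.St (V Mat euc)
open scoped ContDiff ENNReal

/-- **Step 1**: fine piecewise affine approximation of `f` off `K`, with `g = f` on `K`. The last
clause bounds the difference quotients of `g - f` at every point of `Ω \ K`. -/
def SpecFine : Prop :=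
  ∀ (Ω Λ K : Set V) (f : V → V) (ε : V → ℝ), IsOpen Ω → Bornology.IsBounded Ω → IsOpen Λ →
    Bornology.IsBounded Λ → K ⊆ Ω → IsOpen (Ω \ K) → St.IsHomeo Ω Λ f →
    ContDiffOn ℝ 1 f (Ω \ K) → (∀ x ∈ Ω \ K, ∀ v, fderiv ℝ f x v = 0 → v = 0) →
    ContinuousOn ε (Ω \ K) → (∀ x ∈ Ω \ K, 0 < ε x) →
    ∃ g : V → V, St.IsHomeo Ω Λ g ∧ (∀ x ∈ K, g x = f x) ∧
      (∀ x ∈ Ω \ K, _root_.P073.ConicalWithinAt g Ω x) ∧ (∀ x ∈ Ω \ K, ‖g x - f x‖ ≤ ε x) ∧
      ∀ x ∈ Ω \ K, ∀ᶠ y in 𝓝 x, ‖(g y - g x) - (f y - f x)‖ ≤ ε x * ‖y - x‖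

/-- **Row E**: a local homeomorphism close to a homeomorphism between open sets (not assumed
connected) is a homeomorphism onto the same set (componentwise from
`Vale.Agent.P073.bijective_of_near_id`, see `P073.SM.bij_of_close`). -/
def SpecBij : Prop :=
  ∀ (Ω Λ : Set V) (f g : V → V), IsOpen Ω → IsOpen Λ → Λᶜ.Nonempty → St.IsHomeo Ω Λ f →
    IsLocalHomeomorphOn g Ω →
    (∀ x ∈ Ω, ‖g x - f x‖ ≤ (1 / 4) * min (infDist (f x) Λᶜ) 1) → St.IsHomeo Ω Λ g

end Vale.Agent.P073.H880
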