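import Vale.Agent.P073.H880.Fine

/-!
# P073: step 1, assembly
-/

namespace Vale.Agent.P073.H880

open MeasureTheory Set Filter Topology Metric
open Vale.Agent.P073.St (V Mat euc)
open scoped ENNReal NNReal

theorem GG_off {η : V → ℝ} (hη : Slow η) {f : V → V} {x : V} (hx : η x ≤ 0) : GG η f x = f x := by
  have h : ¬ ∃ n, x ∈ Rg η n := by
    rintro ⟨n, hn'⟩
    have := Rg_lower hη hn'
    linarith [hn_pos n]
  classical
  rw [GG, dif_neg h]

/-- a map close to an injective linear map is a local homeomorphism -/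
theorem exists_local {g : V → V} {L : V →L[ℝ] V} {x₀ : V} {r a c : ℝ} (hr : 0 < r) (ha : 0 ≤ a)
    (hc : 0 < c) (hL : ∀ v, (a + c) * ‖v‖ ≤ ‖L v‖)
    (hg : ∀ x ∈ ball x₀ r, ∀ y ∈ ball x₀ r, ‖(g x - g y) - L (x - y)‖ ≤ a * ‖x - y‖) :
    ∃ e : OpenPartialHomeomorph V V, x₀ ∈ e.source ∧ g = e := by
  have hinj : Function.Injective (L : V →ₗ[ℝ] V) := by
    refine (injective_iff_map_eq_zero _).2 fun v hv => ?_
    have h1 := hL v
    have h2 : L v = 0 := hv
    rw [h2, norm_zero] at h1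
    by_contra hne
    have := norm_pos_iff.2 hne
    have : 0 < (a + c) * ‖v‖ := by positivity
    linarith
  let e : V ≃ₗ[ℝ] V := LinearEquiv.ofInjectiveEndo (L : V →ₗ[ℝ] V) hinj
  let e' : V ≃L[ℝ] V := e.toContinuousLinearEquiv
  have he' : ∀ v, e' v = L v := fun v => rfl
  have happ : ApproximatesLinearOn g (e' : V →L[ℝ] V) (ball x₀ r) (Real.toNNReal a) := by
    intro x hx y hy
    have := hg x hx y hy
    rw [Real.coe_toNNReal a ha]
    exact this
  have hN : Real.toNNReal a < (‖(e'.symm : V →L[ℝ] V)‖₊)⁻¹ := by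
    have h1 : ‖(e'.symm : V →L[ℝ] V)‖ ≤ (a + c)⁻¹ := by
      refine ContinuousLinearMap.opNorm_le_bound _ (by positivity) fun w => ?_
      have h2 := hL (e'.symm w)
      rw [← he', e'.apply_symm_apply] at h2
      rw [inv_mul_eq_div, le_div_iff₀ (by positivity)]
      rw [mul_comm]
      exact h2
    have hpos : 0 < ‖(e'.symm : V →L[ℝ] V)‖₊ := e'.nnnorm_symm_pos
    have h3 : a + c ≤ (‖(e'.symm : V →L[ℝ] V)‖)⁻¹ := by
      rw [le_inv_comm₀ (by positivity) (by exact_mod_cast hpos)]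
      exact h1
    rw [← NNReal.coe_lt_coe, Real.coe_toNNReal a ha, NNReal.coe_inv, coe_nnnorm]
    linarith
  refine ⟨happ.toOpenPartialHomeomorph g (ball x₀ r) (Or.inr hN) isOpen_ball, ?_, ?_⟩
  · exact mem_ball_self hr
  · rfl

/-- **Step 1** -/
theorem specFine (hB : SpecBij) : SpecFine := by
  intro Ω Λ K f ε hΩ hΩb hΛ hΛb hK hU hf hfs hinj hε hε0
  have hf0 := hf
  obtain ⟨h, hinv, hfc, hhc⟩ := hf
  set U : Set V := Ω \ K with hUdef
  set Λ' : Set V := Λ ∩ h ⁻¹' U with hΛ'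
  have hΛ'o : IsOpen Λ' := hhc.isOpen_inter_preimage hΛ hU
  have hΛ'n : Λ'ᶜ.Nonempty := by
    by_contra hcon
    rw [not_nonempty_iff_eq_empty, compl_empty_iff] at hcon
    have : Bornology.IsBounded (univ : Set V) := hΛb.subset (by rw [← hcon]; exact inter_subset_left)
    exact NormedSpace.unbounded_univ ℝ V this
  have hfU : ∀ x ∈ U, f x ∈ Λ' := fun x hx => ⟨(hinv.1 x hx.1).1, by
    show h (f x) ∈ U
    rw [(hinv.1 x hx.1).2]; exact hx⟩
  have hfK : ∀ x ∈ K, f x ∈ Λ'ᶜ := fun x hx hcon => by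
    have h1 : h (f x) ∈ U := hcon.2
    rw [(hinv.1 x (hK hx)).2] at h1
    exact h1.2 hx
  set d : V → ℝ := fun x => (1 / 4) * min (infDist (f x) Λ'ᶜ) 1 with hd
  have hdc : ContinuousOn d U := by
    have h1 : ContinuousOn (fun x => infDist (f x) Λ'ᶜ) U :=
      (continuous_infDist_pt _).comp_continuousOn (hfc.mono sdiff_subset)
    exact continuousOn_const.mul (h1.inf continuousOn_const)
  have hd0 : ∀ x ∈ U, 0 < d x := by
    intro x hx
    have : 0 < infDist (f x) Λ'ᶜ :=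
      (hΛ'o.isClosed_compl.notMem_iff_infDist_pos hΛ'n).1 (by simpa using hfU x hx)
    simp only [hd]
    positivity
  obtain ⟨η, hη, hη1, hηU, hηP⟩ := exists_mesh hU hfs hinj hε hε0 hdc hd0
  -- the local estimates
  have hloc : ∀ x₀ ∈ U, ∃ a c : ℝ, 0 ≤ a ∧ 0 < c ∧ a + a / 30 ≤ ε x₀ ∧
      (∀ v, (a + c) * ‖v‖ ≤ ‖fderiv ℝ f x₀ v‖) ∧
      (∀ x, ‖x - x₀‖ ≤ η x₀ / 5 → ∀ y, ‖y - x₀‖ ≤ η x₀ / 5 →
        ‖(GG η f x - GG η f y) - fderiv ℝ f x₀ (x - y)‖ ≤ a * ‖x - y‖) ∧
      ‖GG η f x₀ - f x₀‖ ≤ min (ε x₀) (d x₀) ∧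
      ∀ v, ‖v - x₀‖ ≤ η x₀ / 5 → ‖(f v - f x₀) - fderiv ℝ f x₀ (v - x₀)‖ ≤ a / 30 * ‖v - x₀‖ := by
    intro x₀ hx₀
    obtain ⟨ω, c, h1, h2, h3, h4, h5, h6⟩ := hηP x₀ hx₀
    have hpos := (hηU x₀).1 hx₀
    obtain ⟨g1, g2⟩ := GG_local hη hη1 (f := f) hpos (M := fderiv ℝ f x₀)
      (b := f x₀ - fderiv ℝ f x₀ x₀) h1 (fun v hv => by
        have := h6 v hv
        rw [map_sub] at this
        have e : f v - (fderiv ℝ f x₀ v + (f x₀ - fderiv ℝ f x₀ x₀)) =
            f v - (f x₀ + (fderiv ℝ f x₀ v - fderiv ℝ f x₀ x₀)) := by abel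
        rw [e]
        exact this)
    refine ⟨30 * ω, c, by positivity, h2, by linarith, h4, g1, ?_, fun v hv => ?_⟩
    · have := g2 x₀ (by rw [sub_self, norm_zero]; positivity)
      rw [add_sub_cancel] at this
      exact this.trans h5
    · have := h6 v (hv.trans (by linarith))
      have e : (f v - f x₀) - fderiv ℝ f x₀ (v - x₀) =
          f v - (f x₀ + fderiv ℝ f x₀ (v - x₀)) := by abel
      rw [e]
      refine this.trans (le_of_eq ?_)
      ring
  have hgloc : IsLocalHomeomorphOn (GG η f) U := by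
    intro x₀ hx₀
    obtain ⟨a, c, h1, h2, h3, h4, h5, h6, h7⟩ := hloc x₀ hx₀
    have hpos := (hηU x₀).1 hx₀
    refine exists_local (r := η x₀ / 5) (by positivity) h1 h2 h4 fun x hx y hy => ?_
    rw [mem_ball, dist_eq_norm] at hx hy
    exact h5 x hx.le y hy.le
  have hclose : ∀ x ∈ U, ‖GG η f x - f x‖ ≤ d x := fun x hx => by
    obtain ⟨a, c, h1, h2, h3, h4, h5, h6, h7⟩ := hloc x hx
    exact h6.trans (min_le_right _ _)
  have hfUhomeo : St.IsHomeo U Λ' f := ⟨h, ⟨fun x hx => ⟨hfU x hx, (hinv.1 x hx.1).2⟩,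
    fun y hy => ⟨hy.2, (hinv.2 y hy.1).2⟩⟩, hfc.mono sdiff_subset, hhc.mono inter_subset_left⟩
  obtain ⟨k, hkinv, hgc, hkc⟩ := hB U Λ' f (GG η f) hU hΛ'o hΛ'n hfUhomeo hgloc hclose
  have hgK : ∀ x ∈ K, GG η f x = f x := fun x hx => by
    refine GG_off hη ?_
    by_contra hcon
    exact ((hηU x).2 (not_le.1 hcon)).2 hx
  -- the distance to the image of a point of `K`
  have hdle : ∀ x, ∀ y ∈ Λ'ᶜ, d x ≤ (1 / 4) * ‖f x - y‖ := by
    intro x y hy
    simp only [hd]
    have h1 : infDist (f x) Λ'ᶜ ≤ ‖f x - y‖ := by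
      rw [← dist_eq_norm]; exact infDist_le_dist_of_mem hy
    have h2 : min (infDist (f x) Λ'ᶜ) 1 ≤ infDist (f x) Λ'ᶜ := min_le_left _ _
    linarith
  refine ⟨GG η f, ?_, hgK, ?_, ?_, ?_⟩
  · classical
    refine ⟨fun y => if y ∈ Λ' then k y else h y, ⟨?_, ?_⟩, ?_, ?_⟩
    · intro x hx
      by_cases hxK : x ∈ K
      · rw [hgK x hxK]
        refine ⟨(hinv.1 x hx).1, ?_⟩
        show (if f x ∈ Λ' then k (f x) else h (f x)) = x
        rw [if_neg (hfK x hxK)]
        exact (hinv.1 x hx).2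
      · have h1 := hkinv.1 x ⟨hx, hxK⟩
        refine ⟨h1.1.1, ?_⟩
        show (if GG η f x ∈ Λ' then k (GG η f x) else h (GG η f x)) = x
        rw [if_pos h1.1]
        exact h1.2
    · intro y hy
      by_cases hyΛ : y ∈ Λ'
      · have h1 := hkinv.2 y hyΛ
        show (if y ∈ Λ' then k y else h y) ∈ Ω ∧ GG η f (if y ∈ Λ' then k y else h y) = y
        rw [if_pos hyΛ]
        exact ⟨h1.1.1, h1.2⟩
      · show (if y ∈ Λ' then k y else h y) ∈ Ω ∧ GG η f (if y ∈ Λ' then k y else h y) = y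
        rw [if_neg hyΛ]
        have h1 := hinv.2 y hy
        have h2 : h y ∈ K := by
          by_contra hcon
          exact hyΛ ⟨hy, ⟨h1.1, hcon⟩⟩
        rw [hgK _ h2]
        exact h1
    · intro x hx
      by_cases hxK : x ∈ K
      · have hlim : Tendsto (fun y => (5 / 4) * ‖f y - f x‖) (𝓝[Ω] x) (𝓝 0) := by
          have h1 : Tendsto (fun y => f y - f x) (𝓝[Ω] x) (𝓝 (f x - f x)) :=
            (hfc x hx).sub tendsto_const_nhds
          rw [sub_self] at h1
          have h2 := h1.norm.const_mul (5 / 4)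
          rwa [norm_zero, mul_zero] at h2
        rw [ContinuousWithinAt, tendsto_iff_norm_sub_tendsto_zero]
        refine squeeze_zero' (Eventually.of_forall fun _ => norm_nonneg _) ?_ hlim
        filter_upwards [self_mem_nhdsWithin] with y hy
        rw [hgK x hxK]
        have h3 : ‖GG η f y - f y‖ ≤ (1 / 4) * ‖f y - f x‖ := by
          by_cases hyK : y ∈ K
          · rw [hgK y hyK, sub_self, norm_zero]; positivity
          · exact (hclose y ⟨hy, hyK⟩).trans (hdle y _ (hfK x hxK))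
        have h4 := norm_add_le (GG η f y - f y) (f y - f x)
        rw [sub_add_sub_cancel] at h4
        linarith
      · exact (hgc.continuousAt (hU.mem_nhds ⟨hx, hxK⟩)).continuousWithinAt
    · intro y₀ hy₀
      by_cases hyΛ : y₀ ∈ Λ'
      · have h1 : ContinuousAt k y₀ := hkc.continuousAt (hΛ'o.mem_nhds hyΛ)
        refine (h1.congr ?_).continuousWithinAt
        filter_upwards [hΛ'o.mem_nhds hyΛ] with y hy
        rw [if_pos hy]
      · have hk0 : (if y₀ ∈ Λ' then k y₀ else h y₀) = h y₀ := if_neg hyΛ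
        -- `f (k' y)` tends to `y₀`
        have hmap : ∀ y ∈ Λ, (if y ∈ Λ' then k y else h y) ∈ Ω := by
          intro y hy
          split_ifs with h1
          · exact (hkinv.2 y h1).1.1
          · exact (hinv.2 y hy).1
        have hest : ∀ y ∈ Λ, ‖f (if y ∈ Λ' then k y else h y) - y₀‖ ≤ (4 / 3) * ‖y - y₀‖ := by
          intro y hy
          split_ifs with h1
          · have h2 := hkinv.2 y h1
            have h3 := (hclose (k y) h2.1).trans (hdle (k y) y₀ hyΛ)
            rw [h2.2] at h3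
            have h4 := norm_sub_le_norm_sub_add_norm_sub (f (k y)) y y₀
            rw [norm_sub_rev (f (k y)) y] at h4
            linarith
          · rw [(hinv.2 y hy).2]
            linarith [norm_nonneg (y - y₀)]
        have hlim : Tendsto (fun y => f (if y ∈ Λ' then k y else h y)) (𝓝[Λ] y₀) (𝓝[Λ] y₀) := by
          refine tendsto_nhdsWithin_of_tendsto_nhds_of_eventually_within _ ?_ ?_
          · rw [tendsto_iff_norm_sub_tendsto_zero]
            have h5 : Tendsto (fun y => (4 / 3) * ‖y - y₀‖) (𝓝[Λ] y₀) (𝓝 0) := by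
              have h6 : Tendsto (fun y : V => y - y₀) (𝓝[Λ] y₀) (𝓝 (y₀ - y₀)) :=
                (continuous_id.continuousWithinAt).sub tendsto_const_nhds
              rw [sub_self] at h6
              have h7 := h6.norm.const_mul (4 / 3)
              rwa [norm_zero, mul_zero] at h7
            refine squeeze_zero' (Eventually.of_forall fun _ => norm_nonneg _) ?_ h5
            filter_upwards [self_mem_nhdsWithin] with y hy using hest y hy
          · filter_upwards [self_mem_nhdsWithin] with y hy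
            exact (hinv.1 _ (hmap y hy)).1
        have h8 := (hhc y₀ hy₀).tendsto.comp hlim
        show Tendsto _ _ (𝓝 (if y₀ ∈ Λ' then k y₀ else h y₀))
        rw [hk0]
        refine h8.congr' ?_
        filter_upwards [self_mem_nhdsWithin] with y hy
        exact (hinv.1 _ (hmap y hy)).2
  · intro x hx
    have hcon := (GG_locPA hη hη1 hηU f).conicalOn hU x hx
    obtain ⟨r, hr, hr'⟩ := hcon
    obtain ⟨ρ, hρ, hb⟩ := Metric.nhds_basis_closedBall.mem_iff.1 (hU.mem_nhds hx)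
    refine ⟨min r ρ, lt_min hr hρ, fun v hv _ t ht => ?_⟩
    have h1 : x + v ∈ U := hb (by
      rw [mem_closedBall, dist_eq_norm, add_sub_cancel_left]; exact hv.trans (min_le_right _ _))
    obtain ⟨h2, h3⟩ := hr' v (hv.trans (min_le_left _ _)) h1 t ht
    exact ⟨h2.1, h3⟩
  · intro x hx
    obtain ⟨a, c, h1, h2, h3, h4, h5, h6, h7⟩ := hloc x hx
    exact h6.trans (min_le_left _ _)
  · intro x hx
    obtain ⟨a, c, h1, h2, h3, h4, h5, h6, h7⟩ := hloc x hx
    have hpos := (hηU x).1 hx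
    filter_upwards [closedBall_mem_nhds x (show 0 < η x / 5 by positivity)] with y hy
    rw [mem_closedBall, dist_eq_norm] at hy
    have e1 := h5 y hy x (by rw [sub_self, norm_zero]; positivity)
    have e2 := h7 y hy
    have e3 : (GG η f y - GG η f x) - (f y - f x) =
        ((GG η f y - GG η f x) - fderiv ℝ f x (y - x)) -
        ((f y - f x) - fderiv ℝ f x (y - x)) := by abel
    rw [e3]
    refine (norm_sub_le _ _).trans ?_
    have e4 : (a + a / 30) * ‖y - x‖ ≤ ε x * ‖y - x‖ := by gcongr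
    linarith

end Vale.Agent.P073.H880
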