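import Vale.Agent.P073.H880.Weak
import Vale.Agent.P073.SMF.Main
import Vale.Agent.P073.SM.Final

/-!
# P073: conical homeomorphisms are diffeomorphically approximable, for every exponent
-/

namespace Vale.Agent.P073.H880

open MeasureTheory Set Filter Topology Metric Vale.Agent.P073.St Vale.Agent.P073.AB
open Vale.Agent.P073.SQ (ev)
open _root_.P073 (ConHomeo)
open scoped ContDiff ENNReal

variable {p : ℝ} {Ω Λ : Set V}

/-- a conical homeomorphism has diffeomorphisms with small error -/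
theorem exists_diffeo (hp : 1 ≤ p) (hΩ : St.IsBoundedDomain Ω) (hΛ : St.IsBoundedDomain Λ)
    (h : ConHomeo Ω Λ) {F : V → Mat} (hF : St.IsSobolev p Ω h.toFun F) {ε : ℝ} (hε : 0 < ε) :
    ∃ g : V → V, St.IsDiffeo Ω Λ g ∧ err p Ω h.toFun F g ≤ ENNReal.ofReal ε := by
  have hp0 : 0 < p := by linarith
  have hv := PK.volume_ne_top_of_domain hΩ
  -- the pointwise bound
  obtain ⟨δ, hδ, hδε⟩ : ∃ δ : ℝ, 0 < δ ∧
      ENNReal.ofReal (δ ^ p) * volume Ω ≤ ENNReal.ofReal (ε / 2) := by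
    have h1 : Tendsto (fun k : ℕ => ENNReal.ofReal ((1 / ((k : ℝ) + 1)) ^ p) * volume Ω) atTop
        (𝓝 (0 * volume Ω)) := by
      have h2 : Tendsto (fun k : ℕ => (1 / ((k : ℝ) + 1)) ^ p) atTop (𝓝 (0 ^ p)) :=
        tendsto_one_div_add_atTop_nhds_zero_nat.rpow_const (Or.inr hp0.le)
      rw [Real.zero_rpow hp0.ne'] at h2
      have h3 := ENNReal.tendsto_ofReal h2
      rw [ENNReal.ofReal_zero] at h3
      exact ENNReal.Tendsto.mul_const h3 (Or.inr hv)
    rw [zero_mul] at h1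
    obtain ⟨k, hk⟩ := (h1.eventually (gt_mem_nhds
      (ENNReal.ofReal_pos.2 (half_pos hε)))).exists
    exact ⟨1 / ((k : ℝ) + 1), by positivity, hk.le⟩
  obtain ⟨G, hG, hGs, hclose, -, -, hint⟩ := _root_.P073.SMF.specSmooth _root_.P073.SM.specSM p Ω Λ h
    (fun _ => δ) (ε / 6) hp hΩ hΛ continuousOn_const (fun _ _ => hδ) (by positivity)
    Empty inferInstance (fun i => i.elim) (fun i => i.elim) (fun i => i.elim) (fun i => i.elim)
    (fun i => i.elim) (fun K _ _ => Set.toFinite _) (fun i => i.elim)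
    Empty inferInstance (fun i => i.elim) (fun i => i.elim) (fun i => i.elim) (fun i => i.elim)
    (fun i => i.elim) (fun i => i.elim) (fun K _ _ => Set.toFinite _) (fun i => i.elim)
  refine ⟨G, hG, ?_⟩
  have e1 : ∫⁻ x in Ω, ENNReal.ofReal (‖G x - h.toFun x‖ ^ p) ≤ ENNReal.ofReal (ε / 2) := by
    refine le_trans ?_ hδε
    rw [← setLIntegral_const]
    refine setLIntegral_mono' hΩ.1.measurableSet fun x hx => ?_
    exact ENNReal.ofReal_le_ofReal (Real.rpow_le_rpow (norm_nonneg _) (hclose x hx) hp0.le)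
  have hae := ae_eq_fderiv hp hΩ h.cont h.conical hF
  have e2 : ∀ j, ∫⁻ x in Ω, ENNReal.ofReal (‖fderiv ℝ G x (ev j) - cl (F x) (ev j)‖ ^ p) ≤
      ENNReal.ofReal (ε / 6) := by
    intro j
    refine le_trans (le_of_eq ?_) (hint j)
    refine lintegral_congr_ae ?_
    filter_upwards [ae_restrict_of_ae hae, ae_restrict_mem hΩ.1.measurableSet] with x hx hxΩ
    rw [hx hxΩ j]
    rfl
  have e3 : ∑ j : Fin 3, ∫⁻ x in Ω, ENNReal.ofReal (‖fderiv ℝ G x (ev j) - cl (F x) (ev j)‖ ^ p) ≤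
      ENNReal.ofReal (ε / 2) := by
    refine (Finset.sum_le_sum fun j _ => e2 j).trans ?_
    rw [Finset.sum_const, Finset.card_univ, Fintype.card_fin, nsmul_eq_mul,
      show ((3 : ℕ) : ℝ≥0∞) = ENNReal.ofReal 3 by simp, ← ENNReal.ofReal_mul (by norm_num)]
    exact ENNReal.ofReal_le_ofReal (by linarith)
  calc err p Ω h.toFun F G ≤ ENNReal.ofReal (ε / 2) + ENNReal.ofReal (ε / 2) := add_le_add e1 e3
    _ = ENNReal.ofReal ε := by
      rw [← ENNReal.ofReal_add (by positivity) (by positivity)]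
      congr 1
      ring

/-- **conical homeomorphisms are diffeomorphically approximable, for every exponent** -/
theorem conical_approximable (hp : 1 ≤ p) (hΩ : St.IsBoundedDomain Ω) (hΛ : St.IsBoundedDomain Λ)
    (h : ConHomeo Ω Λ) {F : V → Mat} (hF : St.IsSobolev p Ω h.toFun F) :
    St.DiffeoApproximable p Ω Λ h.toFun F :=
  approximable_of' hp hΩ hΛ h.cont hF fun _ hε => exists_diffeo hp hΩ hΛ h hF hε

end Vale.Agent.P073.H880
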