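import Vale.Agent.P073.H880.Defs
import Vale.Agent.P073.H880.Approx

/-!
# P073: locally finite piecewise affine homeomorphisms are conical
-/

namespace Vale.Agent.P073.H880

open MeasureTheory Set Filter Topology Metric Vale.Agent.P073.AB
open Vale.Agent.P073.St (V Mat euc frob ap int InLp)
open Vale.Agent.P073.SQ (ev)
open _root_.P073 (ConHomeo)
open scoped ContDiff ENNReal

variable {p : ℝ} {Ω Λ : Set V}

theorem IsPolytope.isCompact {C : Set V} (h : IsPolytope C) : IsCompact C := by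
  obtain ⟨S, rfl⟩ := h
  exact Set.Finite.isCompact_convexHull (𝕜 := ℝ) S.finite_toSet

theorem IsPolytope.convex {C : Set V} (h : IsPolytope C) : Convex ℝ C := by
  obtain ⟨S, rfl⟩ := h
  exact convex_convexHull ℝ _

theorem ap_add (M : Mat) (v w : V) : ap M (v + w) = ap M v + ap M w := by
  funext i
  simp only [ap, Pi.add_apply, mul_add, Finset.sum_add_distrib]

theorem ap_smul (M : Mat) (t : ℝ) (v : V) : ap M (t • v) = t • ap M v := by
  funext i
  simp only [ap, Pi.smul_apply, smul_eq_mul, Finset.mul_sum]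
  exact Finset.sum_congr rfl fun j _ => by ring

theorem IsAffineOn.line {C : Set V} {f : V → V} (h : IsAffineOn C f) {x v : V} {t : ℝ}
    (hx : x ∈ C) (hv : x + v ∈ C) (ht : x + t • v ∈ C) :
    f (x + t • v) = f x + t • (f (x + v) - f x) := by
  obtain ⟨M, b, h⟩ := h
  rw [h _ hx, h _ hv, h _ ht, ap_add, ap_add, ap_smul]
  module

/-- locally finite piecewise affine maps are conical -/
theorem LocPA.conicalOn (hΩ : IsOpen Ω) {f : V → V} (h : LocPA Ω f) :
    _root_.P073.ConicalOn f Ω := by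
  obtain ⟨𝒞, hC, hcov, hfin⟩ := h
  intro x hx
  obtain ⟨r, hr, hf⟩ := hfin x hx
  set 𝒟 : Set (Set V) := {C | C ∈ 𝒞 ∧ ∃ y ∈ C, euc (y - x) < r} with h𝒟
  -- a neighbourhood of `x` which misses the members of `𝒟` not containing `x`
  have h1 : ∀ C ∈ 𝒟, ∀ᶠ y in 𝓝 x, y ∈ C → x ∈ C := by
    intro C hCD
    by_cases hxC : x ∈ C
    · exact Eventually.of_forall fun _ _ => hxC
    · have : Cᶜ ∈ 𝓝 x := (hC C hCD.1).1.isCompact.isClosed.isOpen_compl.mem_nhds hxC
      filter_upwards [this] with y hy hyC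
      exact absurd hyC hy
  have h2 : ∀ᶠ y in 𝓝 x, ∀ C ∈ 𝒟, y ∈ C → x ∈ C := (eventually_all_finite hf).2 h1
  have h3 : ∀ᶠ y in 𝓝 x, euc (y - x) < r := by
    have hc : Continuous fun y : V => euc (y - x) := by
      unfold euc
      fun_prop
    have h0 : euc (x - x) < r := by
      simp only [sub_self, euc, Pi.zero_apply]
      simpa using hr
    exact hc.continuousAt.eventually_lt_const h0
  obtain ⟨ρ, hρ, hb⟩ := Metric.nhds_basis_closedBall.mem_iff.1 (h2.and (h3.and (hΩ.mem_nhds hx)))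
  refine ⟨ρ, hρ, fun v hv hxv t ht => ?_⟩
  have hmem : x + v ∈ closedBall x ρ := by
    rw [mem_closedBall, dist_eq_norm, add_sub_cancel_left]; exact hv
  obtain ⟨a1, a2, a3⟩ := hb hmem
  obtain ⟨C, hCC, hvC⟩ := hcov a3
  have hCD : C ∈ 𝒟 := ⟨hCC, x + v, hvC, a2⟩
  have hxC := a1 C hCD hvC
  have htC : x + t • v ∈ C := by
    have := (hC C hCC).1.convex.add_smul_sub_mem hxC hvC ht
    rwa [add_sub_cancel_left] at this
  exact ⟨(hC C hCC).2.1 htC, (hC C hCC).2.2.line hxC hvC htC⟩

/-- a conical homeomorphism from a homeomorphism -/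
noncomputable def toCon {f : V → V} (hf : St.IsHomeo Ω Λ f) (H : _root_.P073.ConicalOn f Ω) :
    ConHomeo Ω Λ where
  toFun := f
  invFun := hf.choose
  mapsTo := fun x hx => (hf.choose_spec.1.1 x hx).1
  mapsTo_inv := fun y hy => (hf.choose_spec.1.2 y hy).1
  left_inv := fun x hx => (hf.choose_spec.1.1 x hx).2
  right_inv := fun y hy => (hf.choose_spec.1.2 y hy).2
  cont := hf.choose_spec.2.1
  cont_inv := hf.choose_spec.2.2
  conical := H

/-! ### the integral -/

theorem norm_le_euc (v : V) : ‖v‖ ≤ euc v := by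
  refine (pi_norm_le_iff_of_nonneg (Real.sqrt_nonneg _)).2 fun i => ?_
  rw [Real.norm_eq_abs]
  exact Real.abs_le_sqrt (Finset.single_le_sum (f := fun i => v i ^ 2)
    (fun j _ => sq_nonneg _) (Finset.mem_univ i))

theorem norm_le_frob (M : Mat) (j : Fin 3) : ‖(fun i => M i j : V)‖ ≤ frob M := by
  refine (pi_norm_le_iff_of_nonneg (Real.sqrt_nonneg _)).2 fun i => ?_
  rw [Real.norm_eq_abs]
  refine Real.abs_le_sqrt ?_
  refine le_trans ?_ (Finset.single_le_sum (f := fun i => ∑ j, M i j ^ 2)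
    (fun i _ => Finset.sum_nonneg fun j _ => sq_nonneg _) (Finset.mem_univ i))
  exact Finset.single_le_sum (f := fun j => M i j ^ 2) (fun j _ => sq_nonneg _)
    (Finset.mem_univ j)

theorem cl_ev (M : Mat) (j : Fin 3) : cl M (ev j) = fun i => M i j := by
  funext i
  rw [PK.cl_apply, Finset.sum_eq_single j]
  · simp [ev]
  · intro l _ hl
    simp [ev, hl]
  · simp

/-- the distance integral of two Sobolev maps, as a lower integral -/
theorem lintegral_le_int (hp : 1 ≤ p) {f g : V → V} {F G : V → Mat}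
    (hf : St.IsSobolev p Ω f F) (hg : St.IsSobolev p Ω g G) :
    (∫⁻ x in Ω, ENNReal.ofReal (‖g x - f x‖ ^ p)) +
      ∑ j, ∫⁻ x in Ω, ENNReal.ofReal (‖cl (G x) (ev j) - cl (F x) (ev j)‖ ^ p) ≤
      4 * ENNReal.ofReal (int Ω (fun x => euc (g x - f x) ^ p + frob (G x - F x) ^ p)) := by
  have hp0 : 0 < p := by linarith
  have hpE0 : ENNReal.ofReal p ≠ 0 := by
    rw [Ne, ENNReal.ofReal_eq_zero]; linarith
  have hnn : ∀ x, 0 ≤ euc (g x - f x) ^ p + frob (G x - F x) ^ p := fun x =>
    add_nonneg (Real.rpow_nonneg (Real.sqrt_nonneg _) _) (Real.rpow_nonneg (Real.sqrt_nonneg _) _)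
  -- integrability
  have hu : ∀ i, MemLp (fun x => (g x - f x) i) (ENNReal.ofReal p) (volume.restrict Ω) :=
    fun i => (hg.1 i).sub (hf.1 i)
  have hU : ∀ i j, MemLp (fun x => (G x - F x) i j) (ENNReal.ofReal p) (volume.restrict Ω) :=
    fun i j => (hg.2.1 i j).sub (hf.2.1 i j)
  have hint : ∀ {u : V → ℝ}, MemLp u (ENNReal.ofReal p) (volume.restrict Ω) →
      Integrable (fun x => |u x| ^ p) (volume.restrict Ω) := by
    intro u hu
    have := hu.integrable_norm_rpow hpE0 ENNReal.ofReal_ne_top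
    rw [ENNReal.toReal_ofReal hp0.le] at this
    exact this
  have hvec : AEMeasurable (fun x => g x - f x) (volume.restrict Ω) :=
    aemeasurable_pi_lambda _ fun i => (hu i).1.aemeasurable
  have heuc : AEStronglyMeasurable (fun x => euc (g x - f x) ^ p) (volume.restrict Ω) := by
    have hc : Continuous fun v : V => euc v := by
      unfold euc
      fun_prop
    exact ((hc.measurable.comp_aemeasurable hvec).pow_const p).aestronglyMeasurable
  have hfrob : AEStronglyMeasurable (fun x => frob (G x - F x) ^ p) (volume.restrict Ω) := by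
    refine AEMeasurable.aestronglyMeasurable (AEMeasurable.pow_const ?_ p)
    unfold frob
    refine AEMeasurable.sqrt ?_
    refine Finset.aemeasurable_fun_sum _ fun i _ => ?_
    refine Finset.aemeasurable_fun_sum _ fun j _ => ?_
    exact (hU i j).1.aemeasurable.pow_const 2
  -- domination
  have hdom : Integrable (fun x => euc (g x - f x) ^ p + frob (G x - F x) ^ p)
      (volume.restrict Ω) := by
    have hb : Integrable (fun x => 6 ^ p * ((∑ i, |(g x - f x) i| ^ p) +
        ∑ j, ∑ i, |(G x - F x) i j| ^ p)) (volume.restrict Ω) := by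
      refine Integrable.const_mul (Integrable.add ?_ ?_) _
      · exact integrable_finsetSum _ fun i _ => hint (hu i)
      · exact integrable_finsetSum _ fun j _ => integrable_finsetSum _ fun i _ => hint (hU i j)
    refine hb.mono' (heuc.add hfrob) (Eventually.of_forall fun x => ?_)
    rw [Real.norm_of_nonneg (hnn x)]
    have hsup : ∀ w : V, ‖w‖ ^ p ≤ ∑ i, |w i| ^ p := by
      intro w
      obtain ⟨i, hi⟩ : ∃ i, ‖w‖ = |w i| := by
        obtain ⟨i, hi⟩ := Finite.exists_max fun i => |w i|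
        refine ⟨i, le_antisymm ?_ (norm_le_pi_norm w i)⟩
        rw [pi_norm_le_iff_of_nonneg (abs_nonneg _)]
        exact hi
      rw [hi]
      exact Finset.single_le_sum (f := fun i => |w i| ^ p) (fun j _ => by positivity)
        (Finset.mem_univ i)
    refine (final_pt hp (g x - f x) (G x - F x) (fun j i => (G x - F x) i j)
      fun i j => rfl).trans ?_
    gcongr with j
    · exact hsup _
    · exact hsup _
  unfold St.int
  rw [ofReal_integral_eq_lintegral_ofReal hdom (Eventually.of_forall hnn)]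
  have hone : ∀ u : V → ℝ, (∀ x, u x ≤ euc (g x - f x) ^ p + frob (G x - F x) ^ p) →
      ∫⁻ x in Ω, ENNReal.ofReal (u x) ≤
        ∫⁻ x in Ω, ENNReal.ofReal (euc (g x - f x) ^ p + frob (G x - F x) ^ p) :=
    fun u h => lintegral_mono fun x => ENNReal.ofReal_le_ofReal (h x)
  have hq1 : ∀ x, 0 ≤ frob (G x - F x) ^ p := fun x => Real.rpow_nonneg (Real.sqrt_nonneg _) _
  have hq2 : ∀ x, 0 ≤ euc (g x - f x) ^ p := fun x => Real.rpow_nonneg (Real.sqrt_nonneg _) _
  have b1 := hone (fun x => ‖g x - f x‖ ^ p) fun x => by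
    have := Real.rpow_le_rpow (norm_nonneg _) (norm_le_euc (g x - f x)) hp0.le
    have := hq1 x
    linarith
  have b2 : ∀ j, _ := fun j => hone (fun x => ‖cl (G x) (ev j) - cl (F x) (ev j)‖ ^ p) fun x => by
    have h1 : cl (G x) (ev j) - cl (F x) (ev j) = fun i => (G x - F x) i j := by
      rw [cl_ev, cl_ev]; rfl
    rw [h1]
    have := Real.rpow_le_rpow (norm_nonneg _) (norm_le_frob (G x - F x) j) hp0.le
    have := hq2 x
    linarith
  refine (add_le_add b1 (Finset.sum_le_sum fun j _ => b2 j)).trans (le_of_eq ?_)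
  rw [Finset.sum_const, Finset.card_univ, Fintype.card_fin, nsmul_eq_mul]
  push_cast
  ring

/-- the triangle inequality for the error -/
theorem err_le (hp : 1 ≤ p) (hΩ : IsOpen Ω) {f g h : V → V} {F G : V → Mat}
    (hg : St.IsSobolev p Ω g G) (hh : ContDiffOn ℝ ∞ h Ω) :
    err p Ω f F h ≤ 2 ^ (p - 1) * (err p Ω g G h +
      ((∫⁻ x in Ω, ENNReal.ofReal (‖g x - f x‖ ^ p)) +
      ∑ j, ∫⁻ x in Ω, ENNReal.ofReal (‖cl (G x) (ev j) - cl (F x) (ev j)‖ ^ p))) := by
  have hm1 : AEMeasurable (fun x => ENNReal.ofReal (‖h x - g x‖ ^ p)) (volume.restrict Ω) := by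
    have h2 : AEMeasurable h (volume.restrict Ω) :=
      hh.continuousOn.aemeasurable hΩ.measurableSet
    have h3 : AEMeasurable g (volume.restrict Ω) :=
      aemeasurable_pi_lambda _ fun i => (hg.1 i).1.aemeasurable
    exact ((h2.sub h3).norm.pow_const p).ennreal_ofReal
  have hm2 : ∀ j, AEMeasurable (fun x =>
      ENNReal.ofReal (‖fderiv ℝ h x (ev j) - cl (G x) (ev j)‖ ^ p)) (volume.restrict Ω) := by
    intro j
    have h1 : AEMeasurable (fun x => fderiv ℝ h x (ev j)) (volume.restrict Ω) :=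
      ((hh.continuousOn_fderiv_of_isOpen hΩ (by simp)).clm_apply
        continuousOn_const).aemeasurable hΩ.measurableSet
    have h2 : AEMeasurable (fun x => cl (G x) (ev j)) (volume.restrict Ω) :=
      ((ContinuousLinearMap.apply ℝ V (ev j)).continuous.comp_aestronglyMeasurable
        (PK.IsSob.aesm hg)).aemeasurable
    exact ((h1.sub h2).norm.pow_const p).ennreal_ofReal
  have a1 : ∫⁻ x in Ω, ENNReal.ofReal (‖h x - f x‖ ^ p) ≤ 2 ^ (p - 1) *
      ((∫⁻ x in Ω, ENNReal.ofReal (‖h x - g x‖ ^ p)) +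
        ∫⁻ x in Ω, ENNReal.ofReal (‖g x - f x‖ ^ p)) := by
    rw [← lintegral_add_left' hm1, ← lintegral_const_mul' _ _ two_rpow_ne_top]
    refine lintegral_mono fun x => ?_
    have := add_rpow_le hp (h x - g x) (g x - f x)
    rwa [sub_add_sub_cancel] at this
  have a2 : ∀ j, ∫⁻ x in Ω, ENNReal.ofReal (‖fderiv ℝ h x (ev j) - cl (F x) (ev j)‖ ^ p) ≤
      2 ^ (p - 1) * ((∫⁻ x in Ω, ENNReal.ofReal (‖fderiv ℝ h x (ev j) - cl (G x) (ev j)‖ ^ p)) +
        ∫⁻ x in Ω, ENNReal.ofReal (‖cl (G x) (ev j) - cl (F x) (ev j)‖ ^ p)) := by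
    intro j
    rw [← lintegral_add_left' (hm2 j), ← lintegral_const_mul' _ _ two_rpow_ne_top]
    refine lintegral_mono fun x => ?_
    have := add_rpow_le hp (fderiv ℝ h x (ev j) - cl (G x) (ev j))
      (cl (G x) (ev j) - cl (F x) (ev j))
    rwa [sub_add_sub_cancel] at this
  unfold err
  refine (add_le_add a1 (Finset.sum_le_sum fun j _ => a2 j)).trans (le_of_eq ?_)
  rw [← Finset.mul_sum, Finset.sum_add_distrib]
  ring

/-- **the closure**: limits of conical homeomorphisms are diffeomorphically approximable -/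
theorem approximable_of_PA (hp : 1 ≤ p) (hΩ : St.IsBoundedDomain Ω) (hΛ : St.IsBoundedDomain Λ)
    {f : V → V} {F : V → Mat} (hf : St.IsHomeo Ω Λ f) (hF : St.IsSobolev p Ω f F)
    (H : PAApproximable p Ω Λ f F) : St.DiffeoApproximable p Ω Λ f F := by
  have hfc : ContinuousOn f Ω := hf.choose_spec.2.1
  obtain ⟨g, G, hg, hlim⟩ := H
  have hdif : ∀ k, ∃ h : V → V, St.IsDiffeo Ω Λ h ∧
      err p Ω (g k) (G k) h ≤ ENNReal.ofReal (1 / ((k : ℝ) + 1)) := fun k =>
    exists_diffeo hp hΩ hΛ (toCon (hg k).1 ((hg k).2.1.conicalOn hΩ.1)) (hg k).2.2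
      (by positivity)
  refine approximable_of hp hΩ hΛ hfc hF (b := fun k : ℕ => 2 ^ (p - 1) *
    (ENNReal.ofReal (1 / ((k : ℝ) + 1)) + 4 * ENNReal.ofReal (St.int Ω
      (fun x => euc (g k x - f x) ^ p + frob (G k x - F x) ^ p)))) ?_ (fun k => ?_) fun k => ?_
  · have e1 := ENNReal.tendsto_ofReal (tendsto_one_div_add_atTop_nhds_zero_nat (𝕜 := ℝ))
    have e2 := ENNReal.tendsto_ofReal hlim
    rw [ENNReal.ofReal_zero] at e1 e2
    have e3 := ENNReal.Tendsto.const_mul (a := 4) e2 (Or.inr (by norm_num))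
    have e4 := ENNReal.Tendsto.const_mul (a := (2 : ℝ≥0∞) ^ (p - 1)) (e1.add e3)
      (Or.inr two_rpow_ne_top)
    simpa using e4
  · exact ENNReal.mul_ne_top two_rpow_ne_top (ENNReal.add_ne_top.2 ⟨ENNReal.ofReal_ne_top,
      ENNReal.mul_ne_top (by norm_num) ENNReal.ofReal_ne_top⟩)
  · obtain ⟨h, hh, hhe⟩ := hdif k
    refine ⟨h, hh, (err_le hp hΩ.1 (hg k).2.2 (diffeo_smooth hh)).trans ?_⟩
    gcongr
    exact lintegral_le_int hp hF (hg k).2.2

end Vale.Agent.P073.H880
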