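import Vale.Agent.P073.H880.Defs

/-!
# P073: homeomorphisms which are regular off a small relatively closed set
-/

namespace Vale.Agent.P073.H880

open MeasureTheory Set Filter Topology Vale.Agent.P073.St

/-- The three coordinate projections of `K` are null sets of the line. -/
def NullProj (K : Set V) : Prop := ∀ k : Fin 3, volume ((fun x : V => x k) '' K) = 0

/-- On the open set `U` the map `f` is of class `C¹` with injective (that is, invertible)
derivative at every point, or it is locally finite piecewise affine on `U`. -/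
def RegularOn (U : Set V) (f : V → V) : Prop :=
  (ContDiffOn ℝ 1 f U ∧ ∀ x ∈ U, ∀ v, fderiv ℝ f x v = 0 → v = 0) ∨ LocPA U f

/-- `f` is regular off a relatively closed subset `K` of `Ω` such that `p < 3` and `K` has null
coordinate projections, or `f(K)` has null coordinate projections (then `p` is arbitrary). -/
def Tame (p : ℝ) (Ω : Set V) (f : V → V) : Prop :=
  ∃ K ⊆ Ω, IsOpen (Ω \ K) ∧ RegularOn (Ω \ K) f ∧ ((p < 3 ∧ NullProj K) ∨ NullProj (f '' K))

/-- `f : Ω → Λ`, with weak derivative matrix `F`, is the limit in `W^{1,p}` of tame `W^{1,p}`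
homeomorphisms `g k` of `Ω` onto the same `Λ`. -/
def TameApproximable (p : ℝ) (Ω Λ : Set V) (f : V → V) (F : V → Mat) : Prop :=
  ∃ (g : ℕ → V → V) (G : ℕ → V → Mat),
    (∀ k, IsHomeo Ω Λ (g k) ∧ IsSobolev p Ω (g k) (G k) ∧ Tame p Ω (g k)) ∧
    Tendsto (fun k => int Ω (fun x => euc (g k x - f x) ^ p + frob (G k x - F x) ^ p))
      atTop (𝓝 0)

end Vale.Agent.P073.H880
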