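import Vale.Agent.P073.H880.AsmS2
import Vale.Agent.P073.H880.TameDefs
import Vale.Agent.P073.H655.FinT
import Vale.Agent.P073.RED.Geom

/-!
# P073: tame homeomorphisms are diffeomorphically approximable
-/

namespace Vale.Agent.P073.H880

open MeasureTheory Set Filter Topology Metric Vale.Agent.P073.St Vale.Agent.P073.AB
open Vale.Agent.P073.SQ (ev)
open Vale.Agent.P073.H655 (FineOff)
open scoped ContDiff ENNReal

variable {p : ℝ} {Ω Λ K : Set V}

theorem fineOff_of_regular (hp : 1 ≤ p) (hΩ : St.IsBoundedDomain Ω)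
    (hΛ : St.IsBoundedDomain Λ) (hK : K ⊆ Ω) (hKo : IsOpen (Ω \ K)) {f : V → V} {F : V → Mat}
    (hf : St.IsHomeo Ω Λ f) (hF : St.IsSobolev p Ω f F) (hR : RegularOn (Ω \ K) f) :
    FineOff Ω Λ K f F := by
  rcases hR with ⟨h1, h2⟩ | h
  · exact H655.fineOff_C1 H655.specFine' hp hΩ hΛ hK hKo hf hF h1 h2
  · exact H655.fineOff_PA hp hΩ hΛ hK hKo hf hF h

/-- **tame homeomorphisms are approximable** -/
theorem tame_approximable (hp : 1 ≤ p) (hΩ : St.IsBoundedDomain Ω) (hΛ : St.IsBoundedDomain Λ)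
    {f : V → V} {F : V → Mat} (hf : St.IsHomeo Ω Λ f) (hF : St.IsSobolev p Ω f F)
    (hT : Tame p Ω f) : St.DiffeoApproximable p Ω Λ f F := by
  obtain ⟨K, hK, hKo, hR, hs⟩ := hT
  have hO := fineOff_of_regular hp hΩ hΛ hK hKo hf hF hR
  rcases hs with ⟨hp3, hn⟩ | hn
  · exact main_R' hp hp3 hΩ hΛ hK hKo hf hF hO hn
  · exact H655.main_T' hp hΩ hΛ hK hKo hf hF hO hn

/-- a diffeomorphism is a homeomorphism -/
theorem homeo_of_diffeo {g : V → V} (hg : St.IsDiffeo Ω Λ g) : St.IsHomeo Ω Λ g := by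
  obtain ⟨h, h1, h2, h3⟩ := hg
  exact ⟨h, h1, (smooth_of_sm h2).continuousOn, (smooth_of_sm h3).continuousOn⟩

/-- a diffeomorphism is tame -/
theorem tame_of_diffeo (hΩ : IsOpen Ω) (hΛ : IsOpen Λ) {g : V → V} (hg : St.IsDiffeo Ω Λ g) :
    Tame p Ω g := by
  refine ⟨∅, empty_subset _, by rwa [sdiff_empty], Or.inl ⟨?_, ?_⟩, Or.inr ?_⟩
  · rw [sdiff_empty]
    exact (diffeo_smooth hg).of_le (by exact_mod_cast le_top)
  · rw [sdiff_empty]
    obtain ⟨h, ⟨h1, h1'⟩, h2, h3⟩ := hg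
    have hgs := smooth_of_sm h2
    have hhs := smooth_of_sm h3
    intro x hx v hv
    have d1 : DifferentiableAt ℝ g x := (hgs.contDiffAt (hΩ.mem_nhds hx)).differentiableAt
      (by simp)
    have d2 : DifferentiableAt ℝ h (g x) :=
      (hhs.contDiffAt (hΛ.mem_nhds (h1 x hx).1)).differentiableAt (by simp)
    have e1 : (h ∘ g) =ᶠ[𝓝 x] id := by
      filter_upwards [hΩ.mem_nhds hx] with y hy
      exact (h1 y hy).2
    have e2 : fderiv ℝ (h ∘ g) x = ContinuousLinearMap.id ℝ V := by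
      rw [e1.fderiv_eq, fderiv_id]
    rw [fderiv_comp x d2 d1] at e2
    have e3 : (ContinuousLinearMap.id ℝ V) v = 0 := by
      rw [← e2, ContinuousLinearMap.comp_apply, hv, map_zero]
    exact e3
  · intro k
    rw [image_empty, image_empty, measure_empty]

/-- **the closure**: limits of approximable homeomorphisms are approximable -/
theorem closure_approximable (hp : 1 ≤ p) (hΩ : St.IsBoundedDomain Ω)
    (hΛ : St.IsBoundedDomain Λ) {f : V → V} {F : V → Mat} (hf : St.IsHomeo Ω Λ f)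
    (hF : St.IsSobolev p Ω f F) {g : ℕ → V → V} {G : ℕ → V → Mat}
    (hg : ∀ k, St.IsSobolev p Ω (g k) (G k) ∧ St.DiffeoApproximable p Ω Λ (g k) (G k))
    (hlim : Tendsto (fun k => int Ω (fun x => euc (g k x - f x) ^ p + frob (G k x - F x) ^ p))
      atTop (𝓝 0)) : St.DiffeoApproximable p Ω Λ f F := by
  have hfc : ContinuousOn f Ω := hf.choose_spec.2.1
  have hdif : ∀ k, ∃ h : V → V, St.IsDiffeo Ω Λ h ∧
      err p Ω (g k) (G k) h ≤ 4 * ENNReal.ofReal (1 / ((k : ℝ) + 1)) := by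
    intro k
    obtain ⟨h, hh, hhl⟩ := (hg k).2
    obtain ⟨n, hn⟩ := (hhl.eventually (gt_mem_nhds (show (0 : ℝ) < 1 / ((k : ℝ) + 1) by
      positivity))).exists
    refine ⟨h n, (hh n).1, ?_⟩
    have h1 := lintegral_le_int hp (hg k).1 (hh n).2
    have h2 : err p Ω (g k) (G k) (h n) = (∫⁻ x in Ω, ENNReal.ofReal (‖h n x - g k x‖ ^ p)) +
        ∑ j, ∫⁻ x in Ω, ENNReal.ofReal
          (‖cl (jac (h n) x) (ev j) - cl (G k x) (ev j)‖ ^ p) := by
      unfold err
      congr 1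
      refine Finset.sum_congr rfl fun j _ => ?_
      refine setLIntegral_congr_fun hΩ.1.measurableSet fun x hx => ?_
      simp only [RED.cl_jac hΩ.1 (diffeo_smooth (hh n).1) hx]
    rw [h2]
    refine h1.trans ?_
    gcongr
  refine approximable_of hp hΩ hΛ hfc hF (b := fun k : ℕ => 2 ^ (p - 1) *
    (4 * ENNReal.ofReal (1 / ((k : ℝ) + 1)) + 4 * ENNReal.ofReal (St.int Ω
      (fun x => euc (g k x - f x) ^ p + frob (G k x - F x) ^ p)))) ?_ (fun k => ?_) fun k => ?_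
  · have e1 := ENNReal.tendsto_ofReal (tendsto_one_div_add_atTop_nhds_zero_nat (𝕜 := ℝ))
    have e2 := ENNReal.tendsto_ofReal hlim
    rw [ENNReal.ofReal_zero] at e1 e2
    have e3 := ENNReal.Tendsto.const_mul (a := 4) e2 (Or.inr (by norm_num))
    have e3' := ENNReal.Tendsto.const_mul (a := 4) e1 (Or.inr (by norm_num))
    have e4 := ENNReal.Tendsto.const_mul (a := (2 : ℝ≥0∞) ^ (p - 1)) (e3'.add e3)
      (Or.inr two_rpow_ne_top)
    simpa using e4
  · exact ENNReal.mul_ne_top two_rpow_ne_top (ENNReal.add_ne_top.2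
      ⟨ENNReal.mul_ne_top (by norm_num) ENNReal.ofReal_ne_top,
        ENNReal.mul_ne_top (by norm_num) ENNReal.ofReal_ne_top⟩)
  · obtain ⟨h, hh, hhe⟩ := hdif k
    refine ⟨h, hh, (err_le hp hΩ.1 (hg k).1 (diffeo_smooth hh)).trans ?_⟩
    gcongr
    exact lintegral_le_int hp hF (hg k).1

/-- **the equivalence** -/
theorem tame_iff (hp : 1 ≤ p) (hΩ : St.IsBoundedDomain Ω) (hΛ : St.IsBoundedDomain Λ)
    {f : V → V} {F : V → Mat} (hf : St.IsHomeo Ω Λ f) (hF : St.IsSobolev p Ω f F) :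
    TameApproximable p Ω Λ f F ↔ St.DiffeoApproximable p Ω Λ f F := by
  constructor
  · rintro ⟨g, G, hg, hlim⟩
    exact closure_approximable hp hΩ hΛ hf hF
      (fun k => ⟨(hg k).2.1, tame_approximable hp hΩ hΛ (hg k).1 (hg k).2.1 (hg k).2.2⟩) hlim
  · rintro ⟨g, hg, hlim⟩
    exact ⟨g, fun k => jac (g k), fun k => ⟨homeo_of_diffeo (hg k).1, (hg k).2,
      tame_of_diffeo hΩ.1 hΛ.1 (hg k).1⟩, hlim⟩

end Vale.Agent.P073.H880
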