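import Vale.Agent.P073.H880.Fine2
import Vale.Agent.P073.H655.Weak1
import Vale.Agent.P073.H655.FillT
import Vale.Agent.P073.SQ.Squeeze

/-!
# P073, theorem (R), assembly, part 1: derivatives, squeeze of all cubes, energies on the faces
-/

namespace Vale.Agent.P073.H880

open MeasureTheory Set Filter Topology Metric
open Vale.Agent.P073.St (V Mat euc)
open Vale.Agent.P073.SQ (ev cube dE SuppDiffeo)
open Vale.Agent.P073.AB (cl err ofReal_norm_rpow diffeo_smooth diffeo_maps)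
open Vale.Agent.P073.H655 (ocube oU cU)
open _root_.P073 (ConHomeo)
open scoped ContDiff ENNReal

variable {p : ℝ} {Ω Λ K : Set V}

/-! ### derivatives -/

theorem norm_fderiv_sub_le {f g : V → V} {y : V} {δ : ℝ} (hδ : 0 ≤ δ)
    (hf : DifferentiableAt ℝ f y) (hg : DifferentiableAt ℝ g y)
    (h : ∀ᶠ z in 𝓝 y, ‖(g z - g y) - (f z - f y)‖ ≤ δ * ‖z - y‖) :
    ‖fderiv ℝ g y - fderiv ℝ f y‖ ≤ δ := by
  have h1 := hg.hasFDerivAt.sub hf.hasFDerivAt
  refine h1.le_of_lip' hδ ?_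
  filter_upwards [h] with z hz
  have e : (g - f) z - (g - f) y = (g z - g y) - (f z - f y) := by
    simp only [Pi.sub_apply]; abel
  rw [e]
  exact hz

theorem norm_lineDeriv_le {f g : V → V} {y v : V} {δ : ℝ} (hδ : 0 ≤ δ)
    (hf : DifferentiableAt ℝ f y)
    (h : ∀ᶠ z in 𝓝 y, ‖(g z - g y) - (f z - f y)‖ ≤ δ * ‖z - y‖) :
    ‖lineDeriv ℝ g y v‖ ≤ ‖fderiv ℝ f y v‖ + δ * ‖v‖ := by
  by_cases hg : LineDifferentiableAt ℝ g y v
  · have h1 : HasDerivAt (fun t : ℝ => g (y + t • v)) (lineDeriv ℝ g y v) 0 := hg.hasLineDerivAt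
    have h2 : HasDerivAt (fun t : ℝ => f (y + t • v)) (fderiv ℝ f y v) 0 :=
      hf.hasFDerivAt.hasLineDerivAt v
    have h3 := h1.sub h2
    have hlim : Tendsto (fun t : ℝ => y + t • v) (𝓝 0) (𝓝 y) := by
      have hc : Continuous fun t : ℝ => y + t • v := by fun_prop
      have := hc.tendsto 0
      simpa using this
    have h4 : ‖lineDeriv ℝ g y v - fderiv ℝ f y v‖ ≤ δ * ‖v‖ := by
      refine h3.le_of_lip' (by positivity) ?_
      filter_upwards [hlim.eventually h] with t ht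
      rw [add_sub_cancel_left, norm_smul] at ht
      have e : ((fun t : ℝ => g (y + t • v)) - fun t : ℝ => f (y + t • v)) t -
          ((fun t : ℝ => g (y + t • v)) - fun t : ℝ => f (y + t • v)) 0 =
          (g (y + t • v) - g y) - (f (y + t • v) - f y) := by
        simp only [Pi.sub_apply, zero_smul, add_zero]; abel
      rw [e, sub_zero]
      calc _ ≤ δ * (‖t‖ * ‖v‖) := ht
        _ = δ * ‖v‖ * ‖t‖ := by ring
    have h5 := norm_add_le (lineDeriv ℝ g y v - fderiv ℝ f y v) (fderiv ℝ f y v)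
    rw [sub_add_cancel] at h5
    linarith
  · rw [lineDeriv_zero_of_not_lineDifferentiableAt hg, norm_zero]
    positivity

/-! ### the squeeze of all cubes -/

/-- the energy on the faces of cube `i` -/
noncomputable def facesE (p : ℝ) (W : Boxes Ω K) (G : V → V) (i : W.ι) : ℝ≥0∞ :=
  ∑ k, ∑ σ ∈ ({1, -1} : Finset ℝ), ∑ j ∈ Finset.univ.erase k,
    ∫⁻ x in cube (W.c i) (W.ρ i), dE p G j (Function.update x k (W.c i k + σ * W.ρ i))

theorem exists_squeeze (hCube : SpecCube3) (hp : 1 ≤ p) (hp3 : p < 3) :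
    ∃ C : ℝ≥0∞, C ≠ ⊤ ∧ ∀ (Ω Λ K : Set V) (W : Boxes Ω K) (G : V → V) (e : W.ι → ℝ≥0∞),
      IsOpen Ω → St.IsDiffeo Ω Λ G → (∀ i, e i ≠ 0) →
      ∃ S : V → V, St.IsDiffeo Ω Ω S ∧ (∀ x, x ∉ cU W → S x = x) ∧
        ∀ i, ∑ j, ∫⁻ x in cube (W.c i) (W.ρ i), dE p (G ∘ S) j x ≤ C * facesE p W G i + e i := by
  obtain ⟨C, hC, hcube⟩ := hCube p hp hp3
  refine ⟨C, hC, ?_⟩
  intro Ω Λ K W G e hΩ hG he
  have hcd : ContDiffOn ℝ 1 G Ω := (diffeo_smooth hG).of_le (by exact_mod_cast le_top)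
  have hex := fun i => hcube (W.c i) (W.ρ i) Ω G (e i) (W.pos i) hΩ (W.sub i) hcd (he i)
  choose Ks s h1 h2 h3 using hex
  have hKc : ∀ i, Ks i ⊆ cube (W.c i) (W.ρ i) := fun i x hx l => (h2 i hx l).le
  have hKd : ∀ i j, i ≠ j → Disjoint (Ks i) (cube (W.c j) (W.ρ j)) := fun i j hij =>
    Set.disjoint_left.2 fun x hx hx' => W.disj i j hij x (h2 i hx) hx'
  obtain ⟨S, hS, hS1, hS2, hS3⟩ := SQ.specGlue Ω _ Ks s hΩ h1 (fun i => (hKc i).trans (W.sub i))
    (fun i j hij => (hKd i j hij).mono_right (hKc j)) (fun x hx => by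
      obtain ⟨N, hN, hf⟩ := W.fin x hx
      refine ⟨N, hN, hf.subset ?_⟩
      rintro i ⟨y, hy, hyN⟩
      exact ⟨y, hKc i hy, hyN⟩)
  have hloc : ∀ i, ∀ x ∈ cube (W.c i) (W.ρ i), S =ᶠ[𝓝 x] s i := fun i x hx =>
    hS3 i x (W.sub i hx) fun j hj hxK => Set.disjoint_left.1 (hKd j i hj) hxK hx
  refine ⟨S, hS, fun x hx => hS2 x fun i hi => hx (mem_iUnion.2 ⟨i, hKc i hi⟩), fun i => ?_⟩
  have e1 : ∀ j, ∫⁻ x in cube (W.c i) (W.ρ i), dE p (G ∘ S) j x =
      ∫⁻ x in cube (W.c i) (W.ρ i), dE p (G ∘ s i) j x := by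
    intro j
    refine setLIntegral_congr_fun (SQ.isClosed_cube _ _).measurableSet fun x hx => ?_
    exact SQ.dE_congr (SQ.comp_congr (hloc i x hx)) j
  simp only [e1]
  exact h3 i

/-! ### the faces -/

theorem sgn_sq {σ : ℝ} (hσ : σ ∈ ({1, -1} : Finset ℝ)) : |σ| = 1 := by
  simp only [Finset.mem_insert, Finset.mem_singleton] at hσ
  rcases hσ with rfl | rfl <;> simp

theorem face_mem (W : Boxes Ω K) (i : W.ι) (k : Fin 3) {σ : ℝ} (hσ : σ ∈ ({1, -1} : Finset ℝ))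
    {x : V} (hx : x ∈ cube (W.c i) (W.ρ i)) :
    Function.update x k (W.c i k + σ * W.ρ i) ∈ cube (W.c i) (W.ρ i) := by
  intro l
  by_cases hl : l = k
  · subst hl
    rw [Function.update_self, add_sub_cancel_left, abs_mul, sgn_sq hσ, one_mul,
      abs_of_pos (W.pos i)]
  · rw [Function.update_of_ne hl]
    exact hx l

/-- a point of a face is in no open cube -/
theorem face_notMem (W : Boxes Ω K) (i : W.ι) (k : Fin 3) {σ : ℝ}
    (hσ : σ ∈ ({1, -1} : Finset ℝ)) {y : V} (hy : y ∈ cube (W.c i) (W.ρ i))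
    (hyk : y k = W.c i k + σ * W.ρ i) (i' : W.ι) : ¬ ∀ l, |y l - W.c i' l| < W.ρ i' := by
  intro h
  by_cases hii : i' = i
  · subst hii
    have := h k
    rw [hyk, add_sub_cancel_left, abs_mul, sgn_sq hσ, one_mul, abs_of_pos (W.pos i')] at this
    exact lt_irrefl _ this
  · exact W.disj i' i hii y h hy

/-- almost every point of a cube is in the open cube -/
theorem ae_open_cube (c : V) {ρ : ℝ} :
    ∀ᵐ x ∂(volume.restrict (cube c ρ)), x ∈ ocube c ρ := by
  have h := H655.volume_shell (c := c) (ρ := ρ)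
  rw [ae_restrict_iff' (SQ.isClosed_cube _ _).measurableSet]
  have h1 : ∀ᵐ x ∂(volume : Measure V), x ∉ cube c ρ \ ocube c ρ :=
    measure_eq_zero_iff_ae_notMem.1 h
  filter_upwards [h1] with x hx hxc
  by_contra hcon
  exact hx ⟨hxc, hcon⟩

/-- on the faces the tangential derivatives of `h` and of `g` agree -/
theorem lineDeriv_face (W : Boxes Ω K) {g h : V → V}
    (hh : ∀ x ∈ Ω, (∀ i, ¬ ∀ l, |x l - W.c i l| < W.ρ i) → h x = g x) (i : W.ι) (k : Fin 3)
    {σ : ℝ} (hσ : σ ∈ ({1, -1} : Finset ℝ)) {x : V} (hx : x ∈ ocube (W.c i) (W.ρ i)) {j : Fin 3}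
    (hj : j ≠ k) :
    lineDeriv ℝ h (Function.update x k (W.c i k + σ * W.ρ i)) (ev j) =
      lineDeriv ℝ g (Function.update x k (W.c i k + σ * W.ρ i)) (ev j) := by
  set y := Function.update x k (W.c i k + σ * W.ρ i) with hy
  refine Filter.EventuallyEq.deriv_eq ?_
  have hc : ∀ l, Continuous fun t : ℝ => |(y + t • ev j) l - W.c i l| := fun l => by
    simp only [Pi.add_apply, Pi.smul_apply]
    fun_prop
  have h1 : ∀ l, l ≠ k → ∀ᶠ t : ℝ in 𝓝 0, |(y + t • ev j) l - W.c i l| < W.ρ i := by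
    intro l hl
    refine (hc l).continuousAt.eventually_lt_const ?_
    simp only [zero_smul, add_zero]
    rw [hy, Function.update_of_ne hl]
    exact hx l
  have h2 : ∀ᶠ t : ℝ in 𝓝 0, ∀ l, l ≠ k → |(y + t • ev j) l - W.c i l| < W.ρ i := by
    rw [eventually_all]
    intro l
    by_cases hl : l = k
    · filter_upwards with t h; exact absurd hl h
    · filter_upwards [h1 l hl] with t ht _ using ht
  filter_upwards [h2] with t ht
  have hk : (y + t • ev j) k = W.c i k + σ * W.ρ i := by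
    have : ev j k = 0 := by
      unfold ev; rw [Pi.single_eq_of_ne (Ne.symm hj)]
    rw [Pi.add_apply, Pi.smul_apply, this, smul_zero, add_zero, hy, Function.update_self]
  have hmem : y + t • ev j ∈ cube (W.c i) (W.ρ i) := by
    intro l
    by_cases hl : l = k
    · subst hl
      rw [hk, add_sub_cancel_left, abs_mul, sgn_sq hσ, one_mul, abs_of_pos (W.pos i)]
    · exact (ht l hl).le
  exact hh _ (W.sub i hmem) (face_notMem W i k hσ hmem hk)

/-- the majorant of the energy density -/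
noncomputable def Hf (p : ℝ) (U : Set V) (f : V → V) (x : V) : ℝ≥0∞ :=
  U.indicator (fun x => ∑ j, ENNReal.ofReal (‖fderiv ℝ f x (ev j)‖ ^ p)) x + 1

theorem measurable_Hf {U : Set V} (hU : IsOpen U) {f : V → V} (hf : ContDiffOn ℝ 1 f U) :
    Measurable (Hf p U f) := by
  have h1 : ∀ j, Measurable (U.indicator fun x => ENNReal.ofReal (‖fderiv ℝ f x (ev j)‖ ^ p)) := by
    intro j
    have h2 : ContinuousOn (fun x => fderiv ℝ f x (ev j)) U :=
      (hf.continuousOn_fderiv_of_isOpen hU (le_refl _)).clm_apply continuousOn_const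
    have h3 : Measurable (U.indicator fun x => fderiv ℝ f x (ev j)) := by
      classical
      rw [← piecewise_eq_indicator]
      exact h2.measurable_piecewise continuousOn_const hU.measurableSet
    have h4 : (U.indicator fun x => ENNReal.ofReal (‖fderiv ℝ f x (ev j)‖ ^ p)) =
        U.indicator (fun x => ENNReal.ofReal (‖(U.indicator fun x => fderiv ℝ f x (ev j)) x‖ ^ p)) := by
      funext x
      by_cases hx : x ∈ U
      · simp [hx]
      · simp [hx]
    rw [h4]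
    exact (h3.norm.pow_const p).ennreal_ofReal.indicator hU.measurableSet
  have h5 : (U.indicator fun x => ∑ j, ENNReal.ofReal (‖fderiv ℝ f x (ev j)‖ ^ p)) =
      fun x => ∑ j, U.indicator (fun x => ENNReal.ofReal (‖fderiv ℝ f x (ev j)‖ ^ p)) x := by
    funext x
    by_cases hx : x ∈ U
    · simp [hx]
    · simp [hx]
  unfold Hf
  refine Measurable.add ?_ measurable_const
  rw [h5]
  exact Finset.measurable_sum _ fun j _ => h1 j

theorem le_Hf {U : Set V} {f : V → V} {x : V} (hx : x ∈ U) (j : Fin 3) :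
    ENNReal.ofReal (‖fderiv ℝ f x (ev j)‖ ^ p) + 1 ≤ Hf p U f x := by
  unfold Hf
  rw [indicator_of_mem hx]
  gcongr
  exact Finset.single_le_sum (f := fun j => ENNReal.ofReal (‖fderiv ℝ f x (ev j)‖ ^ p))
    (fun _ _ => zero_le) (Finset.mem_univ j)

theorem norm_ev (j : Fin 3) : ‖ev j‖ = 1 := by
  unfold ev; rw [Pi.norm_single]; simp

theorem lineDeriv_rpow_le (hp : 1 ≤ p) {U : Set V} {f g : V → V} {y : V} (hy : y ∈ U) {δ : ℝ}
    (hδ : 0 ≤ δ) (hδ1 : δ ≤ 1) (hf : DifferentiableAt ℝ f y)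
    (h : ∀ᶠ z in 𝓝 y, ‖(g z - g y) - (f z - f y)‖ ≤ δ * ‖z - y‖) (j : Fin 3) :
    ENNReal.ofReal (‖lineDeriv ℝ g y (ev j)‖ ^ p) ≤ 2 ^ (p - 1) * Hf p U f y := by
  have hp0 : 0 ≤ p := by linarith
  have h1 := norm_lineDeriv_le (v := ev j) hδ hf h
  rw [norm_ev, mul_one] at h1
  have h2 : ‖lineDeriv ℝ g y (ev j)‖ ≤ ‖fderiv ℝ f y (ev j)‖ + 1 := by linarith
  calc ENNReal.ofReal (‖lineDeriv ℝ g y (ev j)‖ ^ p)
      ≤ ENNReal.ofReal ((‖fderiv ℝ f y (ev j)‖ + 1) ^ p) :=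
        ENNReal.ofReal_le_ofReal (Real.rpow_le_rpow (norm_nonneg _) h2 hp0)
    _ = (ENNReal.ofReal (‖fderiv ℝ f y (ev j)‖) + 1) ^ p := by
        rw [← ENNReal.ofReal_rpow_of_nonneg (by positivity) hp0, ENNReal.ofReal_add (norm_nonneg _)
          zero_le_one, ENNReal.ofReal_one]
    _ ≤ 2 ^ (p - 1) * (ENNReal.ofReal (‖fderiv ℝ f y (ev j)‖) ^ p + 1 ^ p) :=
        ENNReal.rpow_add_le_mul_rpow_add_rpow _ _ hp
    _ = 2 ^ (p - 1) * (ENNReal.ofReal (‖fderiv ℝ f y (ev j)‖ ^ p) + 1) := by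
        rw [ENNReal.one_rpow, ENNReal.ofReal_rpow_of_nonneg (norm_nonneg _) hp0]
    _ ≤ _ := by gcongr; exact le_Hf hy j

end Vale.Agent.P073.H880
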