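import Vale.Agent.P073.H880.AsmR1

/-!
# P073, theorem (R), assembly, part 2
-/

namespace Vale.Agent.P073.H880

open MeasureTheory Set Filter Topology Metric
open Vale.Agent.P073.St (V Mat euc)
open Vale.Agent.P073.SQ (ev cube dE SuppDiffeo)
open Vale.Agent.P073.AB (cl err ofReal_norm_rpow diffeo_smooth diffeo_maps)
open Vale.Agent.P073.H655 (ocube oU cU)
open _root_.P073 (ConHomeo)
open scoped ContDiff ENNReal

variable {p : ℝ} {Ω Λ K : Set V}

/-- finitely many cubes meet a compact set -/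
theorem Boxes.finite_compact (W : Boxes Ω K) {A : Set V} (hA : A ⊆ Ω) (hAc : IsCompact A) :
    {i | (cube (W.c i) (W.ρ i) ∩ A).Nonempty}.Finite := by
  choose! N hN hfin using W.fin
  obtain ⟨s, hs, hcov⟩ := hAc.elim_nhds_subcover N fun x hx => hN x (hA hx)
  refine (Set.Finite.biUnion (s := (↑s : Set V)) s.finite_toSet
    (t := fun x => {i | (cube (W.c i) (W.ρ i) ∩ N x).Nonempty})
    fun x hx => hfin x (hA (hs x hx))).subset ?_
  rintro i ⟨y, hy, hyA⟩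
  obtain ⟨x, hxs, hyx⟩ := mem_iUnion₂.1 (hcov hyA)
  exact mem_iUnion₂.2 ⟨x, hxs, ⟨y, hy, hyx⟩⟩

theorem measurableSet_cU (W : Boxes Ω K) : MeasurableSet (cU W) := by
  have := W.cnt
  exact MeasurableSet.iUnion fun i => (SQ.isClosed_cube _ _).measurableSet

/-- the sign -/
noncomputable def sg (b : Bool) : ℝ := if b then 1 else -1

theorem sg_mem (b : Bool) : sg b ∈ ({1, -1} : Finset ℝ) := by
  cases b <;> simp [sg]

theorem exists_sg {σ : ℝ} (hσ : σ ∈ ({1, -1} : Finset ℝ)) : ∃ b, sg b = σ := by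
  simp only [Finset.mem_insert, Finset.mem_singleton] at hσ
  rcases hσ with rfl | rfl
  · exact ⟨true, rfl⟩
  · exact ⟨false, rfl⟩

/-- smoothing with control on the faces -/
theorem exists_smooth (hp : 1 ≤ p) (hΩ : St.IsBoundedDomain Ω) (hΛ : St.IsBoundedDomain Λ)
    (W : Boxes Ω K) (h : ConHomeo Ω Λ) {δ : ℝ} (hδ : 0 < δ) {e : W.ι → ℝ} (he : ∀ i, 0 < e i) :
    ∃ G : V → V, St.IsDiffeo Ω Λ G ∧ (∀ x ∈ Ω, ‖G x - h.toFun x‖ ≤ δ) ∧
      (∀ i k, ∀ σ ∈ ({1, -1} : Finset ℝ), ∀ j, j ≠ k → ∫⁻ x in cube (W.c i) (W.ρ i),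
        ENNReal.ofReal (‖fderiv ℝ G (Function.update x k (W.c i k + σ * W.ρ i)) (ev j) -
          lineDeriv ℝ h.toFun (Function.update x k (W.c i k + σ * W.ρ i)) (ev j)‖ ^ p) ≤
        ENNReal.ofReal (e i)) ∧
      ∀ j, ∫⁻ x in Ω, ENNReal.ofReal (‖fderiv ℝ G x (ev j) - fderiv ℝ h.toFun x (ev j)‖ ^ p) ≤
        ENNReal.ofReal δ := by
  have := W.cnt
  obtain ⟨G, hG, hGs, hclose, -, hflat, hvol⟩ := _root_.P073.SMF.specSmooth _root_.P073.SM.specSM
    p Ω Λ h (fun _ => δ) δ hp hΩ hΛ continuousOn_const (fun _ _ => hδ) hδ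
    Empty inferInstance (fun i => i.elim) (fun i => i.elim) (fun i => i.elim) (fun i => i.elim)
    (fun i => i.elim) (fun K _ _ => Set.toFinite _) (fun i => i.elim)
    (W.ι × Fin 3 × Bool) inferInstance (fun q => q.2.1)
    (fun q => W.c q.1 q.2.1 + sg q.2.2 * W.ρ q.1) (fun q => cube (W.c q.1) (W.ρ q.1))
    (fun q => e q.1) (fun q => H655.isCompact_cube (W.pos q.1))
    (fun q x hx => W.sub q.1 (face_mem W q.1 q.2.1 (sg_mem _) hx))
    (fun A hA hAc => by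
      refine ((W.finite_compact hA hAc).prod (finite_univ (α := Fin 3 × Bool))).subset ?_
      rintro q ⟨x, hx, hxA⟩
      exact ⟨⟨_, face_mem W q.1 q.2.1 (sg_mem _) hx, hxA⟩, mem_univ _⟩)
    (fun q => he q.1)
  refine ⟨G, hG, hclose, fun i k σ hσ j hj => ?_, hvol⟩
  obtain ⟨b, rfl⟩ := exists_sg hσ
  exact hflat (i, k, b) j hj

/-- the energy on a face -/
theorem face_le (hp : 1 ≤ p) (hU : IsOpen (Ω \ K)) {f g G : V → V}
    (hfs : ContDiffOn ℝ 1 f (Ω \ K)) {δ : ℝ} (hδ : 0 ≤ δ) (hδ1 : δ ≤ 1)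
    (hgd : ∀ x ∈ Ω \ K, ∀ᶠ y in 𝓝 x, ‖(g y - g x) - (f y - f x)‖ ≤ δ * ‖y - x‖)
    (W : Boxes Ω K) {h : V → V}
    (hh : ∀ x ∈ Ω, (∀ i, ¬ ∀ l, |x l - W.c i l| < W.ρ i) → h x = g x) {e : W.ι → ℝ} (i : W.ι)
    (k : Fin 3) {σ : ℝ} (hσ : σ ∈ ({1, -1} : Finset ℝ)) {j : Fin 3} (hj : j ≠ k)
    (hG : ∫⁻ x in cube (W.c i) (W.ρ i),
        ENNReal.ofReal (‖fderiv ℝ G (Function.update x k (W.c i k + σ * W.ρ i)) (ev j) -
          lineDeriv ℝ h (Function.update x k (W.c i k + σ * W.ρ i)) (ev j)‖ ^ p) ≤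
        ENNReal.ofReal (e i)) :
    ∫⁻ x in cube (W.c i) (W.ρ i), dE p G j (Function.update x k (W.c i k + σ * W.ρ i)) ≤
      2 ^ (p - 1) * (ENNReal.ofReal (e i) + 2 ^ (p - 1) *
        ∫⁻ x in cube (W.c i) (W.ρ i), Hf p (Ω \ K) f (Function.update x k (W.c i k + σ * W.ρ i))) := by
  have hHm : Measurable fun x : V =>
      Hf p (Ω \ K) f (Function.update x k (W.c i k + σ * W.ρ i)) :=
    (measurable_Hf hU hfs).comp ((continuous_id.update k continuous_const).measurable)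
  have hpt : ∀ᵐ x ∂(volume.restrict (cube (W.c i) (W.ρ i))),
      dE p G j (Function.update x k (W.c i k + σ * W.ρ i)) ≤
      2 ^ (p - 1) * (ENNReal.ofReal
        (‖fderiv ℝ G (Function.update x k (W.c i k + σ * W.ρ i)) (ev j) -
          lineDeriv ℝ h (Function.update x k (W.c i k + σ * W.ρ i)) (ev j)‖ ^ p) +
        2 ^ (p - 1) * Hf p (Ω \ K) f (Function.update x k (W.c i k + σ * W.ρ i))) := by
    filter_upwards [ae_open_cube (W.c i) (ρ := W.ρ i)] with x hx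
    set y := Function.update x k (W.c i k + σ * W.ρ i) with hy
    have hyc : y ∈ cube (W.c i) (W.ρ i) := face_mem W i k hσ (H655.ocube_subset hx)
    have hyk : y k = W.c i k + σ * W.ρ i := by rw [hy, Function.update_self]
    have hyU : y ∈ Ω \ K := by
      refine ⟨W.sub i hyc, fun hyK => ?_⟩
      obtain ⟨i', hi'⟩ := W.cover y hyK
      exact face_notMem W i k hσ hyc hyk i' hi'
    have hfd : DifferentiableAt ℝ f y :=
      (hfs.contDiffAt (hU.mem_nhds hyU)).differentiableAt one_ne_zero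
    have h1 := lineDeriv_rpow_le hp hyU hδ hδ1 hfd (hgd y hyU) j
    have h2 := lineDeriv_face W hh i k hσ hx hj
    rw [← hy] at h2
    have h3 := add_rpow_le hp (fderiv ℝ G y (ev j) - lineDeriv ℝ h y (ev j))
      (lineDeriv ℝ h y (ev j))
    rw [sub_add_cancel] at h3
    unfold dE
    refine h3.trans ?_
    gcongr
    rw [h2]
    exact h1
  refine (lintegral_mono_ae hpt).trans ?_
  rw [lintegral_const_mul' _ _ two_rpow_ne_top, lintegral_add_right _ (hHm.const_mul _),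
    lintegral_const_mul' _ _ two_rpow_ne_top]
  gcongr

/-- the energy on the faces of a cube -/
theorem facesE_le (hp : 1 ≤ p) (hU : IsOpen (Ω \ K)) {f g G : V → V}
    (hfs : ContDiffOn ℝ 1 f (Ω \ K)) {δ : ℝ} (hδ : 0 ≤ δ) (hδ1 : δ ≤ 1)
    (hgd : ∀ x ∈ Ω \ K, ∀ᶠ y in 𝓝 x, ‖(g y - g x) - (f y - f x)‖ ≤ δ * ‖y - x‖)
    (W : Boxes Ω K) {h : V → V}
    (hh : ∀ x ∈ Ω, (∀ i, ¬ ∀ l, |x l - W.c i l| < W.ρ i) → h x = g x) {e : W.ι → ℝ} (i : W.ι)
    (hG : ∀ k, ∀ σ ∈ ({1, -1} : Finset ℝ), ∀ j, j ≠ k → ∫⁻ x in cube (W.c i) (W.ρ i),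
        ENNReal.ofReal (‖fderiv ℝ G (Function.update x k (W.c i k + σ * W.ρ i)) (ev j) -
          lineDeriv ℝ h (Function.update x k (W.c i k + σ * W.ρ i)) (ev j)‖ ^ p) ≤
        ENNReal.ofReal (e i)) :
    facesE p W G i ≤ 2 ^ (p - 1) * (12 * ENNReal.ofReal (e i) + 2 ^ (p - 1) * (2 *
        ∑ k, ∑ σ ∈ ({1, -1} : Finset ℝ), ∫⁻ x in cube (W.c i) (W.ρ i),
          Hf p (Ω \ K) f (Function.update x k (W.c i k + σ * W.ρ i)))) := by
  unfold facesE
  have h1 : ∀ k, ∀ σ ∈ ({1, -1} : Finset ℝ), ∑ j ∈ Finset.univ.erase k,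
      ∫⁻ x in cube (W.c i) (W.ρ i), dE p G j (Function.update x k (W.c i k + σ * W.ρ i)) ≤
      2 * (2 ^ (p - 1) * (ENNReal.ofReal (e i) + 2 ^ (p - 1) *
        ∫⁻ x in cube (W.c i) (W.ρ i),
          Hf p (Ω \ K) f (Function.update x k (W.c i k + σ * W.ρ i)))) := by
    intro k σ hσ
    refine (Finset.sum_le_sum fun j hj => face_le hp hU hfs hδ hδ1 hgd W hh i k hσ
      (Finset.ne_of_mem_erase hj) (hG k σ hσ j (Finset.ne_of_mem_erase hj))).trans ?_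
    rw [Finset.sum_const, Finset.card_erase_of_mem (Finset.mem_univ k), Finset.card_univ,
      Fintype.card_fin, nsmul_eq_mul]
    norm_num
  refine (Finset.sum_le_sum fun k _ => Finset.sum_le_sum fun σ hσ => h1 k σ hσ).trans ?_
  have hne : (1 : ℝ) ≠ -1 := by norm_num
  simp only [Finset.sum_pair hne, Fin.sum_univ_three]
  refine le_of_eq ?_
  ring

end Vale.Agent.P073.H880
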