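import Vale.Agent.P073.H880.AsmR2
import Vale.Agent.P073.H880.Approx

/-!
# P073, theorem (R), assembly, part 3
-/

namespace Vale.Agent.P073.H880

open MeasureTheory Set Filter Topology Metric
open Vale.Agent.P073.St (V Mat euc)
open Vale.Agent.P073.SQ (ev cube dE SuppDiffeo)
open Vale.Agent.P073.AB (cl err ofReal_norm_rpow diffeo_smooth diffeo_maps)
open Vale.Agent.P073.H655 (ocube oU cU)
open _root_.P073 (ConHomeo)
open scoped ContDiff ENNReal

variable {p : ℝ} {Ω Λ K : Set V}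

/-- weights -/
theorem exists_weights (ι : Type) [Countable ι] {t : ℝ} (ht : 0 < t) :
    ∃ e : ι → ℝ, (∀ i, 0 < e i) ∧ ∑' i, ENNReal.ofReal (e i) ≤ ENNReal.ofReal t := by
  obtain ⟨e, he, hs⟩ := ENNReal.exists_pos_sum_of_countable (ENNReal.ofReal_pos.2 ht).ne' ι
  refine ⟨fun i => e i, fun i => he i, ?_⟩
  simpa using hs.le

theorem rpow_le_of_le_one (hp : 1 ≤ p) {t : ℝ} (ht : 0 ≤ t) (ht1 : t ≤ 1) : t ^ p ≤ t := by
  rcases ht.eq_or_lt with h | h
  · rw [← h, Real.zero_rpow (by linarith)]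
  · calc t ^ p ≤ t ^ (1 : ℝ) := Real.rpow_le_rpow_of_exponent_ge h ht1 hp
      _ = t := Real.rpow_one t

/-- the error of order zero -/
theorem zero_part (hp : 1 ≤ p) {T f : V → V} {U : Set V} (hUm : MeasurableSet U) {D t : ℝ}
    (ht : 0 ≤ t) (ht1 : t ≤ 1) (hΩ : MeasurableSet Ω) (h1 : ∀ x ∈ Ω, ‖T x - f x‖ ≤ D)
    (h2 : ∀ x ∈ Ω, x ∉ U → ‖T x - f x‖ ≤ 2 * t) (hU : volume U ≤ ENNReal.ofReal t) :
    ∫⁻ x in Ω, ENNReal.ofReal (‖T x - f x‖ ^ p) ≤
      (ENNReal.ofReal (D ^ p) + ENNReal.ofReal (2 ^ p) * volume Ω) * ENNReal.ofReal t := by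
  have hp0 : 0 ≤ p := by linarith
  rw [← lintegral_inter_add_sdiff _ Ω hUm, add_mul]
  gcongr
  · calc ∫⁻ x in Ω ∩ U, ENNReal.ofReal (‖T x - f x‖ ^ p)
        ≤ ∫⁻ x in Ω ∩ U, ENNReal.ofReal (D ^ p) := by
          refine setLIntegral_mono' (hΩ.inter hUm) fun x hx => ?_
          exact ENNReal.ofReal_le_ofReal (Real.rpow_le_rpow (norm_nonneg _) (h1 x hx.1) hp0)
      _ = ENNReal.ofReal (D ^ p) * volume (Ω ∩ U) := setLIntegral_const _ _
      _ ≤ _ := by
          gcongr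
          exact (measure_mono inter_subset_right).trans hU
  · calc ∫⁻ x in Ω \ U, ENNReal.ofReal (‖T x - f x‖ ^ p)
        ≤ ∫⁻ x in Ω \ U, ENNReal.ofReal (2 ^ p) * ENNReal.ofReal t := by
          refine setLIntegral_mono' (hΩ.diff hUm) fun x hx => ?_
          rw [← ENNReal.ofReal_mul (by positivity)]
          refine ENNReal.ofReal_le_ofReal ?_
          calc ‖T x - f x‖ ^ p ≤ (2 * t) ^ p :=
                Real.rpow_le_rpow (norm_nonneg _) (h2 x hx.1 hx.2) hp0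
            _ = 2 ^ p * t ^ p := Real.mul_rpow (by norm_num) ht
            _ ≤ 2 ^ p * t := by gcongr; exact rpow_le_of_le_one hp ht ht1
      _ = ENNReal.ofReal (2 ^ p) * ENNReal.ofReal t * volume (Ω \ U) := setLIntegral_const _ _
      _ ≤ ENNReal.ofReal (2 ^ p) * ENNReal.ofReal t * volume Ω := by
          gcongr
          exact sdiff_subset
      _ = _ := by ring

/-- the error of the derivative off the cubes -/
theorem off_part (hp : 1 ≤ p) {j : Fin 3} {A : Set V} (hA : MeasurableSet A) (hAΩ : A ⊆ Ω)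
    {T G h : V → V} {F : V → Mat} {t : ℝ} (ht : 0 ≤ t) (ht1 : t ≤ 1)
    (h1 : ∀ x ∈ A, fderiv ℝ T x = fderiv ℝ G x)
    (h2 : ∀ᵐ x ∂(volume : Measure V), x ∈ A →
      ‖fderiv ℝ h x (ev j) - cl (F x) (ev j)‖ ≤ t)
    (h3 : ∫⁻ x in Ω, ENNReal.ofReal (‖fderiv ℝ G x (ev j) - fderiv ℝ h x (ev j)‖ ^ p) ≤
      ENNReal.ofReal t) :
    ∫⁻ x in A, ENNReal.ofReal (‖fderiv ℝ T x (ev j) - cl (F x) (ev j)‖ ^ p) ≤
      2 ^ (p - 1) * (1 + volume Ω) * ENNReal.ofReal t := by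
  have hp0 : 0 ≤ p := by linarith
  calc ∫⁻ x in A, ENNReal.ofReal (‖fderiv ℝ T x (ev j) - cl (F x) (ev j)‖ ^ p)
      ≤ ∫⁻ x in A, 2 ^ (p - 1) *
          (ENNReal.ofReal (‖fderiv ℝ G x (ev j) - fderiv ℝ h x (ev j)‖ ^ p) +
            ENNReal.ofReal t) := by
        refine lintegral_mono_ae ?_
        filter_upwards [ae_restrict_of_ae h2, ae_restrict_mem hA] with x hx hxA
        have e1 := add_rpow_le hp (fderiv ℝ G x (ev j) - fderiv ℝ h x (ev j))
          (fderiv ℝ h x (ev j) - cl (F x) (ev j))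
        rw [sub_add_sub_cancel] at e1
        rw [h1 x hxA]
        refine e1.trans ?_
        gcongr
        calc ‖fderiv ℝ h x (ev j) - cl (F x) (ev j)‖ ^ p ≤ t ^ p :=
              Real.rpow_le_rpow (norm_nonneg _) (hx hxA) hp0
          _ ≤ t := rpow_le_of_le_one hp ht ht1
    _ = 2 ^ (p - 1) * ((∫⁻ x in A,
          ENNReal.ofReal (‖fderiv ℝ G x (ev j) - fderiv ℝ h x (ev j)‖ ^ p)) +
            ENNReal.ofReal t * volume A) := by
        rw [lintegral_const_mul' _ _ two_rpow_ne_top, lintegral_add_right _ measurable_const,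
          setLIntegral_const]
    _ ≤ 2 ^ (p - 1) * (ENNReal.ofReal t + ENNReal.ofReal t * volume Ω) := by
        gcongr
        exact (lintegral_mono_set hAΩ).trans h3
    _ = _ := by ring

/-- the error of the derivative on the cubes -/
theorem on_part (hp : 1 ≤ p) {j : Fin 3} (W : Boxes Ω K) {T : V → V} {F : V → Mat}
    {C B : ℝ≥0∞} {e : W.ι → ℝ} {Φ : W.ι → ℝ≥0∞} {Hm : V → ℝ≥0∞} {t : ℝ}
    (hF : ∀ᵐ x ∂(volume : Measure V), x ∈ cU W →
      ENNReal.ofReal (‖cl (F x) (ev j)‖ ^ p) ≤ Hm x) (hHm : Measurable Hm)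
    (hH : ∫⁻ x in cU W, Hm x ≤ ENNReal.ofReal t)
    (hT : ∀ i, ∑ j, ∫⁻ x in cube (W.c i) (W.ρ i), dE p T j x ≤ C * Φ i + ENNReal.ofReal (e i))
    (hΦ : ∑' i, Φ i ≤ B * ENNReal.ofReal t)
    (he : ∑' i, ENNReal.ofReal (e i) ≤ ENNReal.ofReal t) :
    ∫⁻ x in cU W, ENNReal.ofReal (‖fderiv ℝ T x (ev j) - cl (F x) (ev j)‖ ^ p) ≤
      2 ^ (p - 1) * (C * B + 1 + 1) * ENNReal.ofReal t := by
  have := W.cnt
  have e1 : ∫⁻ x in cU W, dE p T j x ≤ C * (B * ENNReal.ofReal t) + ENNReal.ofReal t := by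
    calc ∫⁻ x in cU W, dE p T j x ≤ ∑' i, ∫⁻ x in cube (W.c i) (W.ρ i), dE p T j x :=
          lintegral_iUnion_le _ _
      _ ≤ ∑' i, (C * Φ i + ENNReal.ofReal (e i)) := by
          refine ENNReal.tsum_le_tsum fun i => ?_
          refine le_trans ?_ (hT i)
          exact Finset.single_le_sum (f := fun j => ∫⁻ x in cube (W.c i) (W.ρ i), dE p T j x)
            (fun _ _ => zero_le) (Finset.mem_univ j)
      _ = C * (∑' i, Φ i) + ∑' i, ENNReal.ofReal (e i) := by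
          rw [ENNReal.tsum_add, ENNReal.tsum_mul_left]
      _ ≤ _ := by gcongr
  calc ∫⁻ x in cU W, ENNReal.ofReal (‖fderiv ℝ T x (ev j) - cl (F x) (ev j)‖ ^ p)
      ≤ ∫⁻ x in cU W, 2 ^ (p - 1) * (dE p T j x + Hm x) := by
        refine lintegral_mono_ae ?_
        filter_upwards [ae_restrict_of_ae hF, ae_restrict_mem (measurableSet_cU W)] with x hx hxA
        have e2 := add_rpow_le hp (fderiv ℝ T x (ev j)) (-cl (F x) (ev j))
        rw [norm_neg, ← sub_eq_add_neg] at e2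
        refine e2.trans ?_
        unfold dE
        gcongr
        exact hx hxA
    _ = 2 ^ (p - 1) * ((∫⁻ x in cU W, dE p T j x) + ∫⁻ x in cU W, Hm x) := by
        rw [lintegral_const_mul' _ _ two_rpow_ne_top, lintegral_add_right _ hHm]
    _ ≤ 2 ^ (p - 1) * ((C * (B * ENNReal.ofReal t) + ENNReal.ofReal t) + ENNReal.ofReal t) := by
        gcongr
    _ = _ := by ring

/-- the constant of the faces -/
noncomputable def Bp (p : ℝ) : ℝ≥0∞ := 2 ^ (p - 1) * (12 + 2 ^ (p - 1) * 2)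

theorem faces_sum (W : Boxes Ω K) {G : V → V} {e : W.ι → ℝ} {Hs : W.ι → ℝ≥0∞} {t : ℝ}
    (h1 : ∀ i, facesE p W G i ≤ 2 ^ (p - 1) * (12 * ENNReal.ofReal (e i) + 2 ^ (p - 1) *
      (2 * Hs i)))
    (he : ∑' i, ENNReal.ofReal (e i) ≤ ENNReal.ofReal t) (hs : ∑' i, Hs i ≤ ENNReal.ofReal t) :
    ∑' i, facesE p W G i ≤ Bp p * ENNReal.ofReal t := by
  calc ∑' i, facesE p W G i ≤ ∑' i, 2 ^ (p - 1) * (12 * ENNReal.ofReal (e i) + 2 ^ (p - 1) *
      (2 * Hs i)) := ENNReal.tsum_le_tsum h1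
    _ = 2 ^ (p - 1) * (12 * (∑' i, ENNReal.ofReal (e i)) + 2 ^ (p - 1) * (2 * ∑' i, Hs i)) := by
        rw [ENNReal.tsum_mul_left, ENNReal.tsum_add, ENNReal.tsum_mul_left, ENNReal.tsum_mul_left,
          ENNReal.tsum_mul_left]
    _ ≤ 2 ^ (p - 1) * (12 * ENNReal.ofReal t + 2 ^ (p - 1) * (2 * ENNReal.ofReal t)) := by
        gcongr
    _ = _ := by unfold Bp; ring

/-- finiteness of the integral of the majorant -/
theorem lintegral_Hf_ne_top (hp : 1 ≤ p) (hΩ : St.IsBoundedDomain Ω) {f : V → V} {F : V → Mat}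
    (hF : St.IsSobolev p Ω f F) (hU : IsOpen (Ω \ K)) (hfs : ContDiffOn ℝ 1 f (Ω \ K))
    : ∫⁻ x in Ω, Hf p (Ω \ K) f x ≠ ⊤ := by
  have hp0 : 0 ≤ p := by linarith
  have h1 : ∀ j, ∫⁻ x in Ω, ENNReal.ofReal (‖cl (F x) (ev j)‖ ^ p) ≠ ⊤ := by
    intro j
    refine ne_top_of_le_ne_top (PK.IsSob.lintegral_ne_top hp hF) ?_
    refine lintegral_mono fun x => ?_
    rw [ofReal_norm_rpow hp0]
    apply ENNReal.rpow_le_rpow _ hp0
    rw [← ofReal_norm, ← ofReal_norm]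
    apply ENNReal.ofReal_le_ofReal
    refine (ContinuousLinearMap.le_opNorm _ _).trans ?_
    rw [norm_ev, mul_one]
  have hm : ∀ j, AEMeasurable (fun x => ENNReal.ofReal (‖cl (F x) (ev j)‖ ^ p))
      (volume.restrict Ω) := by
    intro j
    have h2 : AEMeasurable (fun x => cl (F x) (ev j)) (volume.restrict Ω) :=
      ((ContinuousLinearMap.apply ℝ V (ev j)).continuous.comp_aestronglyMeasurable
        (PK.IsSob.aesm hF)).aemeasurable
    exact (h2.norm.pow_const p).ennreal_ofReal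
  have hae := H655.ae_eq_off hp hΩ hF hU diff_subset hfs
  refine ne_top_of_le_ne_top (b := ∫⁻ x in Ω,
    ((∑ j, ENNReal.ofReal (‖cl (F x) (ev j)‖ ^ p)) + 1)) ?_ ?_
  · rw [lintegral_add_right _ measurable_const, lintegral_finsetSum' _ fun j _ => hm j,
      setLIntegral_const, one_mul]
    exact ENNReal.add_ne_top.2 ⟨ENNReal.sum_ne_top.2 fun j _ => h1 j,
      PK.volume_ne_top_of_domain hΩ⟩
  · refine lintegral_mono_ae ?_
    filter_upwards [ae_restrict_of_ae hae] with x hx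
    unfold Hf
    gcongr
    by_cases hxU : x ∈ Ω \ K
    · rw [indicator_of_mem hxU]
      refine le_of_eq (Finset.sum_congr rfl fun j _ => ?_)
      rw [hx hxU j]
    · rw [indicator_of_notMem hxU]
      exact zero_le

/-- a set with a null coordinate projection is null -/
theorem null_of_proj (hnull : ∀ k : Fin 3, volume ((fun x : V => x k) '' K) = 0) :
    volume K = 0 := by
  have h1 : K ⊆ univ.pi fun k : Fin 3 => (fun x : V => x k) '' K := fun x hx k _ => ⟨x, hx, rfl⟩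
  refine measure_mono_null h1 ?_
  rw [volume_pi_pi, Finset.prod_eq_zero (Finset.mem_univ 0) (hnull 0)]

end Vale.Agent.P073.H880
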