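import Vale.Agent.P073.H880.AsmR3

/-!
# P073, theorem (R), assembly, part 4: the theorem over its rows
-/

namespace Vale.Agent.P073.H880

open MeasureTheory Set Filter Topology Metric
open Vale.Agent.P073.St (V Mat euc)
open Vale.Agent.P073.SQ (ev cube dE SuppDiffeo)
open Vale.Agent.P073.AB (cl err ofReal_norm_rpow diffeo_smooth diffeo_maps)
open Vale.Agent.P073.H655 (ocube oU cU)
open _root_.P073 (ConHomeo)
open scoped ContDiff ENNReal

variable {p : ℝ} {Ω Λ K : Set V}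

/-- the constant -/
noncomputable def Ap (p : ℝ) (C : ℝ≥0∞) (D : ℝ) (v : ℝ≥0∞) : ℝ≥0∞ :=
  (ENNReal.ofReal ((2 * D) ^ p) + ENNReal.ofReal (2 ^ p) * v) +
    3 * (2 ^ (p - 1) * (C * Bp p + 1 + 1) + 2 ^ (p - 1) * (1 + v))

theorem Bp_ne_top : Bp p ≠ ⊤ := by
  unfold Bp
  exact ENNReal.mul_ne_top two_rpow_ne_top (ENNReal.add_ne_top.2 ⟨by simp,
    ENNReal.mul_ne_top two_rpow_ne_top (by simp)⟩)

theorem Ap_ne_top {C : ℝ≥0∞} {D : ℝ} {v : ℝ≥0∞} (hC : C ≠ ⊤) (hv : v ≠ ⊤) : Ap p C D v ≠ ⊤ := by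
  unfold Ap
  refine ENNReal.add_ne_top.2 ⟨ENNReal.add_ne_top.2 ⟨ENNReal.ofReal_ne_top,
    ENNReal.mul_ne_top ENNReal.ofReal_ne_top hv⟩, ENNReal.mul_ne_top (by simp)
    (ENNReal.add_ne_top.2 ⟨ENNReal.mul_ne_top two_rpow_ne_top (ENNReal.add_ne_top.2
      ⟨ENNReal.add_ne_top.2 ⟨ENNReal.mul_ne_top hC Bp_ne_top, by simp⟩, by simp⟩),
      ENNReal.mul_ne_top two_rpow_ne_top (ENNReal.add_ne_top.2 ⟨by simp, hv⟩)⟩)⟩

/-- the squeeze of all cubes with constant `C` -/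
def SqueezeC (p : ℝ) (C : ℝ≥0∞) : Prop :=
  ∀ (Ω Λ K : Set V) (W : Boxes Ω K) (G : V → V) (e : W.ι → ℝ≥0∞),
    IsOpen Ω → St.IsDiffeo Ω Λ G → (∀ i, e i ≠ 0) →
    ∃ S : V → V, St.IsDiffeo Ω Ω S ∧ (∀ x, x ∉ cU W → S x = x) ∧
      ∀ i, ∑ j, ∫⁻ x in cube (W.c i) (W.ρ i), dE p (G ∘ S) j x ≤ C * facesE p W G i + e i

theorem homeo_maps {f : V → V} (hf : St.IsHomeo Ω Λ f) {x : V} (hx : x ∈ Ω) : f x ∈ Λ := by
  obtain ⟨k, ⟨h1, -⟩, -⟩ := hf
  exact (h1 x hx).1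

/-- off the cubes the derivative of the filling is close to the weak derivative -/
theorem fill_close (hp : 1 ≤ p) (hΩ : St.IsBoundedDomain Ω)
    {f g : V → V} {F : V → Mat} (hF : St.IsSobolev p Ω f F) (hKo : IsOpen (Ω \ K))
    (hfs : ContDiffOn ℝ 1 f (Ω \ K)) {t : ℝ} (ht : 0 ≤ t)
    (hgd : ∀ x ∈ Ω \ K, ∀ᶠ y in 𝓝 x, ‖(g y - g x) - (f y - f x)‖ ≤ t * ‖y - x‖)
    (W : Boxes Ω K) (h : ConHomeo Ω Λ)
    (hh : ∀ x ∈ Ω, (∀ i, ¬ ∀ l, |x l - W.c i l| < W.ρ i) → h.toFun x = g x) (j : Fin 3) :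
    ∀ᵐ x ∂(volume : Measure V), x ∈ Ω \ cU W →
      ‖fderiv ℝ h.toFun x (ev j) - cl (F x) (ev j)‖ ≤ t := by
  have hnull := _root_.P073.measure_singular_eq_zero (volume : Measure V) hΩ.1 h.conical h.cont
  rw [measure_eq_zero_iff_ae_notMem] at hnull
  have hae := H655.ae_eq_off hp hΩ hF hKo sdiff_subset hfs
  filter_upwards [hnull, hae] with x hx1 hx2 hx
  have hxU : x ∈ Ω \ K := ⟨hx.1, fun h => hx.2 (H655.oU_subset_cU W (H655.sub_oU W h))⟩
  have htop : _root_.P073.linSpace h.toFun x = ⊤ := by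
    by_contra hcon
    exact hx1 ⟨hx.1, hcon⟩
  have hcd : ContDiffAt ℝ ∞ h.toFun x :=
    _root_.P073.contDiffAt_of_top (h.conical.conicalAt hΩ.1 hx.1) htop
  have hhd : DifferentiableAt ℝ h.toFun x := hcd.differentiableAt (by simp)
  have hfd : DifferentiableAt ℝ f x :=
    (hfs.contDiffAt (hKo.mem_nhds hxU)).differentiableAt one_ne_zero
  have hoff : ∀ z ∈ Ω, z ∉ cU W → h.toFun z = g z := fun z hz hz' =>
    hh z hz fun i hi => hz' (mem_iUnion.2 ⟨i, fun l => (hi l).le⟩)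
  have hev : ∀ᶠ z in 𝓝 x, ‖(h.toFun z - h.toFun x) - (f z - f x)‖ ≤ t * ‖z - x‖ := by
    filter_upwards [hgd x hxU, H655.eventually_notMem_cU W hx.1 hx.2, hΩ.1.mem_nhds hx.1]
      with z hz hzU hzΩ
    rwa [hoff z hzΩ hzU, hoff x hx.1 hx.2]
  have h1 := norm_fderiv_sub_le ht hfd hhd hev
  rw [hx2 hxU j]
  have h2 := (fderiv ℝ h.toFun x - fderiv ℝ f x).le_opNorm (ev j)
  rw [norm_ev, mul_one] at h2
  exact h2.trans h1

/-- one step of the approximation -/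
theorem one_step (hBoxes : SpecBoxes) (hFill : SpecFill) (hFine : SpecFine)
    (hp : 1 ≤ p) (hΩ : St.IsBoundedDomain Ω) (hΛ : St.IsBoundedDomain Λ) {f : V → V}
    {F : V → Mat} (hf : St.IsHomeo Ω Λ f) (hF : St.IsSobolev p Ω f F) (hK : K ⊆ Ω)
    (hKo : IsOpen (Ω \ K)) (hnull : ∀ k : Fin 3, volume ((fun x : V => x k) '' K) = 0)
    (hfs : ContDiffOn ℝ 1 f (Ω \ K)) (hinj : ∀ x ∈ Ω \ K, ∀ v, fderiv ℝ f x v = 0 → v = 0)
    {C : ℝ≥0∞} (hC : SqueezeC p C) {D : ℝ} (hD : ∀ y ∈ Λ, ‖y‖ ≤ D) {t : ℝ} (ht : 0 < t)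
    (ht1 : t ≤ 1) :
    ∃ T, St.IsDiffeo Ω Λ T ∧ err p Ω f F T ≤ Ap p C D (volume Ω) * ENNReal.ofReal t := by
  obtain ⟨g, hg, -, hgc, hgn, hgd⟩ := hFine Ω Λ K f (fun _ => t) hΩ.1
    (PK.isBounded_of_domain hΩ) hΛ.1 (PK.isBounded_of_domain hΛ) hK hKo hf hfs hinj
    continuousOn_const (fun _ _ => ht)
  obtain ⟨W, hW1, hW2, hW3⟩ := hBoxes Ω K (Hf p (Ω \ K) f) t hΩ.1 (PK.isBounded_of_domain hΩ)
    hK hKo hnull (measurable_Hf hKo hfs) (lintegral_Hf_ne_top hp hΩ hF hKo hfs) ht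
  obtain ⟨h, hh⟩ := hFill Ω Λ K g W hΩ.1 hΛ.1 hK hKo hg hgc
  have := W.cnt
  obtain ⟨e, he, hes⟩ := exists_weights W.ι ht
  obtain ⟨G, hG, hGc, hGf, hGd⟩ := exists_smooth hp hΩ hΛ W h ht he
  obtain ⟨S, hS, hSid, hSE⟩ := hC Ω Λ K W G (fun i => ENNReal.ofReal (e i)) hΩ.1 hG
    (fun i => (ENNReal.ofReal_pos.2 (he i)).ne')
  have hT : St.IsDiffeo Ω Λ (G ∘ S) := AB.isDiffeo_comp hS hG
  refine ⟨G ∘ S, hT, ?_⟩
  have hcm := measurableSet_cU W
  have hΩm := hΩ.1.measurableSet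
  have hoff : ∀ x ∈ Ω, x ∉ cU W → h.toFun x = g x := fun x hx hx' =>
    hh x hx fun i hi => hx' (mem_iUnion.2 ⟨i, fun l => (hi l).le⟩)
  have hKc : K ⊆ cU W := (H655.sub_oU W).trans (H655.oU_subset_cU W)
  -- order zero
  have z := zero_part hp (T := G ∘ S) (f := f) hcm (D := 2 * D) ht.le ht1 hΩm
    (fun x hx => by
      have h1 := hD _ (diffeo_maps hT hx)
      have h2 := hD _ (homeo_maps hf hx)
      have h3 := norm_sub_le ((G ∘ S) x) (f x)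
      linarith)
    (fun x hx hxc => by
      have h1 := hGc x hx
      have h2 : ‖g x - f x‖ ≤ t := hgn x ⟨hx, fun h => hxc (hKc h)⟩
      have h3 : (G ∘ S) x = G x := by
        show G (S x) = G x
        rw [hSid x hxc]
      rw [hoff x hx hxc] at h1
      rw [h3]
      have h4 := norm_add_le (G x - g x) (g x - f x)
      rw [sub_add_sub_cancel] at h4
      linarith) hW1
  -- the derivatives
  have hKnull := null_of_proj hnull
  rw [measure_eq_zero_iff_ae_notMem] at hKnull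
  have hae := H655.ae_eq_off hp hΩ hF hKo sdiff_subset hfs
  have d : ∀ j, ∫⁻ x in Ω, ENNReal.ofReal (‖fderiv ℝ (G ∘ S) x (ev j) - cl (F x) (ev j)‖ ^ p) ≤
      2 ^ (p - 1) * (C * Bp p + 1 + 1) * ENNReal.ofReal t +
        2 ^ (p - 1) * (1 + volume Ω) * ENNReal.ofReal t := by
    intro j
    rw [← lintegral_inter_add_sdiff _ Ω hcm]
    refine add_le_add ((lintegral_mono_set inter_subset_right).trans ?_) ?_
    · refine on_part hp W (e := e) (Φ := facesE p W G) ?_ (measurable_Hf hKo hfs) hW2 hSE ?_ hes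
      · filter_upwards [hKnull, hae] with x hx1 hx2 hx
        have hxU : x ∈ Ω \ K := ⟨H655.cU_subset W hx, hx1⟩
        rw [hx2 hxU j]
        exact le_self_add.trans (le_Hf hxU j)
      · exact faces_sum W (fun i => facesE_le hp hKo hfs ht.le ht1 hgd W hh i (hGf i)) hes hW3
    · refine off_part hp (hΩm.diff hcm) sdiff_subset (G := G) (h := h.toFun) ht.le ht1 ?_
        (fill_close hp hΩ hF hKo hfs ht.le hgd W h hh j) (hGd j)
      intro x hx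
      refine Filter.EventuallyEq.fderiv_eq ?_
      filter_upwards [H655.eventually_notMem_cU W hx.1 hx.2] with y hy
      show G (S y) = G y
      rw [hSid y hy]
  unfold err Ap
  refine (add_le_add z (Finset.sum_le_sum fun j _ => d j)).trans (le_of_eq ?_)
  rw [Finset.sum_const, Finset.card_univ, Fintype.card_fin, nsmul_eq_mul]
  push_cast
  ring

/-- **theorem (R)** over its rows -/
theorem removable_of (hCube : SpecCube3) (hBoxes : SpecBoxes) (hFill : SpecFill)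
    (hFine : SpecFine) (hp : 1 ≤ p) (hp3 : p < 3) (hΩ : St.IsBoundedDomain Ω)
    (hΛ : St.IsBoundedDomain Λ) {f : V → V} {F : V → Mat} (hf : St.IsHomeo Ω Λ f)
    (hF : St.IsSobolev p Ω f F) (hK : K ⊆ Ω) (hKo : IsOpen (Ω \ K))
    (hnull : ∀ k : Fin 3, volume ((fun x : V => x k) '' K) = 0)
    (hfs : ContDiffOn ℝ 1 f (Ω \ K)) (hinj : ∀ x ∈ Ω \ K, ∀ v, fderiv ℝ f x v = 0 → v = 0) :
    St.DiffeoApproximable p Ω Λ f F := by
  obtain ⟨C, hC, hsq⟩ := exists_squeeze hCube hp hp3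
  obtain ⟨D, -, hD⟩ := AB.norm_bound_of_domain hΛ
  have hv := PK.volume_ne_top_of_domain hΩ
  have hcont : ContinuousOn f Ω := by
    obtain ⟨k, -, h, -⟩ := hf
    exact h
  refine approximable_of hp hΩ hΛ hcont hF
    (b := fun k : ℕ => Ap p C D (volume Ω) * ENNReal.ofReal (1 / ((k : ℝ) + 1))) ?_
    (fun k => ENNReal.mul_ne_top (Ap_ne_top hC hv) ENNReal.ofReal_ne_top)
    (fun k => one_step hBoxes hFill hFine hp hΩ hΛ hf hF hK hKo hnull hfs hinj hsq hD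
      (by positivity) ?_)
  · have h1 := ENNReal.tendsto_ofReal (tendsto_one_div_add_atTop_nhds_zero_nat (𝕜 := ℝ))
    rw [ENNReal.ofReal_zero] at h1
    have h2 := ENNReal.Tendsto.const_mul (a := Ap p C D (volume Ω)) h1 (Or.inr (Ap_ne_top hC hv))
    rwa [mul_zero] at h2
  · rw [div_le_one (by positivity)]
    have : (0 : ℝ) ≤ k := Nat.cast_nonneg k
    linarith

end Vale.Agent.P073.H880
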