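import Vale.Agent.P073.H880.AsmR4
import Vale.Agent.P073.H655.Fine

/-!
# P073, theorem (R) over `FineOff`, part 1
-/

namespace Vale.Agent.P073.H880

open MeasureTheory Set Filter Topology Metric
open Vale.Agent.P073.St (V Mat euc)
open Vale.Agent.P073.SQ (ev cube dE SuppDiffeo)
open Vale.Agent.P073.AB (cl err ofReal_norm_rpow diffeo_smooth diffeo_maps)
open Vale.Agent.P073.H655 (ocube oU cU FineOff)
open _root_.P073 (ConHomeo ConicalOn ConicalWithinAt)
open scoped ContDiff ENNReal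

variable {p : ℝ} {Ω Λ K : Set V}

/-! ### measurability of the line derivative -/

/-- a map which is continuous on `U` agrees near a ball with a continuous map -/
theorem exists_global {U : Set V} {g : V → V} (hg : ContinuousOn g U) {x : V} {r : ℝ}
    (hr : 0 < r) (hsub : closedBall x r ⊆ U) :
    ∃ g' : V → V, Continuous g' ∧ ∀ y ∈ ball x r, g' =ᶠ[𝓝 y] g := by
  set c : V → V := fun y l => max (x l - r) (min (y l) (x l + r)) with hc
  have hcc : Continuous c := by
    refine continuous_pi fun l => ?_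
    exact continuous_const.max ((continuous_apply l).min continuous_const)
  have hcm : ∀ y, c y ∈ closedBall x r := by
    intro y
    rw [mem_closedBall, dist_pi_le_iff hr.le]
    intro l
    rw [Real.dist_eq, abs_le]
    constructor
    · have : x l - r ≤ c y l := le_max_left _ _
      linarith
    · have : c y l ≤ x l + r := max_le (by linarith) (min_le_right _ _)
      linarith
  refine ⟨g ∘ c, hg.comp_continuous hcc fun y => hsub (hcm y), fun y hy => ?_⟩
  filter_upwards [isOpen_ball.mem_nhds hy] with z hz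
  show g (c z) = g z
  congr 1
  funext l
  have h1 : |z l - x l| < r := by
    have h2 := (norm_le_pi_norm (z - x) l).trans_lt (by rwa [mem_ball, dist_eq_norm] at hz)
    exact h2
  rw [abs_lt] at h1
  show max (x l - r) (min (z l) (x l + r)) = z l
  rw [min_eq_left (by linarith), max_eq_right (by linarith)]

theorem measurable_lineDeriv_on {U : Set V} (hU : IsOpen U) {g : V → V}
    (hg : ContinuousOn g U) (v : V) :
    Measurable (U.indicator fun x => lineDeriv ℝ g x v) := by
  have hex : ∀ x ∈ U, ∃ r > 0, closedBall x r ⊆ U := fun x hx =>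
    Metric.nhds_basis_closedBall.mem_iff.1 (hU.mem_nhds hx)
  choose! r hr hsub using hex
  have hglob : ∀ x ∈ U, ∃ g' : V → V, Continuous g' ∧ ∀ y ∈ ball x (r x), g' =ᶠ[𝓝 y] g :=
    fun x hx => exists_global hg (hr x hx) (hsub x hx)
  choose! G hGc hGe using hglob
  obtain ⟨t, htU, htc, hcov⟩ := TopologicalSpace.countable_cover_nhdsWithin
    (f := fun x => ball x (r x)) (s := U)
    (fun x hx => mem_nhdsWithin_of_mem_nhds (ball_mem_nhds x (hr x hx)))
  intro S hS
  have h1 : (U.indicator fun x => lineDeriv ℝ g x v) ⁻¹' S =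
      (⋃ x ∈ t, (ball x (r x) ∩ (fun y => lineDeriv ℝ (G x) y v) ⁻¹' S)) ∪
        (Uᶜ ∩ {_y : V | (0 : V) ∈ S}) := by
    ext y
    by_cases hy : y ∈ U
    · have e1 : y ∈ (U.indicator fun x => lineDeriv ℝ g x v) ⁻¹' S ↔ lineDeriv ℝ g y v ∈ S := by
        rw [mem_preimage, indicator_of_mem hy]
      rw [e1]
      constructor
      · intro h
        left
        obtain ⟨x, hxt, hyx⟩ := mem_iUnion₂.1 (hcov hy)
        refine mem_iUnion₂.2 ⟨x, hxt, hyx, ?_⟩
        show lineDeriv ℝ (G x) y v ∈ S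
        rwa [(hGe x (htU hxt) y hyx).lineDeriv_eq]
      · rintro (h | h)
        · obtain ⟨x, hxt, hyx, h2⟩ := mem_iUnion₂.1 h
          rw [← (hGe x (htU hxt) y hyx).lineDeriv_eq]
          exact h2
        · exact absurd hy h.1
    · have e1 : y ∈ (U.indicator fun x => lineDeriv ℝ g x v) ⁻¹' S ↔ (0 : V) ∈ S := by
        rw [mem_preimage, indicator_of_notMem hy]
      rw [e1]
      constructor
      · exact fun h => Or.inr ⟨hy, h⟩
      · rintro (h | h)
        · obtain ⟨x, hxt, hyx, -⟩ := mem_iUnion₂.1 h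
          exact absurd (hsub x (htU hxt) (ball_subset_closedBall hyx)) hy
        · exact h.2
  rw [h1]
  refine MeasurableSet.union (MeasurableSet.biUnion htc fun x hx => ?_)
    (hU.measurableSet.compl.inter (MeasurableSet.const _))
  exact isOpen_ball.measurableSet.inter (measurable_lineDeriv (hGc x (htU hx)) hS)

/-! ### the majorant -/

/-- the energy density of `g`, plus one -/
noncomputable def Hg (p : ℝ) (U : Set V) (g : V → V) (x : V) : ℝ≥0∞ :=
  (∑ j, ENNReal.ofReal (‖U.indicator (fun x => lineDeriv ℝ g x (ev j)) x‖ ^ p)) + 1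

theorem measurable_Hg {U : Set V} (hU : IsOpen U) {g : V → V} (hg : ContinuousOn g U) :
    Measurable (Hg p U g) := by
  have h : Measurable fun x : V => ∑ j : Fin 3, ENNReal.ofReal
      (‖U.indicator (fun x => lineDeriv ℝ g x (ev j)) x‖ ^ p) :=
    Finset.measurable_fun_sum _ fun j _ =>
      ((measurable_lineDeriv_on hU hg (ev j)).norm.pow_const p).ennreal_ofReal
  exact h.add_const 1

theorem le_Hg {U : Set V} {g : V → V} {x : V} (hx : x ∈ U) (j : Fin 3) :
    ENNReal.ofReal (‖lineDeriv ℝ g x (ev j)‖ ^ p) + 1 ≤ Hg p U g x := by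
  unfold Hg
  gcongr
  have h := Finset.single_le_sum (f := fun j => ENNReal.ofReal
    (‖U.indicator (fun x => lineDeriv ℝ g x (ev j)) x‖ ^ p))
    (fun _ _ => zero_le) (Finset.mem_univ j)
  simpa [hx] using h

theorem rpow_le_two (hp : 1 ≤ p) {a b : ℝ} (ha : 0 ≤ a) (hb : 0 ≤ b) (h : a ≤ b + 1) :
    ENNReal.ofReal (a ^ p) ≤ 2 ^ (p - 1) * (ENNReal.ofReal (b ^ p) + 1) := by
  have hp0 : 0 ≤ p := by linarith
  calc ENNReal.ofReal (a ^ p)
      ≤ ENNReal.ofReal ((b + 1) ^ p) :=
        ENNReal.ofReal_le_ofReal (Real.rpow_le_rpow ha h hp0)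
    _ = (ENNReal.ofReal b + 1) ^ p := by
        rw [← ENNReal.ofReal_rpow_of_nonneg (by positivity) hp0, ENNReal.ofReal_add hb
          zero_le_one, ENNReal.ofReal_one]
    _ ≤ 2 ^ (p - 1) * (ENNReal.ofReal b ^ p + 1 ^ p) :=
        ENNReal.rpow_add_le_mul_rpow_add_rpow _ _ hp
    _ = 2 ^ (p - 1) * (ENNReal.ofReal (b ^ p) + 1) := by
        rw [ENNReal.one_rpow, ENNReal.ofReal_rpow_of_nonneg hb hp0]

/-- finiteness of the integral of the majorant -/
theorem lintegral_Hg_ne_top (hp : 1 ≤ p) (hΩ : St.IsBoundedDomain Ω) {f g : V → V} {F : V → Mat}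
    (hF : St.IsSobolev p Ω f F)
    (hae : ∀ᵐ x ∂(volume : Measure V), x ∈ Ω \ K → DifferentiableAt ℝ f x ∧
      ∀ j, cl (F x) (ev j) = fderiv ℝ f x (ev j)) {t : ℝ} (ht : 0 ≤ t) (ht1 : t ≤ 1)
    (hgd : ∀ x ∈ Ω \ K, ∀ᶠ y in 𝓝 x, ‖(g y - g x) - (f y - f x)‖ ≤ t * ‖y - x‖) :
    ∫⁻ x in Ω, Hg p (Ω \ K) g x ≠ ⊤ := by
  have hp0 : 0 ≤ p := by linarith
  have h1 : ∀ j, ∫⁻ x in Ω, ENNReal.ofReal (‖cl (F x) (ev j)‖ ^ p) ≠ ⊤ := by
    intro j
    refine ne_top_of_le_ne_top (PK.IsSob.lintegral_ne_top hp hF) ?_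
    refine lintegral_mono fun x => ?_
    rw [ofReal_norm_rpow hp0]
    apply ENNReal.rpow_le_rpow _ hp0
    rw [← ofReal_norm, ← ofReal_norm]
    apply ENNReal.ofReal_le_ofReal
    refine (ContinuousLinearMap.le_opNorm _ _).trans ?_
    rw [norm_ev, mul_one]
  have hm : ∀ j, AEMeasurable (fun x => 2 ^ (p - 1) *
      (ENNReal.ofReal (‖cl (F x) (ev j)‖ ^ p) + 1)) (volume.restrict Ω) := by
    intro j
    have h2 : AEMeasurable (fun x => cl (F x) (ev j)) (volume.restrict Ω) :=
      ((ContinuousLinearMap.apply ℝ V (ev j)).continuous.comp_aestronglyMeasurable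
        (PK.IsSob.aesm hF)).aemeasurable
    exact ((h2.norm.pow_const p).ennreal_ofReal.add_const 1).const_mul _
  refine ne_top_of_le_ne_top (b := ∫⁻ x in Ω,
    ((∑ j, 2 ^ (p - 1) * (ENNReal.ofReal (‖cl (F x) (ev j)‖ ^ p) + 1)) + 1)) ?_ ?_
  · rw [lintegral_add_right _ measurable_const, lintegral_finsetSum' _ fun j _ => hm j,
      setLIntegral_const, one_mul]
    refine ENNReal.add_ne_top.2 ⟨ENNReal.sum_ne_top.2 fun j _ => ?_,
      PK.volume_ne_top_of_domain hΩ⟩
    rw [lintegral_const_mul' _ _ two_rpow_ne_top, lintegral_add_right _ measurable_const,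
      setLIntegral_const, one_mul]
    exact ENNReal.mul_ne_top two_rpow_ne_top
      (ENNReal.add_ne_top.2 ⟨h1 j, PK.volume_ne_top_of_domain hΩ⟩)
  · refine lintegral_mono_ae ?_
    filter_upwards [ae_restrict_of_ae hae] with x hx
    unfold Hg
    gcongr with j
    by_cases hxU : x ∈ Ω \ K
    · rw [indicator_of_mem hxU]
      obtain ⟨h2, h3⟩ := hx hxU
      rw [h3 j]
      refine rpow_le_two hp (norm_nonneg _) (norm_nonneg _) ?_
      have h4 := norm_lineDeriv_le (v := ev j) ht h2 (hgd x hxU)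
      rw [norm_ev, mul_one] at h4
      linarith
    · rw [indicator_of_notMem hxU, norm_zero]
      exact rpow_le_two hp le_rfl (norm_nonneg _) (by positivity)

/-- conical off `K` -/
theorem conicalOn_off (hKo : IsOpen (Ω \ K)) {g : V → V}
    (h : ∀ x ∈ Ω \ K, ConicalWithinAt g Ω x) : ConicalOn g (Ω \ K) := by
  intro x hx
  obtain ⟨r, hr, h1⟩ := h x hx
  obtain ⟨s, hs, hb⟩ := Metric.isOpen_iff.1 hKo x hx
  refine ⟨min r (s / 2), by positivity, fun v hv hxv t ht => ?_⟩
  obtain ⟨h2, h3⟩ := h1 v (hv.trans (min_le_left _ _)) hxv.1 t ht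
  refine ⟨hb ?_, h3⟩
  rw [mem_ball, dist_eq_norm, add_sub_cancel_left, norm_smul, Real.norm_of_nonneg ht.1]
  have h4 := hv.trans (min_le_right _ _)
  have h5 : t * ‖v‖ ≤ 1 * ‖v‖ := mul_le_mul_of_nonneg_right ht.2 (norm_nonneg _)
  linarith

/-- almost everywhere differentiability off `K` -/
theorem ae_diff_off (hKo : IsOpen (Ω \ K)) {g : V → V} (hg : ContinuousOn g (Ω \ K))
    (h : ConicalOn g (Ω \ K)) :
    ∀ᵐ x ∂(volume : Measure V), x ∈ Ω \ K → DifferentiableAt ℝ g x := by
  have hnull := _root_.P073.measure_singular_eq_zero (volume : Measure V) hKo h hg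
  rw [measure_eq_zero_iff_ae_notMem] at hnull
  filter_upwards [hnull] with x hx1 hx
  have htop : _root_.P073.linSpace g x = ⊤ := by
    by_contra hcon
    exact hx1 ⟨hx, hcon⟩
  have hcd : ContDiffAt ℝ ∞ g x := _root_.P073.contDiffAt_of_top (h.conicalAt hKo hx) htop
  exact hcd.differentiableAt (by simp)

end Vale.Agent.P073.H880
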