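import Vale.Agent.P073.H880.AsmS1
import Vale.Agent.P073.H705.Cube3
import Vale.Agent.P073.H739.Boxes
import Vale.Agent.P073.H694.Fill

/-!
# P073, theorem (R) over `FineOff`, part 2
-/

namespace Vale.Agent.P073.H880

open MeasureTheory Set Filter Topology Metric
open Vale.Agent.P073.St (V Mat euc)
open Vale.Agent.P073.SQ (ev cube dE SuppDiffeo)
open Vale.Agent.P073.AB (cl err ofReal_norm_rpow diffeo_smooth diffeo_maps)
open Vale.Agent.P073.H655 (ocube oU cU FineOff)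
open _root_.P073 (ConHomeo ConicalOn ConicalWithinAt)
open scoped ContDiff ENNReal

variable {p : ℝ} {Ω Λ K : Set V}

/-- the energy on a face -/
theorem face_le' (hp : 1 ≤ p) (hU : IsOpen (Ω \ K)) {g G : V → V}
    (hgc : ContinuousOn g (Ω \ K)) (W : Boxes Ω K) {h : V → V}
    (hh : ∀ x ∈ Ω, (∀ i, ¬ ∀ l, |x l - W.c i l| < W.ρ i) → h x = g x) {e : W.ι → ℝ} (i : W.ι)
    (k : Fin 3) {σ : ℝ} (hσ : σ ∈ ({1, -1} : Finset ℝ)) {j : Fin 3} (hj : j ≠ k)
    (hG : ∫⁻ x in cube (W.c i) (W.ρ i),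
        ENNReal.ofReal (‖fderiv ℝ G (Function.update x k (W.c i k + σ * W.ρ i)) (ev j) -
          lineDeriv ℝ h (Function.update x k (W.c i k + σ * W.ρ i)) (ev j)‖ ^ p) ≤
        ENNReal.ofReal (e i)) :
    ∫⁻ x in cube (W.c i) (W.ρ i), dE p G j (Function.update x k (W.c i k + σ * W.ρ i)) ≤
      2 ^ (p - 1) * (ENNReal.ofReal (e i) +
        ∫⁻ x in cube (W.c i) (W.ρ i), Hg p (Ω \ K) g (Function.update x k (W.c i k + σ * W.ρ i))) := by
  have hHm : Measurable fun x : V =>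
      Hg p (Ω \ K) g (Function.update x k (W.c i k + σ * W.ρ i)) :=
    (measurable_Hg hU hgc).comp ((continuous_id.update k continuous_const).measurable)
  have hpt : ∀ᵐ x ∂(volume.restrict (cube (W.c i) (W.ρ i))),
      dE p G j (Function.update x k (W.c i k + σ * W.ρ i)) ≤
      2 ^ (p - 1) * (ENNReal.ofReal
        (‖fderiv ℝ G (Function.update x k (W.c i k + σ * W.ρ i)) (ev j) -
          lineDeriv ℝ h (Function.update x k (W.c i k + σ * W.ρ i)) (ev j)‖ ^ p) +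
        Hg p (Ω \ K) g (Function.update x k (W.c i k + σ * W.ρ i))) := by
    filter_upwards [ae_open_cube (W.c i) (ρ := W.ρ i)] with x hx
    set y := Function.update x k (W.c i k + σ * W.ρ i) with hy
    have hyc : y ∈ cube (W.c i) (W.ρ i) := face_mem W i k hσ (H655.ocube_subset hx)
    have hyk : y k = W.c i k + σ * W.ρ i := by rw [hy, Function.update_self]
    have hyU : y ∈ Ω \ K := by
      refine ⟨W.sub i hyc, fun hyK => ?_⟩
      obtain ⟨i', hi'⟩ := W.cover y hyK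
      exact face_notMem W i k hσ hyc hyk i' hi'
    have h2 := lineDeriv_face W hh i k hσ hx hj
    rw [← hy] at h2
    have h3 := add_rpow_le hp (fderiv ℝ G y (ev j) - lineDeriv ℝ h y (ev j))
      (lineDeriv ℝ h y (ev j))
    rw [sub_add_cancel] at h3
    unfold dE
    refine h3.trans ?_
    gcongr
    rw [h2]
    exact le_self_add.trans (le_Hg hyU j)
  refine (lintegral_mono_ae hpt).trans ?_
  rw [lintegral_const_mul' _ _ two_rpow_ne_top, lintegral_add_right _ hHm]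
  gcongr

/-- the energy on the faces of a cube -/
theorem facesE_le' (hp : 1 ≤ p) (hU : IsOpen (Ω \ K)) {g G : V → V}
    (hgc : ContinuousOn g (Ω \ K)) (W : Boxes Ω K) {h : V → V}
    (hh : ∀ x ∈ Ω, (∀ i, ¬ ∀ l, |x l - W.c i l| < W.ρ i) → h x = g x) {e : W.ι → ℝ} (i : W.ι)
    (hG : ∀ k, ∀ σ ∈ ({1, -1} : Finset ℝ), ∀ j, j ≠ k → ∫⁻ x in cube (W.c i) (W.ρ i),
        ENNReal.ofReal (‖fderiv ℝ G (Function.update x k (W.c i k + σ * W.ρ i)) (ev j) -
          lineDeriv ℝ h (Function.update x k (W.c i k + σ * W.ρ i)) (ev j)‖ ^ p) ≤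
        ENNReal.ofReal (e i)) :
    facesE p W G i ≤ 2 ^ (p - 1) * (12 * ENNReal.ofReal (e i) + 2 *
        ∑ k, ∑ σ ∈ ({1, -1} : Finset ℝ), ∫⁻ x in cube (W.c i) (W.ρ i),
          Hg p (Ω \ K) g (Function.update x k (W.c i k + σ * W.ρ i))) := by
  unfold facesE
  have h1 : ∀ k, ∀ σ ∈ ({1, -1} : Finset ℝ), ∑ j ∈ Finset.univ.erase k,
      ∫⁻ x in cube (W.c i) (W.ρ i), dE p G j (Function.update x k (W.c i k + σ * W.ρ i)) ≤
      2 * (2 ^ (p - 1) * (ENNReal.ofReal (e i) +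
        ∫⁻ x in cube (W.c i) (W.ρ i),
          Hg p (Ω \ K) g (Function.update x k (W.c i k + σ * W.ρ i)))) := by
    intro k σ hσ
    refine (Finset.sum_le_sum fun j hj => face_le' hp hU hgc W hh i k hσ
      (Finset.ne_of_mem_erase hj) (hG k σ hσ j (Finset.ne_of_mem_erase hj))).trans ?_
    rw [Finset.sum_const, Finset.card_erase_of_mem (Finset.mem_univ k), Finset.card_univ,
      Fintype.card_fin, nsmul_eq_mul]
    norm_num
  refine (Finset.sum_le_sum fun k _ => Finset.sum_le_sum fun σ hσ => h1 k σ hσ).trans ?_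
  have hne : (1 : ℝ) ≠ -1 := by norm_num
  simp only [Finset.sum_pair hne, Fin.sum_univ_three]
  refine le_of_eq ?_
  ring

/-- the error of the derivative on the cubes -/
theorem on_part' (hp : 1 ≤ p) {j : Fin 3} (W : Boxes Ω K) {T : V → V} {F : V → Mat}
    {C B E : ℝ≥0∞} {e : W.ι → ℝ} {Φ : W.ι → ℝ≥0∞} {Hm : V → ℝ≥0∞} {t : ℝ}
    (hF : ∀ᵐ x ∂(volume : Measure V), x ∈ cU W →
      ENNReal.ofReal (‖cl (F x) (ev j)‖ ^ p) ≤ E * Hm x) (hE : E ≠ ⊤) (hHm : Measurable Hm)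
    (hH : ∫⁻ x in cU W, Hm x ≤ ENNReal.ofReal t)
    (hT : ∀ i, ∑ j, ∫⁻ x in cube (W.c i) (W.ρ i), dE p T j x ≤ C * Φ i + ENNReal.ofReal (e i))
    (hΦ : ∑' i, Φ i ≤ B * ENNReal.ofReal t)
    (he : ∑' i, ENNReal.ofReal (e i) ≤ ENNReal.ofReal t) :
    ∫⁻ x in cU W, ENNReal.ofReal (‖fderiv ℝ T x (ev j) - cl (F x) (ev j)‖ ^ p) ≤
      2 ^ (p - 1) * (C * B + 1 + E) * ENNReal.ofReal t := by
  have := W.cnt
  have e1 : ∫⁻ x in cU W, dE p T j x ≤ C * (B * ENNReal.ofReal t) + ENNReal.ofReal t := by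
    calc ∫⁻ x in cU W, dE p T j x ≤ ∑' i, ∫⁻ x in cube (W.c i) (W.ρ i), dE p T j x :=
          lintegral_iUnion_le _ _
      _ ≤ ∑' i, (C * Φ i + ENNReal.ofReal (e i)) := by
          refine ENNReal.tsum_le_tsum fun i => ?_
          refine le_trans ?_ (hT i)
          exact Finset.single_le_sum (f := fun j => ∫⁻ x in cube (W.c i) (W.ρ i), dE p T j x)
            (fun _ _ => zero_le) (Finset.mem_univ j)
      _ = C * (∑' i, Φ i) + ∑' i, ENNReal.ofReal (e i) := by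
          rw [ENNReal.tsum_add, ENNReal.tsum_mul_left]
      _ ≤ _ := by gcongr
  calc ∫⁻ x in cU W, ENNReal.ofReal (‖fderiv ℝ T x (ev j) - cl (F x) (ev j)‖ ^ p)
      ≤ ∫⁻ x in cU W, 2 ^ (p - 1) * (dE p T j x + E * Hm x) := by
        refine lintegral_mono_ae ?_
        filter_upwards [ae_restrict_of_ae hF, ae_restrict_mem (measurableSet_cU W)] with x hx hxA
        have e2 := add_rpow_le hp (fderiv ℝ T x (ev j)) (-cl (F x) (ev j))
        rw [norm_neg, ← sub_eq_add_neg] at e2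
        refine e2.trans ?_
        unfold dE
        gcongr
        exact hx hxA
    _ = 2 ^ (p - 1) * ((∫⁻ x in cU W, dE p T j x) + E * ∫⁻ x in cU W, Hm x) := by
        rw [lintegral_const_mul' _ _ two_rpow_ne_top, lintegral_add_right _ (hHm.const_mul _),
          lintegral_const_mul' _ _ hE]
    _ ≤ 2 ^ (p - 1) * ((C * (B * ENNReal.ofReal t) + ENNReal.ofReal t) +
          E * ENNReal.ofReal t) := by
        gcongr
    _ = _ := by ring

/-- the constant of the faces -/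
noncomputable def Bp' (p : ℝ) : ℝ≥0∞ := 2 ^ (p - 1) * (12 + 2)

theorem faces_sum' (W : Boxes Ω K) {G : V → V} {e : W.ι → ℝ} {Hs : W.ι → ℝ≥0∞} {t : ℝ}
    (h1 : ∀ i, facesE p W G i ≤ 2 ^ (p - 1) * (12 * ENNReal.ofReal (e i) + 2 * Hs i))
    (he : ∑' i, ENNReal.ofReal (e i) ≤ ENNReal.ofReal t) (hs : ∑' i, Hs i ≤ ENNReal.ofReal t) :
    ∑' i, facesE p W G i ≤ Bp' p * ENNReal.ofReal t := by
  calc ∑' i, facesE p W G i ≤ ∑' i, 2 ^ (p - 1) * (12 * ENNReal.ofReal (e i) + 2 * Hs i) :=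
        ENNReal.tsum_le_tsum h1
    _ = 2 ^ (p - 1) * (12 * (∑' i, ENNReal.ofReal (e i)) + 2 * ∑' i, Hs i) := by
        rw [ENNReal.tsum_mul_left, ENNReal.tsum_add, ENNReal.tsum_mul_left, ENNReal.tsum_mul_left]
    _ ≤ 2 ^ (p - 1) * (12 * ENNReal.ofReal t + 2 * ENNReal.ofReal t) := by
        gcongr
    _ = _ := by unfold Bp'; ring

/-- the constant -/
noncomputable def Ap' (p : ℝ) (C : ℝ≥0∞) (D : ℝ) (v : ℝ≥0∞) : ℝ≥0∞ :=
  (ENNReal.ofReal ((2 * D) ^ p) + ENNReal.ofReal (2 ^ p) * v) +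
    3 * (2 ^ (p - 1) * (C * Bp' p + 1 + 2 ^ (p - 1)) + 2 ^ (p - 1) * (1 + v))

theorem Bp'_ne_top : Bp' p ≠ ⊤ := by
  unfold Bp'
  exact ENNReal.mul_ne_top two_rpow_ne_top (ENNReal.add_ne_top.2 ⟨by simp, by simp⟩)

theorem Ap'_ne_top {C : ℝ≥0∞} {D : ℝ} {v : ℝ≥0∞} (hC : C ≠ ⊤) (hv : v ≠ ⊤) :
    Ap' p C D v ≠ ⊤ := by
  unfold Ap'
  refine ENNReal.add_ne_top.2 ⟨ENNReal.add_ne_top.2 ⟨ENNReal.ofReal_ne_top,
    ENNReal.mul_ne_top ENNReal.ofReal_ne_top hv⟩, ENNReal.mul_ne_top (by simp)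
    (ENNReal.add_ne_top.2 ⟨ENNReal.mul_ne_top two_rpow_ne_top (ENNReal.add_ne_top.2
      ⟨ENNReal.add_ne_top.2 ⟨ENNReal.mul_ne_top hC Bp'_ne_top, by simp⟩, two_rpow_ne_top⟩),
      ENNReal.mul_ne_top two_rpow_ne_top (ENNReal.add_ne_top.2 ⟨by simp, hv⟩)⟩)⟩

/-- off the cubes the derivative of the filling is close to the weak derivative -/
theorem fill_close' (hΩ : St.IsBoundedDomain Ω) {f g : V → V} {F : V → Mat}
    (hae : ∀ᵐ x ∂(volume : Measure V), x ∈ Ω \ K → DifferentiableAt ℝ f x ∧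
      ∀ j, cl (F x) (ev j) = fderiv ℝ f x (ev j)) {t : ℝ} (ht : 0 ≤ t)
    (hgd : ∀ x ∈ Ω \ K, ∀ᶠ y in 𝓝 x, ‖(g y - g x) - (f y - f x)‖ ≤ t * ‖y - x‖)
    (W : Boxes Ω K) (h : ConHomeo Ω Λ)
    (hh : ∀ x ∈ Ω, (∀ i, ¬ ∀ l, |x l - W.c i l| < W.ρ i) → h.toFun x = g x) (j : Fin 3) :
    ∀ᵐ x ∂(volume : Measure V), x ∈ Ω \ cU W →
      ‖fderiv ℝ h.toFun x (ev j) - cl (F x) (ev j)‖ ≤ t := by
  have hnull := _root_.P073.measure_singular_eq_zero (volume : Measure V) hΩ.1 h.conical h.cont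
  rw [measure_eq_zero_iff_ae_notMem] at hnull
  filter_upwards [hnull, hae] with x hx1 hx2 hx
  have hxU : x ∈ Ω \ K := ⟨hx.1, fun h => hx.2 (H655.oU_subset_cU W (H655.sub_oU W h))⟩
  obtain ⟨hfd, hx3⟩ := hx2 hxU
  have htop : _root_.P073.linSpace h.toFun x = ⊤ := by
    by_contra hcon
    exact hx1 ⟨hx.1, hcon⟩
  have hcd : ContDiffAt ℝ ∞ h.toFun x :=
    _root_.P073.contDiffAt_of_top (h.conical.conicalAt hΩ.1 hx.1) htop
  have hhd : DifferentiableAt ℝ h.toFun x := hcd.differentiableAt (by simp)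
  have hoff : ∀ z ∈ Ω, z ∉ cU W → h.toFun z = g z := fun z hz hz' =>
    hh z hz fun i hi => hz' (mem_iUnion.2 ⟨i, fun l => (hi l).le⟩)
  have hev : ∀ᶠ z in 𝓝 x, ‖(h.toFun z - h.toFun x) - (f z - f x)‖ ≤ t * ‖z - x‖ := by
    filter_upwards [hgd x hxU, H655.eventually_notMem_cU W hx.1 hx.2, hΩ.1.mem_nhds hx.1]
      with z hz hzU hzΩ
    rwa [hoff z hzΩ hzU, hoff x hx.1 hx.2]
  have h1 := norm_fderiv_sub_le ht hfd hhd hev
  rw [hx3 j]
  have h2 := (fderiv ℝ h.toFun x - fderiv ℝ f x).le_opNorm (ev j)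
  rw [norm_ev, mul_one] at h2
  exact h2.trans h1

/-- off `K` the weak derivative is bounded by the derivative of `g` -/
theorem F_le_Hg (hp : 1 ≤ p) (hKo : IsOpen (Ω \ K)) {f g : V → V} {F : V → Mat}
    (hgc : ContinuousOn g (Ω \ K)) (hcon : ConicalOn g (Ω \ K))
    (hae : ∀ᵐ x ∂(volume : Measure V), x ∈ Ω \ K → DifferentiableAt ℝ f x ∧
      ∀ j, cl (F x) (ev j) = fderiv ℝ f x (ev j)) {t : ℝ} (ht : 0 ≤ t) (ht1 : t ≤ 1)
    (hgd : ∀ x ∈ Ω \ K, ∀ᶠ y in 𝓝 x, ‖(g y - g x) - (f y - f x)‖ ≤ t * ‖y - x‖) (j : Fin 3) :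
    ∀ᵐ x ∂(volume : Measure V), x ∈ Ω \ K →
      ENNReal.ofReal (‖cl (F x) (ev j)‖ ^ p) ≤ 2 ^ (p - 1) * Hg p (Ω \ K) g x := by
  filter_upwards [hae, ae_diff_off hKo hgc hcon] with x hx1 hx2 hx
  obtain ⟨hfd, hx3⟩ := hx1 hx
  have hgdx := hx2 hx
  have h1 := norm_fderiv_sub_le ht hfd hgdx (hgd x hx)
  have h2 := (fderiv ℝ g x - fderiv ℝ f x).le_opNorm (ev j)
  rw [norm_ev, mul_one] at h2
  have h3 : ‖fderiv ℝ f x (ev j)‖ ≤ ‖fderiv ℝ g x (ev j)‖ + 1 := by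
    have h4 := norm_sub_le (fderiv ℝ g x (ev j)) ((fderiv ℝ g x - fderiv ℝ f x) (ev j))
    have h5 : fderiv ℝ g x (ev j) - (fderiv ℝ g x - fderiv ℝ f x) (ev j) =
        fderiv ℝ f x (ev j) := by
      rw [ContinuousLinearMap.sub_apply]; abel
    rw [h5] at h4
    linarith
  rw [hx3 j]
  refine (rpow_le_two hp (norm_nonneg _) (norm_nonneg _) h3).trans ?_
  gcongr
  rw [← hgdx.lineDeriv_eq_fderiv]
  exact le_Hg hx j

/-- one step of the approximation -/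
theorem one_step' (hp : 1 ≤ p) (hΩ : St.IsBoundedDomain Ω) (hΛ : St.IsBoundedDomain Λ) {f : V → V}
    {F : V → Mat} (hf : St.IsHomeo Ω Λ f) (hF : St.IsSobolev p Ω f F) (hK : K ⊆ Ω)
    (hKo : IsOpen (Ω \ K)) (hO : FineOff Ω Λ K f F)
    (hnull : ∀ k : Fin 3, volume ((fun x : V => x k) '' K) = 0)
    {C : ℝ≥0∞} (hC : SqueezeC p C) {D : ℝ} (hD : ∀ y ∈ Λ, ‖y‖ ≤ D) {t : ℝ} (ht : 0 < t)
    (ht1 : t ≤ 1) :
    ∃ T, St.IsDiffeo Ω Λ T ∧ err p Ω f F T ≤ Ap' p C D (volume Ω) * ENNReal.ofReal t := by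
  obtain ⟨hO1, hae, -⟩ := hO
  obtain ⟨g, hg, -, hgc, hgn, hgd⟩ := hO1 (fun _ => t) continuousOn_const (fun _ _ => ht)
  have hgcont : ContinuousOn g (Ω \ K) := by
    obtain ⟨k, -, h, -⟩ := hg
    exact h.mono sdiff_subset
  have hgcon := conicalOn_off hKo hgc
  have hHm : Measurable (Hg p (Ω \ K) g) := measurable_Hg hKo hgcont
  obtain ⟨W, hW1, hW2, hW3⟩ := H739.specBoxes Ω K (Hg p (Ω \ K) g) t hΩ.1
    (PK.isBounded_of_domain hΩ) hK hKo hnull hHm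
    (lintegral_Hg_ne_top hp hΩ hF hae ht.le ht1 hgd) ht
  obtain ⟨h, hh⟩ := H694.specFill Ω Λ K g W hΩ.1 hΛ.1 hK hKo hg hgc
  have := W.cnt
  obtain ⟨e, he, hes⟩ := exists_weights W.ι ht
  obtain ⟨G, hG, hGc, hGf, hGd⟩ := exists_smooth hp hΩ hΛ W h ht he
  obtain ⟨S, hS, hSid, hSE⟩ := hC Ω Λ K W G (fun i => ENNReal.ofReal (e i)) hΩ.1 hG
    (fun i => (ENNReal.ofReal_pos.2 (he i)).ne')
  have hT : St.IsDiffeo Ω Λ (G ∘ S) := AB.isDiffeo_comp hS hG
  refine ⟨G ∘ S, hT, ?_⟩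
  have hcm := measurableSet_cU W
  have hΩm := hΩ.1.measurableSet
  have hoff : ∀ x ∈ Ω, x ∉ cU W → h.toFun x = g x := fun x hx hx' =>
    hh x hx fun i hi => hx' (mem_iUnion.2 ⟨i, fun l => (hi l).le⟩)
  have hKc : K ⊆ cU W := (H655.sub_oU W).trans (H655.oU_subset_cU W)
  -- order zero
  have z := zero_part hp (T := G ∘ S) (f := f) hcm (D := 2 * D) ht.le ht1 hΩm
    (fun x hx => by
      have h1 := hD _ (diffeo_maps hT hx)
      have h2 := hD _ (homeo_maps hf hx)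
      have h3 := norm_sub_le ((G ∘ S) x) (f x)
      linarith)
    (fun x hx hxc => by
      have h1 := hGc x hx
      have h2 : ‖g x - f x‖ ≤ t := hgn x ⟨hx, fun h => hxc (hKc h)⟩
      have h3 : (G ∘ S) x = G x := by
        show G (S x) = G x
        rw [hSid x hxc]
      rw [hoff x hx hxc] at h1
      rw [h3]
      have h4 := norm_add_le (G x - g x) (g x - f x)
      rw [sub_add_sub_cancel] at h4
      linarith) hW1
  -- the derivatives
  have hKnull := null_of_proj hnull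
  rw [measure_eq_zero_iff_ae_notMem] at hKnull
  have d : ∀ j, ∫⁻ x in Ω, ENNReal.ofReal (‖fderiv ℝ (G ∘ S) x (ev j) - cl (F x) (ev j)‖ ^ p) ≤
      2 ^ (p - 1) * (C * Bp' p + 1 + 2 ^ (p - 1)) * ENNReal.ofReal t +
        2 ^ (p - 1) * (1 + volume Ω) * ENNReal.ofReal t := by
    intro j
    rw [← lintegral_inter_add_sdiff _ Ω hcm]
    refine add_le_add ((lintegral_mono_set inter_subset_right).trans ?_) ?_
    · refine on_part' hp W (e := e) (Φ := facesE p W G) ?_ two_rpow_ne_top hHm hW2 hSE ?_ hes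
      · filter_upwards [hKnull, F_le_Hg hp hKo hgcont hgcon hae ht.le ht1 hgd j]
          with x hx1 hx2 hx
        exact hx2 ⟨H655.cU_subset W hx, hx1⟩
      · exact faces_sum' W (fun i => facesE_le' hp hKo hgcont W hh i (hGf i)) hes hW3
    · refine off_part hp (hΩm.diff hcm) sdiff_subset (G := G) (h := h.toFun) ht.le ht1 ?_
        (fill_close' hΩ hae ht.le hgd W h hh j) (hGd j)
      intro x hx
      refine Filter.EventuallyEq.fderiv_eq ?_
      filter_upwards [H655.eventually_notMem_cU W hx.1 hx.2] with y hy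
      show G (S y) = G y
      rw [hSid y hy]
  unfold err Ap'
  refine (add_le_add z (Finset.sum_le_sum fun j _ => d j)).trans (le_of_eq ?_)
  rw [Finset.sum_const, Finset.card_univ, Fintype.card_fin, nsmul_eq_mul]
  push_cast
  ring

/-- **theorem (R)**, general form -/
theorem main_R' (hp : 1 ≤ p) (hp3 : p < 3) (hΩ : St.IsBoundedDomain Ω)
    (hΛ : St.IsBoundedDomain Λ) (hK : K ⊆ Ω) (hKo : IsOpen (Ω \ K)) {f : V → V} {F : V → Mat}
    (hf : St.IsHomeo Ω Λ f) (hF : St.IsSobolev p Ω f F) (hO : FineOff Ω Λ K f F)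
    (hnull : ∀ k : Fin 3, volume ((fun x : V => x k) '' K) = 0) :
    St.DiffeoApproximable p Ω Λ f F := by
  obtain ⟨C, hC, hsq⟩ := exists_squeeze H705.specCube3 hp hp3
  obtain ⟨D, -, hD⟩ := AB.norm_bound_of_domain hΛ
  have hv := PK.volume_ne_top_of_domain hΩ
  have hcont : ContinuousOn f Ω := by
    obtain ⟨k, -, h, -⟩ := hf
    exact h
  refine approximable_of hp hΩ hΛ hcont hF
    (b := fun k : ℕ => Ap' p C D (volume Ω) * ENNReal.ofReal (1 / ((k : ℝ) + 1))) ?_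
    (fun k => ENNReal.mul_ne_top (Ap'_ne_top hC hv) ENNReal.ofReal_ne_top)
    (fun k => one_step' hp hΩ hΛ hf hF hK hKo hO hnull hsq hD (by positivity) ?_)
  · have h1 := ENNReal.tendsto_ofReal (tendsto_one_div_add_atTop_nhds_zero_nat (𝕜 := ℝ))
    rw [ENNReal.ofReal_zero] at h1
    have h2 := ENNReal.Tendsto.const_mul (a := Ap' p C D (volume Ω)) h1
      (Or.inr (Ap'_ne_top hC hv))
    rwa [mul_zero] at h2
  · rw [div_le_one (by positivity)]
    have : (0 : ℝ) ≤ k := Nat.cast_nonneg k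
    linarith

end Vale.Agent.P073.H880
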