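import Vale.Agent.P073.St

/-!
# P073: locally finite piecewise affine homeomorphisms
-/

namespace Vale.Agent.P073.H880

open MeasureTheory Set Filter Topology Vale.Agent.P073.St

/-- `C` is a convex polytope: the convex hull of finitely many points (for instance a simplex). -/
def IsPolytope (C : Set V) : Prop := ∃ S : Finset V, C = convexHull ℝ (S : Set V)

/-- `f` is affine on `C`. -/
def IsAffineOn (C : Set V) (f : V → V) : Prop := ∃ (M : Mat) (b : V), ∀ x ∈ C, f x = ap M x + b

/-- `f` is locally finite piecewise affine on `Ω`: `Ω` is the union of a family of convex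
polytopes contained in `Ω`, which is locally finite in `Ω`, and `f` is affine on each of them. -/
def LocPA (Ω : Set V) (f : V → V) : Prop :=
  ∃ 𝒞 : Set (Set V), (∀ C ∈ 𝒞, IsPolytope C ∧ C ⊆ Ω ∧ IsAffineOn C f) ∧ Ω ⊆ ⋃₀ 𝒞 ∧
    ∀ x ∈ Ω, ∃ r > 0, {C | C ∈ 𝒞 ∧ ∃ y ∈ C, euc (y - x) < r}.Finite

/-- `f : Ω → Λ`, with weak derivative matrix `F`, is approximable in `W^{1,p}` by locally finite
piecewise affine homeomorphisms: there are homeomorphisms `g k` of `Ω` onto the same `Λ`, locally
finite piecewise affine on `Ω`, each in `W^{1,p}(Ω; ℝ³)` (with weak derivative matrix `G k`), with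
`∫_Ω |g k - f|^p + |D (g k) - D f|^p → 0`. -/
def PAApproximable (p : ℝ) (Ω Λ : Set V) (f : V → V) (F : V → Mat) : Prop :=
  ∃ (g : ℕ → V → V) (G : ℕ → V → Mat),
    (∀ k, IsHomeo Ω Λ (g k) ∧ LocPA Ω (g k) ∧ IsSobolev p Ω (g k) (G k)) ∧
    Tendsto (fun k => int Ω (fun x => euc (g k x - f x) ^ p + frob (G k x - F x) ^ p))
      atTop (𝓝 0)

end Vale.Agent.P073.H880
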