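import Vale.Agent.P073.H880.Kuhn4
import Vale.Agent.P073.H880.PL
import Vale.Agent.P073.H880.Rows2

/-!
# P073: fine piecewise affine approximation of diffeomorphisms of class `C¹` off a closed set
-/

namespace Vale.Agent.P073.H880

open MeasureTheory Set Filter Topology Metric
open Vale.Agent.P073.St (V Mat euc)
open scoped ENNReal NNReal

/-- the requirement on the mesh `t` at the point `x` -/
def Pm (f : V → V) (ε d : V → ℝ) (x : V) (t : ℝ) : Prop :=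
  ∃ ω c : ℝ, 0 ≤ ω ∧ 0 < c ∧ 31 * ω ≤ ε x ∧ (∀ v, (30 * ω + c) * ‖v‖ ≤ ‖fderiv ℝ f x v‖) ∧
    2 * ω * t ≤ min (ε x) (d x) ∧
    ∀ v, ‖v - x‖ ≤ 10 / 9 * t → ‖f v - (f x + fderiv ℝ f x (v - x))‖ ≤ ω * ‖v - x‖

theorem Pm.down {f : V → V} {ε d : V → ℝ} {x : V} {t t' : ℝ} (h : Pm f ε d x t) (ht : t' ≤ t) :
    Pm f ε d x t' := by
  obtain ⟨ω, c, h1, h2, h3, h4, h5, h6⟩ := h
  refine ⟨ω, c, h1, h2, h3, h4, le_trans (by gcongr) h5, fun v hv => h6 v (hv.trans (by gcongr))⟩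

/-- an injective linear map is bounded below -/
theorem exists_lower {L : V →L[ℝ] V} (hL : ∀ v, L v = 0 → v = 0) :
    ∃ m > 0, ∀ v, m * ‖v‖ ≤ ‖L v‖ := by
  have hinj : Function.Injective L := (injective_iff_map_eq_zero L).2 hL
  obtain ⟨K, hK, hanti⟩ := (L : V →ₗ[ℝ] V).exists_antilipschitzWith (LinearMap.ker_eq_bot.2 hinj)
  refine ⟨(K : ℝ)⁻¹, by positivity, fun v => ?_⟩
  have := hanti.le_mul_dist v 0
  rw [dist_zero_right, map_zero, dist_zero_right] at this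
  rw [inv_mul_le_iff₀ (by positivity)]
  exact this

/-- strict differentiability on a ball -/
theorem exists_strict {U : Set V} (hU : IsOpen U) {f : V → V} (hf : ContDiffOn ℝ 1 f U) {a : V}
    (ha : a ∈ U) {ω : ℝ} (hω0 : 0 < ω) :
    ∃ ρ > 0, ∀ u ∈ ball a ρ, ∀ v ∈ ball a ρ,
      ‖f u - f v - fderiv ℝ f a (u - v)‖ ≤ ω * ‖u - v‖ := by
  have hcd : ContDiffAt ℝ 1 f a := hf.contDiffAt (hU.mem_nhds ha)
  have hs : HasStrictFDerivAt f (fderiv ℝ f a) a := hcd.hasStrictFDerivAt one_ne_zero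
  have h1 := hs.isLittleO.def hω0
  rw [Metric.eventually_nhds_iff] at h1
  obtain ⟨ρ, hρ, hb⟩ := h1
  refine ⟨ρ, hρ, fun u hu v hv => ?_⟩
  exact hb (y := (u, v)) (by rw [Prod.dist_eq]; exact max_lt hu hv)

/-- the requirement can be met locally uniformly -/
theorem exists_Pm {U : Set V} (hU : IsOpen U) {f : V → V} {ε d : V → ℝ}
    (hf : ContDiffOn ℝ 1 f U) (hinj : ∀ x ∈ U, ∀ v, fderiv ℝ f x v = 0 → v = 0)
    (hε : ContinuousOn ε U) (hε0 : ∀ x ∈ U, 0 < ε x) (hd : ContinuousOn d U)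
    (hd0 : ∀ x ∈ U, 0 < d x) {a : V} (ha : a ∈ U) :
    ∃ c > 0, c ≤ 1 / 10 ∧ ∀ᶠ x in 𝓝 a, Pm f ε d x c := by
  obtain ⟨m, hm, hL⟩ := exists_lower (hinj a ha)
  have hεa := hε0 a ha
  have hda := hd0 a ha
  obtain ⟨ω, hω0, hωm, hωε⟩ : ∃ ω : ℝ, 0 < ω ∧ ω ≤ m / 80 ∧ ω ≤ ε a / 80 :=
    ⟨min (m / 80) (ε a / 80), lt_min (by positivity) (by positivity), min_le_left _ _,
      min_le_right _ _⟩
  have hUa := hU.mem_nhds ha
  have hfc : ContinuousAt (fderiv ℝ f) a :=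
    (hf.continuousOn_fderiv_of_isOpen hU (le_refl _)).continuousAt hUa
  obtain ⟨ρ, hρ, h1⟩ := exists_strict hU hf ha (half_pos hω0)
  have h2 : ∀ᶠ x in 𝓝 a, ‖fderiv ℝ f x - fderiv ℝ f a‖ < min (ω / 2) (m / 4) := by
    have hc : ContinuousAt (fun x => ‖fderiv ℝ f x - fderiv ℝ f a‖) a :=
      (hfc.sub continuousAt_const).norm
    refine hc.eventually_lt_const ?_
    simp only [sub_self, norm_zero]
    exact lt_min (by positivity) (by positivity)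
  have h3 : ∀ᶠ x in 𝓝 a, ε a / 2 < ε x :=
    (hε.continuousAt hUa).eventually (lt_mem_nhds (by linarith))
  have h4 : ∀ᶠ x in 𝓝 a, d a / 2 < d x :=
    (hd.continuousAt hUa).eventually (lt_mem_nhds (by linarith))
  have hmin : 0 < min (ε a / 2) (d a / 2) := lt_min (by positivity) (by positivity)
  obtain ⟨c, hc0, hc1, hc2, hc3⟩ : ∃ c : ℝ, 0 < c ∧ c ≤ 1 / 10 ∧ c ≤ ρ / 4 ∧
      c ≤ min (ε a / 2) (d a / 2) / (2 * ω) :=
    ⟨min (min (1 / 10) (ρ / 4)) (min (ε a / 2) (d a / 2) / (2 * ω)),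
      lt_min (lt_min (by norm_num) (by positivity)) (by positivity),
      (min_le_left _ _).trans (min_le_left _ _), (min_le_left _ _).trans (min_le_right _ _),
      min_le_right _ _⟩
  refine ⟨c, hc0, hc1, ?_⟩
  filter_upwards [h2, h3, h4, ball_mem_nhds a (half_pos hρ)] with x hx2 hx3 hx4 hx5
  have hx2a : ‖fderiv ℝ f x - fderiv ℝ f a‖ ≤ ω / 2 := hx2.le.trans (min_le_left _ _)
  have hx2b : ‖fderiv ℝ f x - fderiv ℝ f a‖ ≤ m / 4 := hx2.le.trans (min_le_right _ _)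
  refine ⟨ω, m / 4, hω0.le, by positivity, by linarith, fun v => ?_, ?_, fun v hv => ?_⟩
  · have e1 : ‖fderiv ℝ f a v‖ ≤ ‖fderiv ℝ f x v‖ + ‖(fderiv ℝ f x - fderiv ℝ f a) v‖ := by
      have : fderiv ℝ f a v = fderiv ℝ f x v - (fderiv ℝ f x - fderiv ℝ f a) v := by
        simp
      rw [this]
      exact norm_sub_le _ _
    have e2 := (fderiv ℝ f x - fderiv ℝ f a).le_opNorm v
    have e3 : ‖fderiv ℝ f x - fderiv ℝ f a‖ * ‖v‖ ≤ m / 4 * ‖v‖ := by gcongr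
    have e4 := hL v
    have e5 : (30 * ω + m / 4) * ‖v‖ ≤ (m - m / 4) * ‖v‖ := by
      gcongr
      linarith
    linarith
  · have e1 : 2 * ω * c ≤ min (ε a / 2) (d a / 2) := by
      rw [le_div_iff₀ (by positivity)] at hc3
      linarith
    refine e1.trans (le_min ?_ ?_)
    · exact (min_le_left _ _).trans hx3.le
    · exact (min_le_right _ _).trans hx4.le
  · have hxa : ‖x - a‖ < ρ / 2 := by rw [← dist_eq_norm]; exact hx5
    have hva : v ∈ ball a ρ := by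
      rw [mem_ball, dist_eq_norm]
      have := norm_add_le (v - x) (x - a)
      rw [sub_add_sub_cancel] at this
      linarith
    have e1 := h1 v hva x (by rw [mem_ball, dist_eq_norm]; linarith)
    have e2 : f v - (f x + fderiv ℝ f x (v - x)) =
        (f v - f x - fderiv ℝ f a (v - x)) - (fderiv ℝ f x - fderiv ℝ f a) (v - x) := by
      rw [sub_apply]
      abel
    rw [e2]
    refine (norm_sub_le _ _).trans ?_
    have e3 := (fderiv ℝ f x - fderiv ℝ f a).le_opNorm (v - x)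
    have e4 : ‖fderiv ℝ f x - fderiv ℝ f a‖ * ‖v - x‖ ≤ ω / 2 * ‖v - x‖ := by gcongr
    linarith

/-- the mesh function -/
theorem exists_mesh {U : Set V} (hU : IsOpen U) {f : V → V} {ε d : V → ℝ}
    (hf : ContDiffOn ℝ 1 f U) (hinj : ∀ x ∈ U, ∀ v, fderiv ℝ f x v = 0 → v = 0)
    (hε : ContinuousOn ε U) (hε0 : ∀ x ∈ U, 0 < ε x) (hd : ContinuousOn d U)
    (hd0 : ∀ x ∈ U, 0 < d x) :
    ∃ η : V → ℝ, Slow η ∧ (∀ x, η x ≤ 1) ∧ (∀ x, x ∈ U ↔ 0 < η x) ∧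
      ∀ x ∈ U, Pm f ε d x (η x) := by
  set δ : V → ℝ := fun x => sSup {t : ℝ | t ≤ 1 / 10 ∧ Pm f ε d x t} with hδ
  have hbdd : ∀ x, BddAbove {t : ℝ | t ≤ 1 / 10 ∧ Pm f ε d x t} := fun x => ⟨1 / 10, fun t ht => ht.1⟩
  have hloc : ∀ y ∈ U, ∃ c > 0, ∀ᶠ z in 𝓝 y, c ≤ δ z := by
    intro y hy
    obtain ⟨c, hc0, hc1, hc⟩ := exists_Pm hU hf hinj hε hε0 hd hd0 hy
    refine ⟨c, hc0, ?_⟩
    filter_upwards [hc] with z hz
    exact le_csSup (hbdd z) ⟨hc1, hz⟩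
  have hδ1 : ∀ y ∈ U, δ y ≤ 1 / 10 := by
    intro y hy
    obtain ⟨c, hc0, hc1, hc⟩ := exists_Pm hU hf hinj hε hε0 hd hd0 hy
    exact csSup_le ⟨c, hc1, hc.self_of_nhds⟩ fun t ht => ht.1
  obtain ⟨κ, hκs, hκ, hκ0⟩ := exists_kappa_of_local hU hloc
  have hnn : ∀ x, 0 ≤ κ x := by
    intro x
    by_cases hx : x ∈ U
    · exact (hκ x hx).1.le
    · rw [hκ0 x hx]
  have hder : ∀ x, ‖fderiv ℝ κ x‖ ≤ 1 / 10 := by
    intro x
    by_cases hx : x ∈ U
    · exact ((hκ x hx).2.2.le).trans (hδ1 x hx)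
    · have hmin : IsLocalMin κ x := Filter.Eventually.of_forall fun y => by
        rw [hκ0 x hx]; exact hnn y
      rw [hmin.fderiv_eq_zero, norm_zero]
      norm_num
  refine ⟨κ, fun x y => ?_, fun x => ?_, fun x => ⟨fun hx => (hκ x hx).1, fun h => ?_⟩, ?_⟩
  · have := Convex.norm_image_sub_le_of_norm_fderiv_le (𝕜 := ℝ) (f := κ) (s := univ) (C := 1 / 10)
      (fun z _ => hκs.differentiable (by simp) z) (fun z _ => hder z) convex_univ (mem_univ y)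
      (mem_univ x)
    rwa [Real.norm_eq_abs] at this
  · by_cases hx : x ∈ U
    · linarith [(hκ x hx).2.1, hδ1 x hx]
    · rw [hκ0 x hx]; norm_num
  · by_contra hx
    rw [hκ0 x hx] at h
    exact lt_irrefl _ h
  · intro x hx
    obtain ⟨t, ht, hlt⟩ := exists_lt_of_lt_csSup (by
      obtain ⟨c, hc0, hc1, hc⟩ := exists_Pm hU hf hinj hε hε0 hd hd0 hx
      exact ⟨c, hc1, hc.self_of_nhds⟩) (hκ x hx).2.1
    exact ht.2.down hlt.le

end Vale.Agent.P073.H880
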