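import Vale.Agent.P073.St
import Mathlib.MeasureTheory.Integral.IntervalIntegral.Periodic

/-!
# P073: the Kuhn interpolation of a function on the lattice `h ℤ³`, as an average over roundings

`kI h φ x = ∫_0^1 φ (h ⌊x / h + s⌋) ds`.
-/

namespace Vale.Agent.P073.H880

open MeasureTheory Set Filter Topology Metric intervalIntegral
open Vale.Agent.P073.St (V Mat euc)

/-! ### the scalar integrals -/

theorem measurable_fl (a : ℝ) : Measurable fun s : ℝ => (⌊a + s⌋ : ℝ) :=
  (measurable_from_top (f := fun z : ℤ => (z : ℝ))).comp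
    (Int.measurable_floor.comp (measurable_const_add a))

theorem fl_integrable (a : ℝ) : IntervalIntegrable (fun s : ℝ => (⌊a + s⌋ : ℝ)) volume 0 1 := by
  rw [intervalIntegrable_iff]
  refine Measure.integrableOn_of_bounded (M := |a| + 2) (by simp) (measurable_fl a).aestronglyMeasurable ?_
  filter_upwards [ae_restrict_mem measurableSet_uIoc] with s hs
  rw [uIoc_of_le zero_le_one] at hs
  rw [Real.norm_eq_abs, abs_le]
  have h1 := Int.floor_le (a + s)
  have h2 := Int.lt_floor_add_one (a + s)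
  have h3 := neg_abs_le a
  have h4 := le_abs_self a
  constructor <;> linarith [hs.1, hs.2]

theorem integral_fl (a : ℝ) : ∫ s in (0:ℝ)..1, (⌊a + s⌋ : ℝ) = a := by
  have hper : Function.Periodic (Int.fract : ℝ → ℝ) 1 := Int.fract_periodic ℝ
  have h1 : ∫ s in (0:ℝ)..1, Int.fract (a + s) = 1 / 2 := by
    have e1 : ∫ s in (0:ℝ)..1, Int.fract (a + s) = ∫ s in a..a + 1, Int.fract s := by
      rw [intervalIntegral.integral_comp_add_left (fun s => Int.fract s) a, add_zero]
    have e2 : ∫ s in a..a + 1, Int.fract s = ∫ s in (0:ℝ)..0 + 1, Int.fract s :=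
      Function.Periodic.intervalIntegral_add_eq hper a 0
    have e3 : ∫ s in (0:ℝ)..0 + 1, Int.fract s = ∫ s in (0:ℝ)..1, s := by
      rw [zero_add]
      refine intervalIntegral.integral_congr_ae ?_
      have hne : ∀ᵐ s : ℝ, s ≠ 1 := by
        rw [ae_iff]; simp
      filter_upwards [hne] with s hs1 hs
      rw [uIoc_of_le zero_le_one] at hs
      exact Int.fract_eq_self.2 ⟨hs.1.le, lt_of_le_of_ne hs.2 hs1⟩
    rw [e1, e2, e3, integral_id]
    norm_num
  have h2 : ∀ s : ℝ, (⌊a + s⌋ : ℝ) = (a + s) - Int.fract (a + s) := fun s => by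
    rw [Int.self_sub_fract]
  have h3 : ∫ s in (0:ℝ)..1, (a + s) = a + 1 / 2 := by
    rw [intervalIntegral.integral_add (by simp) (by simp), intervalIntegral.integral_const,
      integral_id]
    norm_num
  have h4 : IntervalIntegrable (fun s => Int.fract (a + s)) volume 0 1 := by
    have e : (fun s : ℝ => Int.fract (a + s)) = fun s => (a + s) - (⌊a + s⌋ : ℝ) := by
      funext s; rw [Int.self_sub_floor]
    rw [e]
    refine IntervalIntegrable.sub ?_ (fl_integrable a)
    exact (by fun_prop : Continuous fun s : ℝ => a + s).intervalIntegrable _ _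
  simp_rw [h2]
  rw [intervalIntegral.integral_sub
    ((by fun_prop : Continuous fun s : ℝ => a + s).intervalIntegrable _ _) h4, h1, h3]
  ring

theorem integral_abs_fl (a b : ℝ) :
    ∫ s in (0:ℝ)..1, |(⌊a + s⌋ : ℝ) - ⌊b + s⌋| = |a - b| := by
  wlog hab : a ≤ b generalizing a b
  · have := this b a (le_of_not_ge hab)
    rw [abs_sub_comm a b, ← this]
    refine intervalIntegral.integral_congr fun s _ => ?_
    exact abs_sub_comm _ _
  have h1 : ∀ s : ℝ, |(⌊a + s⌋ : ℝ) - ⌊b + s⌋| = (⌊b + s⌋ : ℝ) - ⌊a + s⌋ := by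
    intro s
    rw [abs_sub_comm, abs_of_nonneg]
    have : ⌊a + s⌋ ≤ ⌊b + s⌋ := Int.floor_le_floor (by linarith)
    have : (⌊a + s⌋ : ℝ) ≤ ⌊b + s⌋ := by exact_mod_cast this
    linarith
  simp_rw [h1]
  rw [intervalIntegral.integral_sub (fl_integrable b) (fl_integrable a), integral_fl, integral_fl,
    abs_sub_comm, abs_of_nonneg (by linarith)]

/-! ### rounding and interpolation -/

/-- rounding with shift `s` -/
noncomputable def rd (h : ℝ) (x : V) (s : ℝ) : V := fun i => h * (⌊x i / h + s⌋ : ℝ)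

/-- the interpolation -/
noncomputable def kI (h : ℝ) (φ : V → V) (x : V) : V := ∫ s in (0:ℝ)..1, φ (rd h x s)

theorem rd_near {h : ℝ} (hh : 0 < h) (x : V) {s : ℝ} (hs : s ∈ Icc (0:ℝ) 1) :
    ‖rd h x s - x‖ ≤ h := by
  rw [pi_norm_le_iff_of_nonneg hh.le]
  intro i
  have h1 := Int.floor_le (x i / h + s)
  have h2 := Int.lt_floor_add_one (x i / h + s)
  have h3 : h * (x i / h) = x i := by field_simp
  rw [Pi.sub_apply, Real.norm_eq_abs, abs_le]
  unfold rd
  constructor
  · nlinarith [hs.1, hs.2]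
  · nlinarith [hs.1, hs.2]

theorem measurable_comp_rd (h : ℝ) (φ : V → V) (x : V) : Measurable fun s => φ (rd h x s) := by
  have h1 : Measurable fun s : ℝ => (fun i : Fin 3 => ⌊x i / h + s⌋ : Fin 3 → ℤ) := by
    refine measurable_pi_iff.2 fun i => ?_
    exact Int.measurable_floor.comp (measurable_const_add _)
  have h2 : Measurable fun z : Fin 3 → ℤ => φ (fun i => h * (z i : ℝ)) := Measurable.of_discrete
  exact h2.comp h1

theorem finite_rd (h : ℝ) (x : V) : ((fun s => rd h x s) '' Icc (0:ℝ) 1).Finite := by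
  have h1 : ((fun s : ℝ => (fun i : Fin 3 => ⌊x i / h + s⌋ : Fin 3 → ℤ)) '' Icc (0:ℝ) 1).Finite := by
    refine (Set.Finite.pi' fun i : Fin 3 => Set.finite_Icc ⌊x i / h⌋ (⌊x i / h⌋ + 1)).subset ?_
    rintro _ ⟨s, hs, rfl⟩
    intro i
    refine ⟨Int.floor_le_floor (by linarith [hs.1]), ?_⟩
    show ⌊x i / h + s⌋ ≤ ⌊x i / h⌋ + 1
    rw [← Int.floor_add_one]
    exact Int.floor_le_floor (by linarith [hs.2])
  refine (h1.image fun z : Fin 3 → ℤ => (fun i => h * (z i : ℝ) : V)).subset ?_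
  rintro _ ⟨s, hs, rfl⟩
  exact ⟨_, ⟨s, hs, rfl⟩, rfl⟩

theorem exists_bound (h : ℝ) (φ : V → V) (x : V) : ∃ B, ∀ s ∈ Icc (0:ℝ) 1, ‖φ (rd h x s)‖ ≤ B := by
  obtain ⟨B, hB⟩ := ((finite_rd h x).image fun v => ‖φ v‖).bddAbove
  exact ⟨B, fun s hs => hB ⟨_, ⟨s, hs, rfl⟩, rfl⟩⟩

theorem kI_integrable' (h : ℝ) (φ : V → V) (x : V) {θ : ℝ → ℝ} (hθ : Measurable θ)
    (hm : ∀ s ∈ Icc (0:ℝ) 1, θ s ∈ Icc (0:ℝ) 1) :
    IntervalIntegrable (fun s => φ (rd h x (θ s))) volume 0 1 := by
  obtain ⟨B, hB⟩ := exists_bound h φ x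
  rw [intervalIntegrable_iff]
  refine Measure.integrableOn_of_bounded (M := B) (by simp)
    ((measurable_comp_rd h φ x).comp hθ).aestronglyMeasurable ?_
  filter_upwards [ae_restrict_mem measurableSet_uIoc] with s hs
  rw [uIoc_of_le zero_le_one] at hs
  exact hB _ (hm s ⟨hs.1.le, hs.2⟩)

theorem kI_integrable (h : ℝ) (φ : V → V) (x : V) :
    IntervalIntegrable (fun s => φ (rd h x s)) volume 0 1 :=
  kI_integrable' h φ x measurable_id fun _ hs => hs

/-- **affine maps are reproduced** -/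
theorem kI_affine {h : ℝ} (hh : 0 < h) (M : V →L[ℝ] V) (b : V) (x : V) :
    kI h (fun v => M v + b) x = M x + b := by
  have h1 : ∫ s in (0:ℝ)..1, rd h x s = x := by
    funext i
    have hint := kI_integrable h (fun v => v) x
    have e1 : (∫ s in (0:ℝ)..1, rd h x s) i = ∫ s in (0:ℝ)..1, rd h x s i := by
      have := (ContinuousLinearMap.proj (R := ℝ) (φ := fun _ : Fin 3 => ℝ) i).intervalIntegral_comp_comm
        hint
      exact this.symm
    rw [e1]
    simp only [rd]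
    rw [intervalIntegral.integral_const_mul, integral_fl]
    field_simp
  unfold kI
  have h2 : IntervalIntegrable (fun s => M (rd h x s)) volume 0 1 :=
    kI_integrable h (fun v => M v) x
  rw [intervalIntegral.integral_add h2 (by simp), intervalIntegral.integral_const,
    M.intervalIntegral_comp_comm (kI_integrable h (fun v => v) x), h1]
  simp

theorem kI_sub (h : ℝ) (φ ψ : V → V) (x : V) :
    kI h (fun v => φ v - ψ v) x = kI h φ x - kI h ψ x :=
  intervalIntegral.integral_sub (kI_integrable h φ x) (kI_integrable h ψ x)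

theorem kI_sub_affine {h : ℝ} (hh : 0 < h) (φ : V → V) (M : V →L[ℝ] V) (b : V) (x : V) :
    kI h φ x - (M x + b) = kI h (fun v => φ v - (M v + b)) x := by
  rw [kI_sub, kI_affine hh]

theorem kI_norm_le {h : ℝ} {φ : V → V} {x : V} {B : ℝ}
    (hB : ∀ s ∈ Icc (0:ℝ) 1, ‖φ (rd h x s)‖ ≤ B) : ‖kI h φ x‖ ≤ B := by
  have := intervalIntegral.norm_integral_le_of_norm_le_const (a := (0:ℝ)) (b := 1)
    (f := fun s => φ (rd h x s)) (C := B) fun s hs => by
      rw [uIoc_of_le zero_le_one] at hs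
      exact hB s ⟨hs.1.le, hs.2⟩
  simpa [kI] using this

theorem kI_congr {h : ℝ} {φ ψ : V → V} {x : V}
    (hφ : ∀ s ∈ Ico (0:ℝ) 1, φ (rd h x s) = ψ (rd h x s)) : kI h φ x = kI h ψ x := by
  refine intervalIntegral.integral_congr_ae ?_
  have hne : ∀ᵐ s : ℝ, s ≠ 1 := by
    rw [ae_iff]; simp
  filter_upwards [hne] with s hs1 hs
  rw [uIoc_of_le zero_le_one] at hs
  exact hφ s ⟨hs.1.le, lt_of_le_of_ne hs.2 hs1⟩

/-- **the Lipschitz bound of the interpolation** -/
theorem kI_lip {h : ℝ} (hh : 0 < h) {φ : V → V} {x y : V} {B : ℝ}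
    (hx : ∀ s ∈ Icc (0:ℝ) 1, ‖φ (rd h x s)‖ ≤ B) (hy : ∀ s ∈ Icc (0:ℝ) 1, ‖φ (rd h y s)‖ ≤ B) :
    ‖kI h φ x - kI h φ y‖ ≤ 6 * B / h * ‖x - y‖ := by
  have hB : 0 ≤ B := (norm_nonneg _).trans (hx 0 ⟨le_refl _, zero_le_one⟩)
  unfold kI
  rw [← intervalIntegral.integral_sub (kI_integrable h φ x) (kI_integrable h φ y)]
  have hint : ∀ i : Fin 3, IntervalIntegrable
      (fun s : ℝ => |(⌊x i / h + s⌋ : ℝ) - ⌊y i / h + s⌋|) volume 0 1 := fun i =>
    ((fl_integrable _).sub (fl_integrable _)).abs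
  have hpt : ∀ s ∈ Icc (0:ℝ) 1, ‖φ (rd h x s) - φ (rd h y s)‖ ≤
      2 * B * ∑ i, |(⌊x i / h + s⌋ : ℝ) - ⌊y i / h + s⌋| := by
    intro s hs
    by_cases heq : ∀ i, ⌊x i / h + s⌋ = ⌊y i / h + s⌋
    · have : rd h x s = rd h y s := by
        funext i
        simp only [rd, heq i]
      rw [this, sub_self, norm_zero]
      positivity
    · push Not at heq
      obtain ⟨i, hi⟩ := heq
      have h1 : (1 : ℝ) ≤ |(⌊x i / h + s⌋ : ℝ) - ⌊y i / h + s⌋| := by
        have : (1 : ℤ) ≤ |⌊x i / h + s⌋ - ⌊y i / h + s⌋| :=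
          Int.one_le_abs (sub_ne_zero.2 hi)
        exact_mod_cast this
      have h2 : |(⌊x i / h + s⌋ : ℝ) - ⌊y i / h + s⌋| ≤
          ∑ i, |(⌊x i / h + s⌋ : ℝ) - ⌊y i / h + s⌋| :=
        Finset.single_le_sum (f := fun i => |(⌊x i / h + s⌋ : ℝ) - ⌊y i / h + s⌋|)
          (fun _ _ => abs_nonneg _) (Finset.mem_univ i)
      calc ‖φ (rd h x s) - φ (rd h y s)‖ ≤ B + B :=
            (norm_sub_le _ _).trans (add_le_add (hx s hs) (hy s hs))
        _ = 2 * B * 1 := by ring
        _ ≤ _ := by gcongr; exact h1.trans h2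
  have h3 : ‖∫ s in (0:ℝ)..1, (φ (rd h x s) - φ (rd h y s))‖ ≤
      ∫ s in (0:ℝ)..1, 2 * B * ∑ i, |(⌊x i / h + s⌋ : ℝ) - ⌊y i / h + s⌋| := by
    refine intervalIntegral.norm_integral_le_of_norm_le zero_le_one ?_ ?_
    · filter_upwards with s hs using hpt s ⟨hs.1.le, hs.2⟩
    · refine IntervalIntegrable.const_mul ?_ _
      have := IntervalIntegrable.sum Finset.univ (f := fun (i : Fin 3) (s : ℝ) =>
        |(⌊x i / h + s⌋ : ℝ) - ⌊y i / h + s⌋|) fun i _ => hint i
      simpa only [Finset.sum_fn] using this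
  refine h3.trans ?_
  rw [intervalIntegral.integral_const_mul, intervalIntegral.integral_finsetSum fun i _ => hint i]
  simp_rw [integral_abs_fl]
  have h4 : ∀ i : Fin 3, |x i / h - y i / h| ≤ ‖x - y‖ / h := by
    intro i
    rw [← sub_div, abs_div, abs_of_pos hh]
    gcongr
    exact norm_le_pi_norm (x - y) i
  have h5 : ∑ i : Fin 3, |x i / h - y i / h| ≤ 3 * (‖x - y‖ / h) := by
    calc ∑ i : Fin 3, |x i / h - y i / h| ≤ ∑ _i : Fin 3, ‖x - y‖ / h :=
          Finset.sum_le_sum fun i _ => h4 i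
      _ = 3 * (‖x - y‖ / h) := by simp
  calc 2 * B * ∑ i : Fin 3, |x i / h - y i / h| ≤ 2 * B * (3 * (‖x - y‖ / h)) := by gcongr
    _ = 6 * B / h * ‖x - y‖ := by ring

/-! ### refinement -/

theorem floor_half (y : ℝ) : ⌊((⌊y⌋ : ℤ) : ℝ) / 2⌋ = ⌊y / 2⌋ := by
  have h1 := Int.floor_le y
  have h2 := Int.lt_floor_add_one y
  apply le_antisymm
  · exact Int.floor_le_floor (by linarith)
  · rw [Int.le_floor]
    have h3 := Int.floor_le (y / 2)
    have h4 : 2 * ⌊y / 2⌋ ≤ ⌊y⌋ := by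
      rw [Int.le_floor]
      push_cast
      linarith
    have h5 : (2 : ℝ) * ⌊y / 2⌋ ≤ ⌊y⌋ := by exact_mod_cast h4
    linarith

theorem floor_half_add (m : ℤ) {s : ℝ} (hs0 : 0 ≤ s) (hs : s < 1 / 2) :
    ⌊(m : ℝ) / 2 + s⌋ = ⌊(m : ℝ) / 2⌋ := by
  have h1 : ((2 * m : ℤ) : ℝ) / 2 = m := by push_cast; ring
  have h2 : ⌊((m : ℝ) + 2 * s)⌋ = m := by
    rw [Int.floor_eq_iff]
    constructor <;> linarith
  have h3 := floor_half ((m : ℝ) + 2 * s)
  rw [h2] at h3
  rw [h3]
  congr 1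
  ring

theorem floor_half_add' (m : ℤ) {s : ℝ} (hs0 : 1 / 2 ≤ s) (hs : s < 1) :
    ⌊(m : ℝ) / 2 + s⌋ = ⌊((m + 1 : ℤ) : ℝ) / 2⌋ := by
  rw [← floor_half_add (m + 1) (s := s - 1 / 2) (by linarith) (by linarith)]
  congr 1
  push_cast
  ring

/-- interpolation at a point of the lattice `(h/2) ℤ³` -/
theorem kI_half_lattice {h : ℝ} (hh : 0 < h) (φ : V → V) (m : Fin 3 → ℤ) :
    kI h φ (fun i => h / 2 * (m i : ℝ)) =
      (1 / 2 : ℝ) • φ (fun i => h * (⌊(m i : ℝ) / 2⌋ : ℝ)) +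
      (1 / 2 : ℝ) • φ (fun i => h * (⌊((m i + 1 : ℤ) : ℝ) / 2⌋ : ℝ)) := by
  have hdiv : ∀ i, h / 2 * (m i : ℝ) / h = (m i : ℝ) / 2 := fun i => by field_simp
  unfold kI
  have hint := kI_integrable h φ (fun i => h / 2 * (m i : ℝ))
  have hi1 : IntervalIntegrable (fun s => φ (rd h (fun i => h / 2 * (m i : ℝ)) s)) volume 0
      (1 / 2) := hint.mono_set (by
        rw [uIcc_of_le (by norm_num), uIcc_of_le zero_le_one]
        exact Icc_subset_Icc_right (by norm_num))
  have hi2 : IntervalIntegrable (fun s => φ (rd h (fun i => h / 2 * (m i : ℝ)) s)) volume (1 / 2)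
      1 := hint.mono_set (by
        rw [uIcc_of_le (by norm_num), uIcc_of_le zero_le_one]
        exact Icc_subset_Icc_left (by norm_num))
  rw [← intervalIntegral.integral_add_adjacent_intervals hi1 hi2]
  have hne : ∀ a : ℝ, ∀ᵐ s : ℝ, s ≠ a := fun a => by
    rw [ae_iff]; simp
  congr 1
  · rw [intervalIntegral.integral_congr_ae (g := fun _ => φ (fun i => h * (⌊(m i : ℝ) / 2⌋ : ℝ)))]
    · rw [intervalIntegral.integral_const]; norm_num
    · filter_upwards [hne (1 / 2)] with s hs1 hs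
      rw [uIoc_of_le (by norm_num)] at hs
      congr 1
      funext i
      simp only [rd, hdiv]
      rw [floor_half_add (m i) hs.1.le (lt_of_le_of_ne hs.2 hs1)]
  · rw [intervalIntegral.integral_congr_ae
      (g := fun _ => φ (fun i => h * (⌊((m i + 1 : ℤ) : ℝ) / 2⌋ : ℝ)))]
    · rw [intervalIntegral.integral_const]; norm_num
    · filter_upwards [hne 1] with s hs1 hs
      rw [uIoc_of_le (by norm_num)] at hs
      congr 1
      funext i
      simp only [rd, hdiv]
      rw [floor_half_add' (m i) hs.1.le (lt_of_le_of_ne hs.2 hs1)]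

/-- **the interpolation on the finer lattice of the interpolation is the interpolation** -/
theorem kI_refine {h : ℝ} (hh : 0 < h) (φ : V → V) (x : V) :
    kI (h / 2) (kI h φ) x = kI h φ x := by
  have hX : ∀ i, x i / (h / 2) = 2 * (x i / h) := fun i => by field_simp
  have e1 : ∀ s, kI h φ (rd (h / 2) x s) =
      (1 / 2 : ℝ) • φ (rd h x (s / 2)) + (1 / 2 : ℝ) • φ (rd h x ((s + 1) / 2)) := by
    intro s
    have := kI_half_lattice hh φ (fun i => ⌊x i / (h / 2) + s⌋)
    have h0 : rd (h / 2) x s = fun i => h / 2 * ((⌊x i / (h / 2) + s⌋ : ℤ) : ℝ) := rfl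
    rw [h0, this]
    congr 2
    · congr 1
      funext i
      simp only [rd]
      rw [floor_half, hX]
      congr 3
      ring
    · congr 1
      funext i
      simp only [rd]
      rw [← Int.floor_add_one, floor_half, hX]
      congr 3
      ring
  have h1 : kI (h / 2) (kI h φ) x = ∫ s in (0:ℝ)..1,
      ((1 / 2 : ℝ) • φ (rd h x (s / 2)) + (1 / 2 : ℝ) • φ (rd h x ((s + 1) / 2))) := by
    unfold kI
    refine intervalIntegral.integral_congr fun s _ => ?_
    exact e1 s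
  have hint := kI_integrable h φ x
  have hi1 : IntervalIntegrable (fun s => φ (rd h x s)) volume 0 (1 / 2) := hint.mono_set (by
        rw [uIcc_of_le (by norm_num), uIcc_of_le zero_le_one]
        exact Icc_subset_Icc_right (by norm_num))
  have hi2 : IntervalIntegrable (fun s => φ (rd h x s)) volume (1 / 2) 1 := hint.mono_set (by
        rw [uIcc_of_le (by norm_num), uIcc_of_le zero_le_one]
        exact Icc_subset_Icc_left (by norm_num))
  rw [h1]
  have e2 : ∫ s in (0:ℝ)..1, (1 / 2 : ℝ) • φ (rd h x (s / 2)) =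
      ∫ s in (0:ℝ)..1 / 2, φ (rd h x s) := by
    rw [intervalIntegral.integral_smul,
      intervalIntegral.integral_comp_div (fun s => φ (rd h x s)) (by norm_num : (2:ℝ) ≠ 0),
      smul_smul]
    norm_num
  have e3 : ∫ s in (0:ℝ)..1, (1 / 2 : ℝ) • φ (rd h x ((s + 1) / 2)) =
      ∫ s in (1 / 2 : ℝ)..1, φ (rd h x s) := by
    have e4 : ∀ s : ℝ, (s + 1) / 2 = s / 2 + 1 / 2 := fun s => by ring
    simp_rw [e4]
    rw [intervalIntegral.integral_smul,
      intervalIntegral.integral_comp_div_add (fun s => φ (rd h x s)) (by norm_num : (2:ℝ) ≠ 0)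
        (1 / 2), smul_smul]
    norm_num
  have i1 : IntervalIntegrable (fun s => (1 / 2 : ℝ) • φ (rd h x (s / 2))) volume 0 1 :=
    kI_integrable' h (fun v => (1 / 2 : ℝ) • φ v) x (θ := fun s => s / 2) (by fun_prop)
      fun s hs => ⟨by linarith [hs.1], by linarith [hs.2]⟩
  have i2 : IntervalIntegrable (fun s => (1 / 2 : ℝ) • φ (rd h x ((s + 1) / 2))) volume 0 1 :=
    kI_integrable' h (fun v => (1 / 2 : ℝ) • φ v) x (θ := fun s => (s + 1) / 2) (by fun_prop)
      fun s hs => ⟨by linarith [hs.1], by linarith [hs.2]⟩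
  rw [intervalIntegral.integral_add i1 i2, e2, e3,
    intervalIntegral.integral_add_adjacent_intervals hi1 hi2]
  rfl

end Vale.Agent.P073.H880
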