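import Vale.Agent.P073.H880.Kuhn1

/-!
# P073: piecewise affine interpolation with variable dyadic mesh

`η` is a positive function with Lipschitz constant `1/10`; the mesh near `x` is comparable to
`η x`.
-/

namespace Vale.Agent.P073.H880

open MeasureTheory Set Filter Topology Metric
open Vale.Agent.P073.St (V Mat euc)

/-- the mesh of level `n` -/
noncomputable def hn (n : ℕ) : ℝ := (1 / 2) ^ n

theorem hn_pos (n : ℕ) : 0 < hn n := by unfold hn; positivity

theorem hn_succ (n : ℕ) : hn (n + 1) = hn n / 2 := by unfold hn; rw [pow_succ]; ring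

theorem hn_zero : hn 0 = 1 := by simp [hn]

/-- closed lattice cube of level `n` -/
def cb (n : ℕ) (z : Fin 3 → ℤ) : Set V := {x | ∀ i, hn n * z i ≤ x i ∧ x i ≤ hn n * (z i + 1)}

/-- its corner -/
noncomputable def corner (n : ℕ) (z : Fin 3 → ℤ) : V := fun i => hn n * z i

/-- the union of the good cubes of level `n` -/
def Rg (η : V → ℝ) (n : ℕ) : Set V := {x | ∃ z, x ∈ cb n z ∧ 2 * hn n ≤ η (corner n z)}

theorem cb_near {n : ℕ} {z : Fin 3 → ℤ} {x : V} (hx : x ∈ cb n z) :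
    ‖x - corner n z‖ ≤ hn n := by
  rw [pi_norm_le_iff_of_nonneg (hn_pos n).le]
  intro i
  have := hx i
  rw [Pi.sub_apply, Real.norm_eq_abs, abs_le, corner]
  constructor <;> linarith [hn_pos n]

theorem mem_cb_floor (n : ℕ) (x : V) : x ∈ cb n (fun i => ⌊x i / hn n⌋) := by
  intro i
  have h1 := Int.floor_le (x i / hn n)
  have h2 := Int.lt_floor_add_one (x i / hn n)
  have h3 : hn n * (x i / hn n) = x i := by
    have := (hn_pos n).ne'
    field_simp
  have := hn_pos n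
  constructor <;> nlinarith

/-- the hypothesis on `η` -/
def Slow (η : V → ℝ) : Prop := ∀ x y, |η x - η y| ≤ (1 / 10) * ‖x - y‖

theorem Slow.ge {η : V → ℝ} (hη : Slow η) (x y : V) : η y - (1 / 10) * ‖x - y‖ ≤ η x := by
  have := (abs_le.1 (hη x y)).1
  linarith

theorem Slow.le {η : V → ℝ} (hη : Slow η) (x y : V) : η x ≤ η y + (1 / 10) * ‖x - y‖ := by
  have := (abs_le.1 (hη x y)).2
  linarith

theorem Rg_lower {η : V → ℝ} (hη : Slow η) {n : ℕ} {x : V} (hx : x ∈ Rg η n) :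
    19 / 10 * hn n ≤ η x := by
  obtain ⟨z, hz, h⟩ := hx
  have h1 := hη.ge x (corner n z)
  have h2 := cb_near hz
  linarith

theorem corner_ge {η : V → ℝ} (hη : Slow η) {n : ℕ} {x : V} (hx : 21 / 10 * hn n ≤ η x)
    {z : Fin 3 → ℤ} (hz : x ∈ cb n z) : 2 * hn n ≤ η (corner n z) := by
  have h1 := hη.ge (corner n z) x
  have h2 := cb_near hz
  rw [norm_sub_rev] at h2
  linarith

theorem mem_Rg_of {η : V → ℝ} (hη : Slow η) {n : ℕ} {x : V} (hx : 21 / 10 * hn n ≤ η x) :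
    x ∈ Rg η n :=
  ⟨_, mem_cb_floor n x, corner_ge hη hx (mem_cb_floor n x)⟩

theorem Rg_mono {η : V → ℝ} (hη : Slow η) (n : ℕ) : Rg η n ⊆ Rg η (n + 1) := by
  intro x hx
  apply mem_Rg_of hη
  have h1 := Rg_lower hη hx
  have h2 := hn_pos n
  rw [hn_succ]
  linarith

theorem Rg_mono' {η : V → ℝ} (hη : Slow η) {m n : ℕ} (h : m ≤ n) : Rg η m ⊆ Rg η n :=
  monotone_nat_of_le_succ (f := fun n => Rg η n) (Rg_mono hη) h

/-- rounding does not leave an interval with lattice end points -/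
theorem rd_between {h : ℝ} (hh : 0 < h) {a b : ℤ} {x s : ℝ} (ha : h * a ≤ x) (hb : x ≤ h * b)
    (hs : s ∈ Ico (0:ℝ) 1) : h * a ≤ h * (⌊x / h + s⌋ : ℝ) ∧ h * (⌊x / h + s⌋ : ℝ) ≤ h * b := by
  have h1 : (a : ℝ) ≤ x / h := by
    rw [le_div_iff₀ hh]; linarith
  have h2 : x / h ≤ b := by
    rw [div_le_iff₀ hh]; linarith
  have h3 : a ≤ ⌊x / h + s⌋ := by
    rw [Int.le_floor]; linarith [hs.1]
  have h4 : ⌊x / h + s⌋ ≤ b := by
    rw [← Int.lt_add_one_iff, Int.floor_lt]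
    push_cast
    linarith [hs.2]
  constructor
  · have : (a : ℝ) ≤ ⌊x / h + s⌋ := by exact_mod_cast h3
    gcongr
  · have : (⌊x / h + s⌋ : ℝ) ≤ b := by exact_mod_cast h4
    gcongr

theorem rd_mem_cb {n : ℕ} {z : Fin 3 → ℤ} {x : V} (hx : x ∈ cb n z) {s : ℝ}
    (hs : s ∈ Ico (0:ℝ) 1) : rd (hn n) x s ∈ cb n z := by
  intro i
  have h1 := rd_between (a := z i) (b := z i + 1) (hn_pos n) (hx i).1
    (by push_cast; exact (hx i).2) hs
  refine ⟨h1.1, ?_⟩
  have := h1.2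
  push_cast at this
  exact this

theorem rd_succ_mem_cb {n : ℕ} {z : Fin 3 → ℤ} {x : V} (hx : x ∈ cb n z) {s : ℝ}
    (hs : s ∈ Ico (0:ℝ) 1) : rd (hn (n + 1)) x s ∈ cb n z := by
  intro i
  have h1 := rd_between (x := x i) (a := 2 * z i) (b := 2 * z i + 2) (hn_pos (n + 1))
    (by rw [hn_succ]; push_cast; linarith [(hx i).1])
    (by rw [hn_succ]; push_cast; linarith [(hx i).2]) hs
  have e1 : hn (n + 1) * ((2 * z i : ℤ) : ℝ) = hn n * z i := by
    rw [hn_succ]; push_cast; ring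
  have e2 : hn (n + 1) * ((2 * z i + 2 : ℤ) : ℝ) = hn n * (z i + 1) := by
    rw [hn_succ]; push_cast; ring
  rw [e1, e2] at h1
  exact h1

open Classical in
/-- the values at the vertices -/
noncomputable def phi (η : V → ℝ) (f : V → V) : ℕ → V → V
  | 0 => f
  | n + 1 => fun v => if v ∈ Rg η n then kI (hn n) (phi η f n) v else f v

/-- the interpolation of level `n` -/
noncomputable def gg (η : V → ℝ) (f : V → V) (n : ℕ) : V → V := kI (hn n) (phi η f n)

theorem phi_succ_of_mem {η : V → ℝ} {f : V → V} {n : ℕ} {v : V} (h : v ∈ Rg η n) :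
    phi η f (n + 1) v = gg η f n v := by
  simp only [phi, if_pos h, gg]

theorem phi_succ_of_notMem {η : V → ℝ} {f : V → V} {n : ℕ} {v : V} (h : v ∉ Rg η n) :
    phi η f (n + 1) v = f v := by
  simp only [phi, if_neg h]

theorem gg_succ {η : V → ℝ} {f : V → V} {n : ℕ} {x : V} (hx : x ∈ Rg η n) :
    gg η f (n + 1) x = gg η f n x := by
  obtain ⟨z, hz, hgood⟩ := hx
  have h1 : gg η f (n + 1) x = kI (hn (n + 1)) (gg η f n) x :=
    kI_congr fun s hs => phi_succ_of_mem ⟨z, rd_succ_mem_cb hz hs, hgood⟩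
  rw [h1, hn_succ]
  exact kI_refine (hn_pos n) _ _

theorem gg_of_le {η : V → ℝ} (hη : Slow η) {f : V → V} {m n : ℕ} (hmn : m ≤ n) {x : V}
    (hx : x ∈ Rg η m) : gg η f n x = gg η f m x := by
  induction n, hmn using Nat.le_induction with
  | base => rfl
  | succ k hk ih => rw [gg_succ (Rg_mono' hη hk hx), ih]

open Classical in
/-- the multiscale interpolation -/
noncomputable def GG (η : V → ℝ) (f : V → V) (x : V) : V :=
  if h : ∃ n, x ∈ Rg η n then gg η f (Nat.find h) x else f x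

theorem GG_eq {η : V → ℝ} (hη : Slow η) {f : V → V} {n : ℕ} {x : V} (hx : x ∈ Rg η n) :
    GG η f x = gg η f n x := by
  have h : ∃ n, x ∈ Rg η n := ⟨n, hx⟩
  classical
  rw [GG, dif_pos h]
  exact (gg_of_le hη (Nat.find_min' h hx) (Nat.find_spec h)).symm

/-- the values at the vertices are close to an affine map -/
theorem phi_near {η : V → ℝ} (hη : Slow η) {f : V → V} {x₀ : V} {M : V →L[ℝ] V} {b : V} {ω : ℝ}
    (hω : 0 ≤ ω)
    (hf : ∀ v, ‖v - x₀‖ ≤ 10 / 9 * η x₀ → ‖f v - (M v + b)‖ ≤ ω * ‖v - x₀‖) (n : ℕ) :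
    hn n ≤ 5 / 9 * η x₀ → ∀ v, ‖v - x₀‖ ≤ 2 * hn n →
      ‖phi η f n v - (M v + b)‖ ≤ ω * (10 / 9 * η x₀) := by
  have hbase : ∀ v, ‖v - x₀‖ ≤ 10 / 9 * η x₀ → ‖f v - (M v + b)‖ ≤ ω * (10 / 9 * η x₀) :=
    fun v hv => (hf v hv).trans (by gcongr)
  induction n with
  | zero =>
    intro hn0 v hv
    exact hbase v (by linarith)
  | succ n ih =>
    intro hn0 v hv
    by_cases hvR : v ∈ Rg η n
    · rw [phi_succ_of_mem hvR, gg, kI_sub_affine (hn_pos n)]
      have h1 := Rg_lower hη hvR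
      have h2 := hη.le v x₀
      have h3 := hn_succ n
      refine kI_norm_le fun s hs => ih (by linarith) _ ?_
      have h4 := rd_near (hn_pos n) v hs
      have h5 := norm_add_le (rd (hn n) v s - v) (v - x₀)
      rw [sub_add_sub_cancel] at h5
      linarith
    · rw [phi_succ_of_notMem hvR]
      exact hbase v (by linarith)

/-- the level near a point -/
theorem exists_level {t : ℝ} (ht : 0 < t) (ht1 : t ≤ 1) :
    ∃ n, 22 / 10 * hn n ≤ t ∧ t < 44 / 10 * hn n := by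
  have hex : ∃ n, 22 / 10 * hn n ≤ t := by
    obtain ⟨n, hn'⟩ := exists_pow_lt_of_lt_one (x := t / 3) (by positivity)
      (by norm_num : (1 / 2 : ℝ) < 1)
    refine ⟨n, ?_⟩
    unfold hn
    linarith
  classical
  obtain ⟨m, hm⟩ : ∃ m, Nat.find hex = m := ⟨_, rfl⟩
  have hspec := Nat.find_spec hex
  rw [hm] at hspec
  rcases m with _ | m
  · rw [hn_zero] at hspec
    linarith
  · refine ⟨m + 1, hspec, ?_⟩
    have := Nat.find_min hex (m := m) (by omega)
    rw [hn_succ]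
    linarith

/-- **the local estimate**: near `x₀` the interpolation is close to the affine map, with its
difference quotients -/
theorem GG_local {η : V → ℝ} (hη : Slow η) (hη1 : ∀ x, η x ≤ 1) {f : V → V} {x₀ : V}
    (h0 : 0 < η x₀) {M : V →L[ℝ] V} {b : V} {ω : ℝ} (hω : 0 ≤ ω)
    (hf : ∀ v, ‖v - x₀‖ ≤ 10 / 9 * η x₀ → ‖f v - (M v + b)‖ ≤ ω * ‖v - x₀‖) :
    (∀ x, ‖x - x₀‖ ≤ η x₀ / 5 → ∀ y, ‖y - x₀‖ ≤ η x₀ / 5 →
      ‖(GG η f x - GG η f y) - M (x - y)‖ ≤ 30 * ω * ‖x - y‖) ∧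
    ∀ x, ‖x - x₀‖ ≤ η x₀ / 5 → ‖GG η f x - (M x + b)‖ ≤ 2 * ω * η x₀ := by
  obtain ⟨n, hn1, hn2⟩ := exists_level h0 (hη1 x₀)
  have hmem : ∀ x, ‖x - x₀‖ ≤ η x₀ / 5 → x ∈ Rg η n := by
    intro x hx
    apply mem_Rg_of hη
    have := hη.ge x x₀
    have := hn_pos n
    linarith
  have hB : ∀ x, ‖x - x₀‖ ≤ η x₀ / 5 → ∀ s ∈ Icc (0:ℝ) 1,
      ‖phi η f n (rd (hn n) x s) - (M (rd (hn n) x s) + b)‖ ≤ ω * (10 / 9 * η x₀) := by
    intro x hx s hs
    refine phi_near hη hω hf n (by linarith) _ ?_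
    have h4 := rd_near (hn_pos n) x hs
    have h5 := norm_add_le (rd (hn n) x s - x) (x - x₀)
    rw [sub_add_sub_cancel] at h5
    linarith
  have hval : ∀ x, ‖x - x₀‖ ≤ η x₀ / 5 → GG η f x - (M x + b) =
      kI (hn n) (fun v => phi η f n v - (M v + b)) x := by
    intro x hx
    rw [GG_eq hη (hmem x hx), gg, kI_sub_affine (hn_pos n)]
  constructor
  · intro x hx y hy
    have e : (GG η f x - GG η f y) - M (x - y) =
        (GG η f x - (M x + b)) - (GG η f y - (M y + b)) := by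
      rw [map_sub]; abel
    rw [e, hval x hx, hval y hy]
    refine (kI_lip (φ := fun v => phi η f n v - (M v + b)) (hn_pos n) (hB x hx)
      (hB y hy)).trans ?_
    refine mul_le_mul_of_nonneg_right ?_ (norm_nonneg _)
    rw [div_le_iff₀ (hn_pos n)]
    have h1 := mul_le_mul_of_nonneg_left hn2.le hω
    have h2 := mul_nonneg hω (hn_pos n).le
    linarith
  · intro x hx
    rw [hval x hx]
    refine (kI_norm_le (φ := fun v => phi η f n v - (M v + b)) (hB x hx)).trans ?_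
    have := mul_nonneg hω h0.le
    linarith

end Vale.Agent.P073.H880
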