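import Vale.Agent.P073.H880.Kuhn2
import Vale.Agent.P073.H880.Defs
import Mathlib.Data.Fin.Tuple.Sort

/-!
# P073: the Kuhn interpolation is piecewise affine
-/

namespace Vale.Agent.P073.H880

open MeasureTheory Set Filter Topology Metric
open Vale.Agent.P073.St (V Mat euc ap)

/-- vertex number `k` of the Kuhn simplex of the cube `z` and the order `σ` -/
noncomputable def vert (h : ℝ) (z : Fin 3 → ℤ) (σ : Equiv.Perm (Fin 3)) (k : Fin 4) : V :=
  fun i => h * (z i + if (σ.symm i : ℕ) < k then 1 else 0)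

/-- the Kuhn simplex -/
noncomputable def KS (h : ℝ) (z : Fin 3 → ℤ) (σ : Equiv.Perm (Fin 3)) : Set V :=
  convexHull ℝ (range (vert h z σ))

theorem KS_polytope (h : ℝ) (z : Fin 3 → ℤ) (σ : Equiv.Perm (Fin 3)) : IsPolytope (KS h z σ) := by
  classical
  refine ⟨Finset.univ.image (vert h z σ), ?_⟩
  rw [KS]
  congr 1
  ext x
  simp

/-- weights of a point of the simplex -/
theorem mem_KS_iff {h : ℝ} {z : Fin 3 → ℤ} {σ : Equiv.Perm (Fin 3)} {x : V} :
    x ∈ KS h z σ ↔ ∃ w : Fin 4 → ℝ, (∀ k, 0 ≤ w k) ∧ ∑ k, w k = 1 ∧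
      ∑ k, w k • vert h z σ k = x := by
  rw [KS, convexHull_range_eq_exists_affineCombination]
  constructor
  · rintro ⟨s, w, hw0, hw1, hx⟩
    classical
    refine ⟨fun k => if k ∈ s then w k else 0, fun k => ?_, ?_, ?_⟩
    · show 0 ≤ if k ∈ s then w k else 0
      split_ifs with hk
      · exact hw0 k hk
      · exact le_refl _
    · rw [Finset.sum_ite_mem, Finset.univ_inter]; exact hw1
    · rw [← hx, Finset.affineCombination_eq_linear_combination _ _ _ hw1]
      simp only [ite_smul, zero_smul]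
      rw [Finset.sum_ite_mem, Finset.univ_inter]
  · rintro ⟨w, hw0, hw1, hx⟩
    refine ⟨Finset.univ, w, fun k _ => hw0 k, hw1, ?_⟩
    rw [Finset.affineCombination_eq_linear_combination _ _ _ hw1]
    exact hx

theorem vert_mem_cb (n : ℕ) (z : Fin 3 → ℤ) (σ : Equiv.Perm (Fin 3)) (k : Fin 4) :
    vert (hn n) z σ k ∈ cb n z := by
  intro i
  have := hn_pos n
  unfold vert
  split_ifs
  · constructor <;> nlinarith
  · constructor <;> nlinarith

theorem convex_cb (n : ℕ) (z : Fin 3 → ℤ) : Convex ℝ (cb n z) := by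
  have h : cb n z = Set.pi univ fun i => Icc (hn n * z i) (hn n * (z i + 1)) := by
    ext x
    exact ⟨fun h i _ => h i, fun h i => h i (mem_univ i)⟩
  rw [h]
  exact convex_pi fun i _ => convex_Icc _ _

theorem KS_subset_cb (n : ℕ) (z : Fin 3 → ℤ) (σ : Equiv.Perm (Fin 3)) :
    KS (hn n) z σ ⊆ cb n z := by
  refine convexHull_min ?_ (convex_cb n z)
  rintro _ ⟨k, rfl⟩
  exact vert_mem_cb n z σ k

/-- the coordinates of a point of the simplex -/
theorem coord_KS {h : ℝ} {z : Fin 3 → ℤ} {σ : Equiv.Perm (Fin 3)} {w : Fin 4 → ℝ}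
    (hw1 : ∑ k, w k = 1) (i : Fin 3) :
    (∑ k, w k • vert h z σ k) i =
      h * (z i + ∑ k, if (σ.symm i : ℕ) < (k : Fin 4) then w k else 0) := by
  rw [Finset.sum_apply]
  have h1 : ∀ k : Fin 4, (w k • vert h z σ k) i =
      h * (w k * z i) + h * (if (σ.symm i : ℕ) < (k : ℕ) then w k else 0) := by
    intro k
    rw [Pi.smul_apply, smul_eq_mul, vert]
    split_ifs <;> ring
  simp_rw [h1]
  rw [Finset.sum_add_distrib, ← Finset.mul_sum, ← Finset.mul_sum, ← Finset.sum_mul, hw1]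
  ring

theorem floor_add_unit (z : ℤ) {μ s : ℝ} (hμ0 : 0 ≤ μ) (hμ1 : μ ≤ 1) (hs : s ∈ Ico (0:ℝ) 1) :
    (⌊(z : ℝ) + μ + s⌋ : ℝ) = z + if 1 - μ ≤ s then 1 else 0 := by
  split_ifs with h
  · have : ⌊(z : ℝ) + μ + s⌋ = z + 1 := by
      rw [Int.floor_eq_iff]
      push_cast
      constructor <;> linarith [hs.1, hs.2]
    rw [this]; push_cast; ring
  · have : ⌊(z : ℝ) + μ + s⌋ = z := by
      rw [Int.floor_eq_iff]
      constructor <;> linarith [hs.1, hs.2]
    rw [this]; ring

/-- **the interpolation on a simplex** -/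
theorem kI_KS {h : ℝ} (hh : 0 < h) (φ : V → V) {z : Fin 3 → ℤ} {σ : Equiv.Perm (Fin 3)}
    {w : Fin 4 → ℝ} (hw0 : ∀ k, 0 ≤ w k) (hw1 : ∑ k, w k = 1) {x : V}
    (hx : ∑ k, w k • vert h z σ k = x) : kI h φ x = ∑ k, w k • φ (vert h z σ k) := by
  have hw1' : w 0 + w 1 + w 2 + w 3 = 1 := by rw [← hw1, Fin.sum_univ_four]
  -- rounding
  have hrd : ∀ (k : Fin 4) (s : ℝ), s ∈ Ico (0:ℝ) 1 →
      (∀ j : Fin 3, (j : ℕ) < k → 1 - (∑ l : Fin 4, if (j : ℕ) < l then w l else 0) ≤ s) →
      (∀ j : Fin 3, ¬ (j : ℕ) < k → s < 1 - (∑ l : Fin 4, if (j : ℕ) < l then w l else 0)) →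
      rd h x s = vert h z σ k := by
    intro k s hs h1 h2
    funext i
    have hxi : x i = h * (z i + ∑ l : Fin 4, if (σ.symm i : ℕ) < l then w l else 0) := by
      rw [← hx, coord_KS hw1]
    set μ := ∑ l : Fin 4, if (σ.symm i : ℕ) < l then w l else 0 with hμ
    have hμ0 : 0 ≤ μ := Finset.sum_nonneg fun l _ => by
      split_ifs
      · exact hw0 l
      · exact le_refl _
    have hμ1 : μ ≤ 1 := by
      rw [← hw1]
      refine Finset.sum_le_sum fun l _ => ?_
      split_ifs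
      · exact le_refl _
      · exact hw0 l
    have hdiv : x i / h = z i + μ := by
      rw [hxi]; field_simp
    simp only [rd, vert]
    rw [hdiv, floor_add_unit _ hμ0 hμ1 hs]
    congr 2
    by_cases hk : (σ.symm i : ℕ) < k
    · rw [if_pos hk, if_pos (h1 _ hk)]
    · rw [if_neg hk, if_neg (not_le.2 (h2 _ hk))]
  have e0 : (∑ l : Fin 4, if ((0 : Fin 3) : ℕ) < l then w l else 0) = w 1 + w 2 + w 3 := by
    rw [Fin.sum_univ_four]; simp
  have e1 : (∑ l : Fin 4, if ((1 : Fin 3) : ℕ) < l then w l else 0) = w 2 + w 3 := by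
    rw [Fin.sum_univ_four]; simp
  have e2 : (∑ l : Fin 4, if ((2 : Fin 3) : ℕ) < l then w l else 0) = w 3 := by
    rw [Fin.sum_univ_four]; simp
  have hint := kI_integrable h φ x
  have hsub : ∀ a b : ℝ, 0 ≤ a → a ≤ b → b ≤ 1 →
      IntervalIntegrable (fun s => φ (rd h x s)) volume a b := fun a b ha hab hb =>
    hint.mono_set (by
      rw [uIcc_of_le hab, uIcc_of_le zero_le_one]
      exact Icc_subset_Icc ha hb)
  have hpiece : ∀ (k : Fin 4) (a b : ℝ), 0 ≤ a → a ≤ b → b ≤ 1 →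
      (∀ s ∈ Ioo a b, rd h x s = vert h z σ k) →
      ∫ s in a..b, φ (rd h x s) = (b - a) • φ (vert h z σ k) := by
    intro k a b ha hab hb hk
    rw [intervalIntegral.integral_congr_ae (g := fun _ => φ (vert h z σ k)),
      intervalIntegral.integral_const]
    have hne : ∀ᵐ s : ℝ, s ≠ b := by
      rw [ae_iff]; simp
    filter_upwards [hne] with s hs1 hs
    rw [uIoc_of_le hab] at hs
    rw [hk s ⟨hs.1, lt_of_le_of_ne hs.2 hs1⟩]
  have g0 := hw0 0
  have g1 := hw0 1
  have g2 := hw0 2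
  have g3 := hw0 3
  have p0 := hpiece 0 0 (w 0) le_rfl g0 (by linarith) fun s hs =>
    hrd 0 s ⟨hs.1.le, by linarith [hs.2]⟩ (fun j hj => absurd hj (by simp)) fun j _ => by
      fin_cases j
      · show s < 1 - (∑ l : Fin 4, if ((0 : Fin 3) : ℕ) < l then w l else 0)
        rw [e0]; linarith [hs.2]
      · show s < 1 - (∑ l : Fin 4, if ((1 : Fin 3) : ℕ) < l then w l else 0)
        rw [e1]; linarith [hs.2]
      · show s < 1 - (∑ l : Fin 4, if ((2 : Fin 3) : ℕ) < l then w l else 0)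
        rw [e2]; linarith [hs.2]
  have p1 := hpiece 1 (w 0) (w 0 + w 1) g0 (by linarith) (by linarith) fun s hs =>
    hrd 1 s ⟨by linarith [hs.1], by linarith [hs.2]⟩ (fun j hj => by
      fin_cases j
      · show 1 - (∑ l : Fin 4, if ((0 : Fin 3) : ℕ) < l then w l else 0) ≤ s
        rw [e0]; linarith [hs.1]
      · exact absurd hj (by decide)
      · exact absurd hj (by decide)) fun j hj => by
      fin_cases j
      · exact absurd (by decide) hj
      · show s < 1 - (∑ l : Fin 4, if ((1 : Fin 3) : ℕ) < l then w l else 0)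
        rw [e1]; linarith [hs.2]
      · show s < 1 - (∑ l : Fin 4, if ((2 : Fin 3) : ℕ) < l then w l else 0)
        rw [e2]; linarith [hs.2]
  have p2 := hpiece 2 (w 0 + w 1) (w 0 + w 1 + w 2) (by linarith) (by linarith) (by linarith)
    fun s hs => hrd 2 s ⟨by linarith [hs.1], by linarith [hs.2]⟩ (fun j hj => by
      fin_cases j
      · show 1 - (∑ l : Fin 4, if ((0 : Fin 3) : ℕ) < l then w l else 0) ≤ s
        rw [e0]; linarith [hs.1]
      · show 1 - (∑ l : Fin 4, if ((1 : Fin 3) : ℕ) < l then w l else 0) ≤ s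
        rw [e1]; linarith [hs.1]
      · exact absurd hj (by decide)) fun j hj => by
      fin_cases j
      · exact absurd (by decide) hj
      · exact absurd (by decide) hj
      · show s < 1 - (∑ l : Fin 4, if ((2 : Fin 3) : ℕ) < l then w l else 0)
        rw [e2]; linarith [hs.2]
  have p3 := hpiece 3 (w 0 + w 1 + w 2) 1 (by linarith) (by linarith) le_rfl
    fun s hs => hrd 3 s ⟨by linarith [hs.1], hs.2⟩ (fun j hj => by
      fin_cases j
      · show 1 - (∑ l : Fin 4, if ((0 : Fin 3) : ℕ) < l then w l else 0) ≤ s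
        rw [e0]; linarith [hs.1]
      · show 1 - (∑ l : Fin 4, if ((1 : Fin 3) : ℕ) < l then w l else 0) ≤ s
        rw [e1]; linarith [hs.1]
      · show 1 - (∑ l : Fin 4, if ((2 : Fin 3) : ℕ) < l then w l else 0) ≤ s
        rw [e2]; linarith [hs.1]) fun j hj => absurd j.2 hj
  unfold kI
  rw [← intervalIntegral.integral_add_adjacent_intervals
      (hsub 0 (w 0) le_rfl g0 (by linarith)) (hsub (w 0) 1 g0 (by linarith) le_rfl),
    ← intervalIntegral.integral_add_adjacent_intervals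
      (hsub (w 0) (w 0 + w 1) g0 (by linarith) (by linarith))
      (hsub (w 0 + w 1) 1 (by linarith) (by linarith) le_rfl),
    ← intervalIntegral.integral_add_adjacent_intervals
      (hsub (w 0 + w 1) (w 0 + w 1 + w 2) (by linarith) (by linarith) (by linarith))
      (hsub (w 0 + w 1 + w 2) 1 (by linarith) (by linarith) le_rfl), p0, p1, p2, p3,
    Fin.sum_univ_four]
  have q0 : w 0 - 0 = w 0 := by ring
  have q1 : w 0 + w 1 - w 0 = w 1 := by ring
  have q2 : w 0 + w 1 + w 2 - (w 0 + w 1) = w 2 := by ring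
  have q3 : 1 - (w 0 + w 1 + w 2) = w 3 := by linarith
  rw [q0, q1, q2, q3]
  abel

end Vale.Agent.P073.H880
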