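import Vale.Agent.P073.H880.Kuhn3

/-!
# P073: the multiscale interpolation is locally finite piecewise affine
-/

namespace Vale.Agent.P073.H880

open MeasureTheory Set Filter Topology Metric
open Vale.Agent.P073.St (V Mat euc ap)

theorem ap_sum {ι : Type*} (s : Finset ι) (M : Mat) (w : ι → ℝ) (v : ι → V) :
    ap M (∑ k ∈ s, w k • v k) = ∑ k ∈ s, w k • ap M (v k) := by
  funext i
  simp only [ap, Finset.sum_apply, Pi.smul_apply, smul_eq_mul, Finset.mul_sum]
  rw [Finset.sum_comm]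
  refine Finset.sum_congr rfl fun k _ => Finset.sum_congr rfl fun j _ => by ring

/-- the interpolation is affine on the simplices -/
theorem kI_affineOn {h : ℝ} (hh : 0 < h) (φ : V → V) (z : Fin 3 → ℤ) (σ : Equiv.Perm (Fin 3)) :
    IsAffineOn (KS h z σ) (kI h φ) := by
  set u : Fin 3 → V := fun r => φ (vert h z σ r.succ) - φ (vert h z σ r.castSucc) with hu
  set M : Mat := fun i j => u (σ.symm j) i / h with hM
  -- the values at the vertices
  have hv : ∀ k : Fin 4, ap M (vert h z σ k) - ap M (vert h z σ 0) =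
      ∑ r : Fin 3, if (r : ℕ) < k then u r else 0 := by
    intro k
    funext i
    have e1 : (ap M (vert h z σ k) - ap M (vert h z σ 0)) i =
        ∑ j, if (σ.symm j : ℕ) < k then u (σ.symm j) i else 0 := by
      rw [Pi.sub_apply]
      simp only [ap]
      rw [← Finset.sum_sub_distrib]
      refine Finset.sum_congr rfl fun j _ => ?_
      simp only [vert, hM]
      have h0 : ¬ (σ.symm j : ℕ) < ((0 : Fin 4) : ℕ) := by simp
      rw [if_neg h0]
      split_ifs
      · field_simp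
        ring
      · ring
    rw [e1, Equiv.sum_comp σ.symm (fun r : Fin 3 => if (r : ℕ) < k then u r i else 0),
      Finset.sum_apply]
    refine Finset.sum_congr rfl fun r _ => ?_
    split_ifs <;> rfl
  have htel : ∀ k : Fin 4, (∑ r : Fin 3, if (r : ℕ) < k then u r else 0) =
      φ (vert h z σ k) - φ (vert h z σ 0) := by
    have s0 : u 0 = φ (vert h z σ 1) - φ (vert h z σ 0) := rfl
    have s1 : u 1 = φ (vert h z σ 2) - φ (vert h z σ 1) := rfl
    have s2 : u 2 = φ (vert h z σ 3) - φ (vert h z σ 2) := rfl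
    intro k
    rw [Fin.sum_univ_three, s0, s1, s2]
    fin_cases k <;> simp
  refine ⟨M, φ (vert h z σ 0) - ap M (vert h z σ 0), fun x hx => ?_⟩
  obtain ⟨w, hw0, hw1, hxw⟩ := mem_KS_iff.1 hx
  rw [kI_KS hh φ hw0 hw1 hxw, ← hxw, ap_sum]
  have h1 : ∀ k, φ (vert h z σ k) = ap M (vert h z σ k) +
      (φ (vert h z σ 0) - ap M (vert h z σ 0)) := by
    intro k
    have := (hv k).trans (htel k)
    have h2 : φ (vert h z σ k) = (ap M (vert h z σ k) - ap M (vert h z σ 0)) +
        φ (vert h z σ 0) := by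
      rw [this]; abel
    rw [h2]; abel
  have h2 : ∑ k, w k • φ (vert h z σ k) = ∑ k, (w k • ap M (vert h z σ k) +
      w k • (φ (vert h z σ 0) - ap M (vert h z σ 0))) := by
    refine Finset.sum_congr rfl fun k _ => ?_
    rw [← smul_add, ← h1 k]
  rw [h2, Finset.sum_add_distrib, ← Finset.sum_smul, hw1, one_smul]

/-- the simplices cover the cube -/
theorem exists_KS {n : ℕ} {z : Fin 3 → ℤ} {x : V} (hx : x ∈ cb n z) :
    ∃ σ : Equiv.Perm (Fin 3), x ∈ KS (hn n) z σ := by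
  have hh := hn_pos n
  set t : Fin 3 → ℝ := fun i => x i / hn n - z i with ht
  have ht0 : ∀ i, 0 ≤ t i := by
    intro i
    have : (z i : ℝ) ≤ x i / hn n := by
      rw [le_div_iff₀ hh]; linarith [(hx i).1]
    simp only [ht]; linarith
  have ht1 : ∀ i, t i ≤ 1 := by
    intro i
    have : x i / hn n ≤ z i + 1 := by
      rw [div_le_iff₀ hh]; linarith [(hx i).2]
    simp only [ht]; linarith
  set σ : Equiv.Perm (Fin 3) := Tuple.sort (fun i => - t i) with hσ
  have hmono : Monotone ((fun i => - t i) ∘ σ) := Tuple.monotone_sort _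
  have h01 : t (σ 1) ≤ t (σ 0) := by
    have := hmono (show (0 : Fin 3) ≤ 1 by decide)
    simp only [Function.comp] at this
    linarith
  have h12 : t (σ 2) ≤ t (σ 1) := by
    have := hmono (show (1 : Fin 3) ≤ 2 by decide)
    simp only [Function.comp] at this
    linarith
  refine ⟨σ, mem_KS_iff.2 ⟨![1 - t (σ 0), t (σ 0) - t (σ 1), t (σ 1) - t (σ 2), t (σ 2)],
    fun k => ?_, ?_, ?_⟩⟩
  · fin_cases k
    · show 0 ≤ 1 - t (σ 0); linarith [ht1 (σ 0)]
    · show 0 ≤ t (σ 0) - t (σ 1); linarith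
    · show 0 ≤ t (σ 1) - t (σ 2); linarith
    · exact ht0 _
  · rw [Fin.sum_univ_four]
    show 1 - t (σ 0) + (t (σ 0) - t (σ 1)) + (t (σ 1) - t (σ 2)) + t (σ 2) = 1
    ring
  · funext i
    have hsum : ∑ k, (![1 - t (σ 0), t (σ 0) - t (σ 1), t (σ 1) - t (σ 2), t (σ 2)] : Fin 4 → ℝ) k
        = 1 := by
      rw [Fin.sum_univ_four]
      show 1 - t (σ 0) + (t (σ 0) - t (σ 1)) + (t (σ 1) - t (σ 2)) + t (σ 2) = 1
      ring
    rw [coord_KS hsum]
    have hti : x i = hn n * (z i + t i) := by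
      simp only [ht]; field_simp; ring
    rw [hti]
    congr 2
    obtain ⟨r, rfl⟩ : ∃ r, σ r = i := ⟨σ.symm i, by simp⟩
    rw [Equiv.symm_apply_apply, Fin.sum_univ_four]
    fin_cases r <;> simp

/-- parent cube -/
def par (z : Fin 3 → ℤ) : Fin 3 → ℤ := fun i => z i / 2

theorem cb_par {n : ℕ} {z : Fin 3 → ℤ} {x : V} (hx : x ∈ cb (n + 1) z) : x ∈ cb n (par z) := by
  intro i
  have h1 := (hx i).1
  have h2 := (hx i).2
  have hh := hn_pos n
  rw [hn_succ] at h1 h2
  have h3 : 2 * (z i / 2) ≤ z i := Int.mul_ediv_self_le (by norm_num)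
  have h4 : z i < 2 * (z i / 2) + 2 := by omega
  have h5 : (2 : ℝ) * ((z i / 2 : ℤ) : ℝ) ≤ z i := by exact_mod_cast h3
  have h6 : (z i : ℝ) + 1 ≤ 2 * ((z i / 2 : ℤ) : ℝ) + 2 := by
    have : z i + 1 ≤ 2 * (z i / 2) + 2 := by omega
    exact_mod_cast this
  simp only [par]
  constructor <;> nlinarith

/-- a good cube which is maximal -/
def MaxGood (η : V → ℝ) (n : ℕ) (z : Fin 3 → ℤ) : Prop :=
  2 * hn n ≤ η (corner n z) ∧ ∀ m, n = m + 1 → ¬ 2 * hn m ≤ η (corner m (par z))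

theorem exists_maxGood {η : V → ℝ} {x : V} (hx : ∃ n, x ∈ Rg η n) :
    ∃ n z, x ∈ cb n z ∧ MaxGood η n z := by
  classical
  obtain ⟨z, hz, hgood⟩ := Nat.find_spec hx
  refine ⟨Nat.find hx, z, hz, hgood, fun m hm hcon => ?_⟩
  have := Nat.find_min hx (m := m) (by omega)
  apply this
  rw [hm] at hz
  exact ⟨par z, cb_par hz, hcon⟩

theorem MaxGood.lower {η : V → ℝ} (hη : Slow η) (hη1 : ∀ x, η x ≤ 1) {n : ℕ} {z : Fin 3 → ℤ}
    (h : MaxGood η n z) {x : V} (hx : x ∈ cb n z) : η x < 42 / 10 * hn n := by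
  rcases n with _ | m
  · rw [hn_zero]
    linarith [hη1 x]
  · have h1 := h.2 m rfl
    by_contra hcon
    apply h1
    apply corner_ge hη _ (cb_par hx)
    rw [hn_succ] at hcon
    linarith

/-- **the multiscale interpolation is locally finite piecewise affine** -/
theorem GG_locPA {η : V → ℝ} (hη : Slow η) (hη1 : ∀ x, η x ≤ 1) {Ω : Set V}
    (hΩ : ∀ x, x ∈ Ω ↔ 0 < η x) (f : V → V) : LocPA Ω (GG η f) := by
  have hcbR : ∀ n z, MaxGood η n z → ∀ x ∈ cb n z, x ∈ Rg η n := fun n z h x hx => ⟨z, hx, h.1⟩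
  refine ⟨{C | ∃ n z σ, MaxGood η n z ∧ C = KS (hn n) z σ}, ?_, ?_, ?_⟩
  · rintro _ ⟨n, z, σ, hg, rfl⟩
    refine ⟨KS_polytope _ _ _, fun x hx => ?_, ?_⟩
    · rw [hΩ]
      have h1 := Rg_lower hη (hcbR n z hg x (KS_subset_cb n z σ hx))
      have := hn_pos n
      linarith
    · obtain ⟨M, b, hM⟩ := kI_affineOn (hn_pos n) (phi η f n) z σ
      refine ⟨M, b, fun x hx => ?_⟩
      rw [GG_eq hη (hcbR n z hg x (KS_subset_cb n z σ hx)), gg]
      exact hM x hx
  · intro x hx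
    rw [hΩ] at hx
    obtain ⟨n, hn1, hn2⟩ := exists_level hx (hη1 x)
    have hxR : x ∈ Rg η n := mem_Rg_of hη (by linarith [hn_pos n])
    obtain ⟨m, z, hz, hg⟩ := exists_maxGood ⟨n, hxR⟩
    obtain ⟨σ, hσ⟩ := exists_KS hz
    exact ⟨_, ⟨m, z, σ, hg, rfl⟩, hσ⟩
  · intro x₀ hx₀
    rw [hΩ] at hx₀
    refine ⟨η x₀, hx₀, ?_⟩
    -- bounds for the level and for the position
    obtain ⟨N, hN⟩ := exists_pow_lt_of_lt_one (x := η x₀ / 5) (by positivity)
      (by norm_num : (1 / 2 : ℝ) < 1)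
    obtain ⟨B, hB⟩ := exists_nat_gt ((‖x₀‖ + 2) / (η x₀ / 5))
    have hfin : ({n : ℕ | n ≤ N} ×ˢ ({z : Fin 3 → ℤ | ∀ i, z i ∈ Icc (-(B:ℤ)) B} ×ˢ
        (univ : Set (Equiv.Perm (Fin 3))))).Finite :=
      (Set.finite_le_nat N).prod ((Set.Finite.pi' fun _ => Set.finite_Icc _ _).prod finite_univ)
    refine (hfin.image fun q : ℕ × ((Fin 3 → ℤ) × Equiv.Perm (Fin 3)) =>
      KS (hn q.1) q.2.1 q.2.2).subset ?_
    rintro _ ⟨⟨n, z, σ, hg, rfl⟩, y, hy, hyr⟩
    have hyc := KS_subset_cb n z σ hy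
    have hnorm : ‖y - x₀‖ ≤ η x₀ := by
      have h1 : ‖y - x₀‖ ≤ euc (y - x₀) := by
        refine (pi_norm_le_iff_of_nonneg (Real.sqrt_nonneg _)).2 fun i => ?_
        rw [Real.norm_eq_abs]
        exact Real.abs_le_sqrt (Finset.single_le_sum (f := fun i => (y - x₀) i ^ 2)
          (fun j _ => sq_nonneg _) (Finset.mem_univ i))
      linarith
    have hlow := hg.lower hη hη1 hyc
    have hge := hη.ge y x₀
    have hh := hn_pos n
    have hh1 : hn n ≤ 1 := by
      unfold hn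
      exact pow_le_one₀ (by norm_num) (by norm_num)
    have hlev : η x₀ / 5 < hn n := by linarith
    refine ⟨(n, z, σ), ⟨?_, ?_, mem_univ _⟩, rfl⟩
    · show n ≤ N
      by_contra hcon
      have : hn n ≤ (1 / 2) ^ N := by
        unfold hn
        exact pow_le_pow_of_le_one (by norm_num) (by norm_num) (by omega)
      linarith
    · intro i
      have h1 := hyc i
      have h2 : |y i| ≤ ‖x₀‖ + 1 := by
        have e1 := norm_le_pi_norm y i
        have e2 : ‖y‖ ≤ ‖y - x₀‖ + ‖x₀‖ := by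
          have := norm_add_le (y - x₀) x₀
          rwa [sub_add_cancel] at this
        rw [Real.norm_eq_abs] at e1
        linarith [hη1 x₀]
      have h3 : |(z i : ℝ)| * hn n ≤ ‖x₀‖ + 2 := by
        have e3 : |(z i : ℝ)| * hn n = |(z i : ℝ) * hn n| := by rw [abs_mul, abs_of_pos hh]
        rw [e3]
        rw [abs_le] at h2 ⊢
        constructor <;> linarith [h2.1, h2.2]
      have h4 : |(z i : ℝ)| ≤ B := by
        have h5 : |(z i : ℝ)| ≤ (‖x₀‖ + 2) / (η x₀ / 5) := by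
          rw [le_div_iff₀ (by positivity)]
          refine le_trans ?_ h3
          gcongr
        linarith
      have h6 : |z i| ≤ (B : ℤ) := by exact_mod_cast h4
      exact abs_le.1 h6

end Vale.Agent.P073.H880
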