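import Vale.Agent.P073.AB.FinalA

/-!
# P073, all exponents: from small errors to approximability

The last step of block AB (`AB/FinalA.lean`) for an arbitrary exponent `1 ≤ p < ∞`.
-/

namespace Vale.Agent.P073.H880

open MeasureTheory Set Filter Topology Metric Vale.Agent.P073.St Vale.Agent.P073.AB
open Vale.Agent.P073.SQ (ev)
open scoped ContDiff ENNReal

variable {p : ℝ} {Ω Λ : Set V}

theorem final_pt (hp : 1 ≤ p) (a : V) (M : Mat) (t : Fin 3 → V)
    (ht : ∀ i j, M i j = t j i) :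
    euc a ^ p + frob M ^ p ≤ 6 ^ p * (‖a‖ ^ p + ∑ j, ‖t j‖ ^ p) := by
  have hp0 : 0 ≤ p := by linarith
  have hc2 : (2 : ℝ) ^ p ≤ 6 ^ p := Real.rpow_le_rpow (by norm_num) (by norm_num) hp0
  have hc6 : (2 : ℝ) ^ p * 3 ^ (p - 1) ≤ 6 ^ p := by
    calc (2 : ℝ) ^ p * 3 ^ (p - 1) ≤ 2 ^ p * 3 ^ p := by
          gcongr
          · norm_num
          · linarith
      _ = 6 ^ p := by rw [← Real.mul_rpow (by norm_num) (by norm_num)]; norm_num
  have e1 : euc a ^ p ≤ 6 ^ p * ‖a‖ ^ p := by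
    calc euc a ^ p ≤ (2 * ‖a‖) ^ p :=
          Real.rpow_le_rpow (Real.sqrt_nonneg _) (euc_le_norm a) hp0
      _ = 2 ^ p * ‖a‖ ^ p := Real.mul_rpow (by norm_num) (norm_nonneg _)
      _ ≤ 6 ^ p * ‖a‖ ^ p := by gcongr
  have hs : 0 ≤ ∑ j, ‖t j‖ := Finset.sum_nonneg fun j _ => norm_nonneg _
  have hs' : 0 ≤ ∑ j, ‖t j‖ ^ p := Finset.sum_nonneg fun j _ => by positivity
  have e3 : (∑ j, ‖t j‖) ^ p ≤ 3 ^ (p - 1) * ∑ j, ‖t j‖ ^ p := by
    have h := Real.rpow_sum_le_const_mul_sum_rpow_of_nonneg (s := Finset.univ)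
      (f := fun j => ‖t j‖) hp (fun j _ => norm_nonneg _)
    have hc : ((Finset.univ : Finset (Fin 3)).card : ℝ) = 3 := by simp
    rwa [hc] at h
  have e2 : frob M ^ p ≤ 6 ^ p * ∑ j, ‖t j‖ ^ p := by
    calc frob M ^ p ≤ (2 * ∑ j, ‖t j‖) ^ p :=
          Real.rpow_le_rpow (Real.sqrt_nonneg _) (frob_le M t ht) hp0
      _ = 2 ^ p * (∑ j, ‖t j‖) ^ p := Real.mul_rpow (by norm_num) hs
      _ ≤ 2 ^ p * (3 ^ (p - 1) * ∑ j, ‖t j‖ ^ p) := by gcongr
      _ = (2 ^ p * 3 ^ (p - 1)) * ∑ j, ‖t j‖ ^ p := by ring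
      _ ≤ _ := by gcongr
  linarith

theorem int_le_err (hp : 1 ≤ p) (hΩ : IsOpen Ω) {f : V → V} {F : V → Mat}
    (hf : ContinuousOn f Ω) (hF : IsSobolev p Ω f F) {g : V → V} (hg : ContDiffOn ℝ ∞ g Ω)
    (ht : err p Ω f F g ≠ ⊤) :
    0 ≤ int Ω (fun x => euc (g x - f x) ^ p + frob (jac g x - F x) ^ p) ∧
    int Ω (fun x => euc (g x - f x) ^ p + frob (jac g x - F x) ^ p) ≤
      6 ^ p * (err p Ω f F g).toReal := by
  have hp0 : 0 ≤ p := by linarith
  have hnn : ∀ x, 0 ≤ euc (g x - f x) ^ p + frob (jac g x - F x) ^ p := fun x =>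
    add_nonneg (Real.rpow_nonneg (Real.sqrt_nonneg _) _) (Real.rpow_nonneg (Real.sqrt_nonneg _) _)
  refine ⟨integral_nonneg hnn, ?_⟩
  refine (le_abs_self _).trans ?_
  rw [← Real.norm_eq_abs]
  refine (norm_integral_le_lintegral_norm _).trans ?_
  have h12 : (6 : ℝ) ^ p * (err p Ω f F g).toReal =
      (ENNReal.ofReal (6 ^ p) * err p Ω f F g).toReal := by
    rw [ENNReal.toReal_mul, ENNReal.toReal_ofReal (by positivity)]
  rw [h12]
  apply ENNReal.toReal_mono (ENNReal.mul_ne_top ENNReal.ofReal_ne_top ht)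
  have hm1 : AEMeasurable (fun x => ENNReal.ofReal (‖g x - f x‖ ^ p)) (volume.restrict Ω) := by
    have h1 : AEMeasurable (fun x => g x - f x) (volume.restrict Ω) :=
      (hg.continuousOn.sub hf).aemeasurable hΩ.measurableSet
    exact (h1.norm.pow_const p).ennreal_ofReal
  have hm2 : ∀ j, AEMeasurable (fun x =>
      ENNReal.ofReal (‖fderiv ℝ g x (ev j) - cl (F x) (ev j)‖ ^ p)) (volume.restrict Ω) := by
    intro j
    have h1 : AEMeasurable (fun x => fderiv ℝ g x (ev j)) (volume.restrict Ω) :=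
      ((hg.continuousOn_fderiv_of_isOpen hΩ (by simp)).clm_apply
        continuousOn_const).aemeasurable hΩ.measurableSet
    have h2 : AEMeasurable (fun x => cl (F x) (ev j)) (volume.restrict Ω) :=
      ((ContinuousLinearMap.apply ℝ V (ev j)).continuous.comp_aestronglyMeasurable
        (PK.IsSob.aesm hF)).aemeasurable
    exact ((h1.sub h2).norm.pow_const p).ennreal_ofReal
  have hsum : err p Ω f F g = ∫⁻ x in Ω, (ENNReal.ofReal (‖g x - f x‖ ^ p) +
      ∑ j, ENNReal.ofReal (‖fderiv ℝ g x (ev j) - cl (F x) (ev j)‖ ^ p)) := by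
    rw [lintegral_add_left' hm1, lintegral_finsetSum' _ fun j _ => hm2 j]
    rfl
  rw [hsum, ← lintegral_const_mul' _ _ ENNReal.ofReal_ne_top]
  refine setLIntegral_mono' hΩ.measurableSet fun x hx => ?_
  rw [Real.norm_of_nonneg (hnn x), ← ENNReal.ofReal_sum_of_nonneg fun j _ => by positivity,
    ← ENNReal.ofReal_add (by positivity) (Finset.sum_nonneg fun j _ => by positivity),
    ← ENNReal.ofReal_mul (by positivity)]
  apply ENNReal.ofReal_le_ofReal
  refine final_pt hp _ _ (fun j => fderiv ℝ g x (ev j) - cl (F x) (ev j)) fun i j => ?_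
  show jac g x i j - F x i j = _
  rw [jac_eq hΩ hg hx, Pi.sub_apply, PK.cl_apply]
  congr 1
  rw [Finset.sum_eq_single j]
  · simp [ev]
  · intro l _ hl
    simp [ev, hl]
  · simp

theorem add_rpow_le (hp : 1 ≤ p) (a b : V) :
    ENNReal.ofReal (‖a + b‖ ^ p) ≤
      2 ^ (p - 1) * (ENNReal.ofReal (‖a‖ ^ p) + ENNReal.ofReal (‖b‖ ^ p)) := by
  have hp0 : 0 ≤ p := by linarith
  simp_rw [ofReal_norm_rpow hp0]
  calc ‖a + b‖ₑ ^ p ≤ (‖a‖ₑ + ‖b‖ₑ) ^ p := ENNReal.rpow_le_rpow (enorm_add_le a b) hp0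
    _ ≤ 2 ^ (p - 1) * (‖a‖ₑ ^ p + ‖b‖ₑ ^ p) :=
        ENNReal.rpow_add_le_mul_rpow_add_rpow _ _ hp

theorem two_rpow_ne_top : (2 : ℝ≥0∞) ^ (p - 1) ≠ ⊤ := by
  rw [Ne, ENNReal.rpow_eq_top_iff]
  simp

/-- the limit -/
theorem approximable_of (hp : 1 ≤ p) (hΩ : IsBoundedDomain Ω)
    (hΛ : IsBoundedDomain Λ) {f : V → V} {F : V → Mat} (hf : ContinuousOn f Ω)
    (hF : IsSobolev p Ω f F) {b : ℕ → ℝ≥0∞} (hb : Tendsto b atTop (𝓝 0)) (hbt : ∀ k, b k ≠ ⊤)
    (H : ∀ k, ∃ g : V → V, IsDiffeo Ω Λ g ∧ err p Ω f F g ≤ b k) :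
    DiffeoApproximable p Ω Λ f F := by
  have hp0 : 0 ≤ p := by linarith
  choose g hg hgb using H
  have hgs : ∀ k, ContDiffOn ℝ ∞ (g k) Ω := fun k => diffeo_smooth (hg k)
  have het : ∀ k, err p Ω f F (g k) ≠ ⊤ := fun k => ne_top_of_le_ne_top (hbt k) (hgb k)
  obtain ⟨D, _, hD⟩ := norm_bound_of_domain hΛ
  refine ⟨g, fun k => ⟨hg k, ?_⟩, ?_⟩
  · refine isSobolev_of_smooth hp hΩ.1 (PK.volume_ne_top_of_domain hΩ) (hgs k)
      (fun x hx => hD _ (diffeo_maps (hg k) hx)) fun j => ?_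
    have h1 : ∫⁻ x in Ω, ENNReal.ofReal (‖fderiv ℝ (g k) x (ev j) - cl (F x) (ev j)‖ ^ p) ≠ ⊤ := by
      refine ne_top_of_le_ne_top (het k) ?_
      unfold err
      refine le_trans ?_ le_add_self
      exact Finset.single_le_sum (f := fun j => ∫⁻ x in Ω,
        ENNReal.ofReal (‖fderiv ℝ (g k) x (ev j) - cl (F x) (ev j)‖ ^ p))
        (fun _ _ => zero_le) (Finset.mem_univ j)
    have h2 : ∫⁻ x in Ω, ENNReal.ofReal (‖cl (F x) (ev j)‖ ^ p) ≠ ⊤ := by
      refine ne_top_of_le_ne_top (PK.IsSob.lintegral_ne_top hp hF) ?_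
      refine lintegral_mono fun x => ?_
      rw [ofReal_norm_rpow hp0]
      apply ENNReal.rpow_le_rpow _ hp0
      rw [← ofReal_norm, ← ofReal_norm]
      apply ENNReal.ofReal_le_ofReal
      refine (ContinuousLinearMap.le_opNorm _ _).trans ?_
      have : ‖ev j‖ = 1 := by unfold ev; rw [Pi.norm_single]; simp
      rw [this, mul_one]
    have hm : AEMeasurable (fun x => ENNReal.ofReal (‖cl (F x) (ev j)‖ ^ p))
        (volume.restrict Ω) := by
      have h2 : AEMeasurable (fun x => cl (F x) (ev j)) (volume.restrict Ω) :=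
        ((ContinuousLinearMap.apply ℝ V (ev j)).continuous.comp_aestronglyMeasurable
          (PK.IsSob.aesm hF)).aemeasurable
      exact (h2.norm.pow_const p).ennreal_ofReal
    have h3 : ∫⁻ x in Ω, ENNReal.ofReal (‖fderiv ℝ (g k) x (ev j)‖ ^ p) ≤
        2 ^ (p - 1) * ((∫⁻ x in Ω,
          ENNReal.ofReal (‖fderiv ℝ (g k) x (ev j) - cl (F x) (ev j)‖ ^ p)) +
          ∫⁻ x in Ω, ENNReal.ofReal (‖cl (F x) (ev j)‖ ^ p)) := by
      rw [← lintegral_add_right' _ hm, ← lintegral_const_mul' _ _ two_rpow_ne_top]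
      refine lintegral_mono fun x => ?_
      have := add_rpow_le hp (fderiv ℝ (g k) x (ev j) - cl (F x) (ev j)) (cl (F x) (ev j))
      rwa [sub_add_cancel] at this
    exact ne_top_of_le_ne_top (ENNReal.mul_ne_top two_rpow_ne_top
      (ENNReal.add_ne_top.2 ⟨h1, h2⟩)) h3
  · have h1 : Tendsto (fun k => 6 ^ p * (b k).toReal) atTop (𝓝 0) := by
      have := ((ENNReal.tendsto_toReal ENNReal.zero_ne_top).comp hb).const_mul ((6 : ℝ) ^ p)
      simpa using this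
    refine squeeze_zero (fun k => (int_le_err hp hΩ.1 hf hF (hgs k) (het k)).1)
      (fun k => ?_) h1
    refine (int_le_err hp hΩ.1 hf hF (hgs k) (het k)).2.trans ?_
    have := ENNReal.toReal_mono (hbt k) (hgb k)
    gcongr

/-- the limit, simplest form -/
theorem approximable_of' (hp : 1 ≤ p) (hΩ : IsBoundedDomain Ω)
    (hΛ : IsBoundedDomain Λ) {f : V → V} {F : V → Mat} (hf : ContinuousOn f Ω)
    (hF : IsSobolev p Ω f F)
    (H : ∀ ε : ℝ, 0 < ε → ∃ g : V → V, IsDiffeo Ω Λ g ∧ err p Ω f F g ≤ ENNReal.ofReal ε) :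
    DiffeoApproximable p Ω Λ f F := by
  refine approximable_of hp hΩ hΛ hf hF (b := fun k : ℕ => ENNReal.ofReal (1 / ((k : ℝ) + 1)))
    ?_ (fun k => ENNReal.ofReal_ne_top) fun k => H _ (by positivity)
  have := ENNReal.tendsto_ofReal (tendsto_one_div_add_atTop_nhds_zero_nat (𝕜 := ℝ))
  simpa using this

end Vale.Agent.P073.H880
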