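import Vale.Agent.P073.H880.AsmR4
import Vale.Agent.P073.H705.Cube3
import Vale.Agent.P073.H705.Bij
import Vale.Agent.P073.H739.Boxes
import Vale.Agent.P073.H694.Fill

/-!
# P073, theorem (R): singular sets with null coordinate projections, for `p < 3`
-/

namespace Vale.Agent.P073.H880

open MeasureTheory Set
open Vale.Agent.P073.St (V Mat)

variable {p : ℝ} {Ω Λ K : Set V}

/-- **Theorem (R)** -/
theorem main_R (hp : 1 ≤ p) (hp3 : p < 3) (hΩ : St.IsBoundedDomain Ω)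
    (hΛ : St.IsBoundedDomain Λ) (hK : K ⊆ Ω) (hKo : IsOpen (Ω \ K)) {f : V → V} {F : V → Mat}
    (hf : St.IsHomeo Ω Λ f) (hF : St.IsSobolev p Ω f F)
    (hfs : ContDiffOn ℝ 1 f (Ω \ K)) (hinj : ∀ x ∈ Ω \ K, ∀ v, fderiv ℝ f x v = 0 → v = 0)
    (hnull : ∀ k : Fin 3, volume ((fun x : V => x k) '' K) = 0) :
    St.DiffeoApproximable p Ω Λ f F :=
  removable_of H705.specCube3 H739.specBoxes H694.specFill (specFine H705.specBij) hp hp3 hΩ hΛ hf
    hF hK hKo hnull hfs hinj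

end Vale.Agent.P073.H880
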